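import Vale.Agent.P233.Gig.Defs

/-! P233, block C2-2T: two-time densities of level `ε` (helper305). -/

set_option linter.all false

open MeasureTheory Filter Topology Set
open scoped ENNReal NNReal

universe u

namespace Vale.Agent.P233.TT

open Vale.Agent.P233

variable {M : Type u} [MeasurableSpace M] {m : Measure M} {C : Calc m}

/-! ### exponentials -/

theorem ex_ae (f : M →ₘ[m] ℝ) : ⇑(ex f) =ᵐ[m] fun x => Real.exp (f x) :=
  AEEqFun.coeFn_comp _ Real.continuous_exp f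

theorem ex_add (f g : M →ₘ[m] ℝ) : ex (f + g) = ex f * ex g := by
  rw [eq_iff_ae]
  filter_upwards [ex_ae (f + g), ex_ae f, ex_ae g, add_ae f g, mul_ae (ex f) (ex g)]
    with x h1 h2 h3 h4 h5
  rw [h1, h4, h5, h2, h3, Real.exp_add]

theorem ex_zero : ex (0 : M →ₘ[m] ℝ) = 1 := by
  rw [eq_iff_ae]
  filter_upwards [ex_ae (0 : M →ₘ[m] ℝ), zero_ae (M := M) (m := m), one_ae (M := M) (m := m)]
    with x h1 h2 h3
  rw [h1, h2, h3, Real.exp_zero]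

theorem ex_neg_mul (f : M →ₘ[m] ℝ) : ex (-f) * ex f = 1 := by
  rw [← ex_add, neg_add_cancel, ex_zero]

theorem ex_mul_neg (f : M →ₘ[m] ℝ) : ex f * ex (-f) = 1 := by
  rw [← ex_add, add_neg_cancel, ex_zero]

theorem ex_pos (f : M →ₘ[m] ℝ) : ∀ᵐ x ∂m, 0 < ex f x := by
  filter_upwards [ex_ae f] with x h1
  rw [h1]; exact Real.exp_pos _

theorem ex_nonneg (f : M →ₘ[m] ℝ) : 0 ≤ ex f :=
  nonneg_iff_ae.2 ((ex_pos f).mono fun _ h => h.le)

/-- the density of a pair is the product -/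
theorem rh_eq (ε : ℝ) (φ u : ℝ → M →ₘ[m] ℝ) (t : ℝ) :
    rh ε φ u t = ex (ε⁻¹ • φ t) * ex (-(ε⁻¹ • u t)) := by
  rw [← ex_add, rh]
  congr 1
  rw [smul_sub]; abel

/-! ### positive functions `1 + L²` and the semigroup -/

section heat

variable {K : ℝ} {P : ℝ → (M →ₘ[m] ℝ) → (M →ₘ[m] ℝ)} (hP : Heat C K P)
include hP

theorem P_sub {t : ℝ} (ht : 0 ≤ t) {f g : M →ₘ[m] ℝ} (hf : MemLp f 2 m) (hg : MemLp g 2 m) :
    P t (f - g) = P t f - P t g := by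
  have h := hP.add t ht (f - g) g (mem_sub hf hg) hg
  rw [sub_add_cancel] at h
  rw [h]; abel

theorem P_neg {t : ℝ} (ht : 0 ≤ t) {f : M →ₘ[m] ℝ} (hf : MemLp f 2 m) :
    P t (-f) = -P t f := by
  have h := hP.smul t ht (-1) f hf
  simpa using h

/-- comparison with a constant plus an `L²` function -/
theorem P_le_add {t : ℝ} (ht : 0 ≤ t) {h h0 : M →ₘ[m] ℝ} (hh : MemLp h 2 m) (hh0 : MemLp h0 2 m)
    {c : ℝ} (hc : 0 ≤ c) (hle : ∀ᵐ x ∂m, h x ≤ c + h0 x) :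
    ∀ᵐ x ∂m, P t h x ≤ c + P t h0 x := by
  have h1 := hP.le t ht (h - h0) (mem_sub hh hh0) c hc (by
    filter_upwards [hle, sub_ae h h0] with x a1 a2
    rw [a2]; linarith)
  rw [P_sub hP ht hh hh0] at h1
  filter_upwards [h1, sub_ae (P t h) (P t h0)] with x a1 a2
  rw [a2] at a1; linarith

theorem P_mono {t : ℝ} (ht : 0 ≤ t) {f g : M →ₘ[m] ℝ} (hf : MemLp f 2 m) (hg : MemLp g 2 m)
    (h : f ≤ g) : P t f ≤ P t g := by
  have h1 := hP.nonneg t ht (g - f) (mem_sub hg hf) (sub_nonneg.2 h)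
  rw [P_sub hP ht hg hf] at h1
  exact sub_nonneg.1 h1

/-- `F = 1 + L²` is transported to `F'`: `F' - 1 = P (F - 1)`; then `|P (k F)| ≤ c F'` if
`|k| ≤ c`. -/
theorem P_mul_le {t : ℝ} (ht : 0 ≤ t) {F F' k : M →ₘ[m] ℝ} (hF : MemLp (F - 1 : M →ₘ[m] ℝ) 2 m)
    (hF0 : 0 ≤ F) (hkF : MemLp (k * F : M →ₘ[m] ℝ) 2 m)
    (hF' : F' - 1 = P t (F - 1)) {c : ℝ} (hc : 0 ≤ c) (hk : ∀ᵐ x ∂m, k x ≤ c) :
    ∀ᵐ x ∂m, P t (k * F) x ≤ c * F' x := by
  have h1 := P_le_add hP ht (h := k * F) (h0 := c • (F - 1)) hkF (mem_smul c hF) hc (by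
    filter_upwards [hk, mul_ae k F, smul_ae (F - 1) c, sub_ae F 1, one_ae (M := M) (m := m),
      nonneg_iff_ae.1 hF0] with x a1 a2 a3 a4 a5 a6
    rw [a2, a3, a4, a5]
    nlinarith)
  rw [hP.smul t ht c _ hF, ← hF'] at h1
  filter_upwards [h1, smul_ae (F' - 1) c, sub_ae F' 1, one_ae (M := M) (m := m)]
    with x a1 a2 a3 a4
  rw [a2, a3, a4] at a1
  linarith

/-- lower version -/
theorem le_P_mul {t : ℝ} (ht : 0 ≤ t) {F F' k : M →ₘ[m] ℝ} (hF : MemLp (F - 1 : M →ₘ[m] ℝ) 2 m)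
    (hF0 : 0 ≤ F) (hkF : MemLp (k * F : M →ₘ[m] ℝ) 2 m)
    (hF' : F' - 1 = P t (F - 1)) {c : ℝ} (hc : 0 ≤ c) (hk : ∀ᵐ x ∂m, -c ≤ k x) :
    ∀ᵐ x ∂m, -(c * F' x) ≤ P t (k * F) x := by
  have h1 := P_mul_le hP ht (k := -k) hF hF0 (by
    have := mem_neg hkF
    rwa [← neg_mul] at this) hF' hc (by
    filter_upwards [hk, neg_ae k] with x a1 a2
    rw [a2]; linarith)
  rw [neg_mul, P_neg hP ht hkF] at h1
  filter_upwards [h1, neg_ae (P t (k * F))] with x a1 a2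
  rw [a2] at a1; linarith

/-- Cauchy-Schwarz for the semigroup: `(P (k F))² ≤ P (k² F) F'`. -/
theorem P_cs {t : ℝ} (ht : 0 ≤ t) {F F' k : M →ₘ[m] ℝ} (hF : MemLp (F - 1 : M →ₘ[m] ℝ) 2 m)
    (hF0 : 0 ≤ F) (hkF : MemLp (k * F : M →ₘ[m] ℝ) 2 m)
    (hk2F : MemLp (k ^ 2 * F : M →ₘ[m] ℝ) 2 m) (hF' : F' - 1 = P t (F - 1)) :
    ∀ᵐ x ∂m, P t (k * F) x ^ 2 ≤ P t (k ^ 2 * F) x * F' x := by
  have key : ∀ q : ℚ, ∀ᵐ x ∂m,
      0 ≤ P t (k ^ 2 * F) x + 2 * (q : ℝ) * P t (k * F) x + (q : ℝ) ^ 2 * F' x := by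
    intro q
    have hm : MemLp (k ^ 2 * F + (2 * (q : ℝ)) • (k * F) : M →ₘ[m] ℝ) 2 m :=
      mem_add hk2F (mem_smul _ hkF)
    have h1 := P_le_add hP ht (h := -(k ^ 2 * F + (2 * (q : ℝ)) • (k * F)))
      (h0 := ((q : ℝ) ^ 2) • (F - 1)) (mem_neg hm) (mem_smul _ hF) (sq_nonneg (q : ℝ)) (by
      filter_upwards [neg_ae (k ^ 2 * F + (2 * (q : ℝ)) • (k * F)),
        add_ae (k ^ 2 * F) ((2 * (q : ℝ)) • (k * F)), smul_ae (k * F) (2 * (q : ℝ)),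
        mul_ae (k ^ 2) F, mul_ae k F, sq_ae k, smul_ae (F - 1) ((q : ℝ) ^ 2), sub_ae F 1,
        one_ae (M := M) (m := m), nonneg_iff_ae.1 hF0] with x a1 a2 a3 a4 a5 a6 a7 a8 a9 a10
      rw [a1, a2, a3, a4, a5, a6, a7, a8, a9]
      nlinarith [mul_nonneg (sq_nonneg (k x + q)) a10])
    rw [P_neg hP ht hm, hP.add t ht _ _ hk2F (mem_smul _ hkF), hP.smul t ht _ _ hkF,
      hP.smul t ht _ _ hF, ← hF'] at h1
    filter_upwards [h1, neg_ae (P t (k ^ 2 * F) + (2 * (q : ℝ)) • P t (k * F)),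
      add_ae (P t (k ^ 2 * F)) ((2 * (q : ℝ)) • P t (k * F)), smul_ae (P t (k * F)) (2 * (q : ℝ)),
      smul_ae (F' - 1) ((q : ℝ) ^ 2), sub_ae F' 1, one_ae (M := M) (m := m)]
      with x a1 a2 a3 a4 a5 a6 a7
    rw [a2, a3, a4, a5, a6, a7] at a1
    linarith
  filter_upwards [ae_all_iff.2 key] with x hx
  have := forall_real_of_rat hx
  have h2 := disc_of_forall this
  nlinarith [h2]

end heat


/-! ### the two-time densities -/

/-- The data of level `ε` in terms of `f = exp (φ/ε)` and `g = exp (-u/ε)`. -/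
structure FG (C : Calc m) (P : ℝ → (M →ₘ[m] ℝ) → (M →ₘ[m] ℝ)) (ε a b : ℝ)
    (f g : ℝ → M →ₘ[m] ℝ) : Prop where
  hε : 0 < ε
  hab : a < b
  f_mem : ∀ t ∈ Icc a b, f t - 1 ∈ C.TestI
  g_mem : ∀ t ∈ Icc a b, g t - 1 ∈ C.TestI
  f_pos : ∀ t ∈ Icc a b, ∀ᵐ x ∂m, 0 < f t x
  g_pos : ∀ t ∈ Icc a b, ∀ᵐ x ∂m, 0 < g t x
  f_eq : ∀ t ∈ Icc a b, f t - 1 = P (ε * (b - t) / 2) (f b - 1)
  g_eq : ∀ t ∈ Icc a b, g t - 1 = P (ε * (t - a) / 2) (g a - 1)

/-- `f = exp (φ/ε)` -/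
noncomputable def ff (ε : ℝ) (φ : ℝ → M →ₘ[m] ℝ) (t : ℝ) : M →ₘ[m] ℝ := ex (ε⁻¹ • φ t)

/-- `g = exp (-u/ε)` -/
noncomputable def gg (ε : ℝ) (u : ℝ → M →ₘ[m] ℝ) (t : ℝ) : M →ₘ[m] ℝ := ex (-(ε⁻¹ • u t))

theorem FG.of_pair {P : ℝ → (M →ₘ[m] ℝ) → (M →ₘ[m] ℝ)} {ε a b : ℝ} {φ u : ℝ → M →ₘ[m] ℝ}
    (h : Pair C P ε a b φ u) : FG C P ε a b (ff ε φ) (gg ε u) where
  hε := h.hε
  hab := h.hab
  f_mem := h.f_mem
  g_mem := h.g_mem
  f_pos := fun t _ => ex_pos _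
  g_pos := fun t _ => ex_pos _
  f_eq := h.f_eq
  g_eq := h.g_eq

/-- The density at time `t` of the weight `k(X_r)`. -/
noncomputable def RR (P : ℝ → (M →ₘ[m] ℝ) → (M →ₘ[m] ℝ)) (ε : ℝ) (f g : ℝ → M →ₘ[m] ℝ)
    (t r : ℝ) (k : M →ₘ[m] ℝ) : M →ₘ[m] ℝ :=
  open Classical in
  if t ≤ r then g t * P (ε * (r - t) / 2) (k * f r) else f t * P (ε * (t - r) / 2) (k * g r)

section FG

variable {K ε a b : ℝ} {P : ℝ → (M →ₘ[m] ℝ) → (M →ₘ[m] ℝ)} {f g : ℝ → M →ₘ[m] ℝ}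
  {k l : M →ₘ[m] ℝ} {t r s : ℝ}

theorem RR_of_le (h : t ≤ r) (k : M →ₘ[m] ℝ) :
    RR P ε f g t r k = g t * P (ε * (r - t) / 2) (k * f r) := if_pos h

section basic

variable (hC : IsGamma C) (h : FG C P ε a b f g)
include hC h

theorem FG.top_f (ht : t ∈ Icc a b) : MemLp (f t) ∞ m := by
  have := mem_add (hC.test_A (h.f_mem t ht).1).2 (mem_top_one (M := M) (m := m))
  rwa [sub_add_cancel] at this

theorem FG.top_g (ht : t ∈ Icc a b) : MemLp (g t) ∞ m := by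
  have := mem_add (hC.test_A (h.g_mem t ht).1).2 (mem_top_one (M := M) (m := m))
  rwa [sub_add_cancel] at this

theorem FG.f2 (ht : t ∈ Icc a b) : MemLp (f t - 1 : M →ₘ[m] ℝ) 2 m :=
  hC.memLp _ (hC.test_A (h.f_mem t ht).1).1

theorem FG.g2 (ht : t ∈ Icc a b) : MemLp (g t - 1 : M →ₘ[m] ℝ) 2 m :=
  hC.memLp _ (hC.test_A (h.g_mem t ht).1).1

omit hC in
theorem FG.f0 (ht : t ∈ Icc a b) : 0 ≤ f t := nonneg_iff_ae.2 ((h.f_pos t ht).mono fun _ h => h.le)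

omit hC in
theorem FG.g0 (ht : t ∈ Icc a b) : 0 ≤ g t := nonneg_iff_ae.2 ((h.g_pos t ht).mono fun _ h => h.le)

theorem FG.top_rho (ht : t ∈ Icc a b) : MemLp (f t * g t : M →ₘ[m] ℝ) ∞ m :=
  mem_mul_top (h.top_f hC ht) (h.top_g hC ht)

variable (hP : Heat C K P)
include hP

theorem FG.trans_f (hs : s ∈ Icc a b) (ht : t ∈ Icc a b) (hst : s ≤ t) :
    f s - 1 = P (ε * (t - s) / 2) (f t - 1) := by
  have hε := h.hε
  rw [h.f_eq s hs, h.f_eq t ht, ← hP.semi _ _ (by have := sub_nonneg.2 hst; positivity)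
    (by have := sub_nonneg.2 ht.2; positivity) _ (h.f2 hC (right_mem_Icc.2 h.hab.le))]
  congr 1; ring

theorem FG.trans_g (hs : s ∈ Icc a b) (ht : t ∈ Icc a b) (hst : s ≤ t) :
    g t - 1 = P (ε * (t - s) / 2) (g s - 1) := by
  have hε := h.hε
  rw [h.g_eq s hs, h.g_eq t ht, ← hP.semi _ _ (by have := sub_nonneg.2 hst; positivity)
    (by have := sub_nonneg.2 hs.1; positivity) _ (h.g2 hC (left_mem_Icc.2 h.hab.le))]
  congr 1; ring

theorem RR_self (ht : t ∈ Icc a b) (hk : MemLp k 2 m) : RR P ε f g t t k = k * (f t * g t) := by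
  rw [RR_of_le le_rfl, sub_self, mul_zero, zero_div, hP.zero _ (mem_top_mul hk (h.top_f hC ht))]
  ring

theorem RR_of_ge (ht : t ∈ Icc a b) (hrt : r ≤ t) (hk : MemLp k 2 m) :
    RR P ε f g t r k = f t * P (ε * (t - r) / 2) (k * g r) := by
  rcases hrt.eq_or_lt with rfl | hlt
  · rw [RR_self hC h hP ht hk, sub_self, mul_zero, zero_div,
      hP.zero _ (mem_top_mul hk (h.top_g hC ht))]
    ring
  · exact if_neg (not_le.2 hlt)

theorem tau_nonneg {s t : ℝ} (hst : s ≤ t) : 0 ≤ ε * (t - s) / 2 := by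
  have := h.hε
  have := sub_nonneg.2 hst
  positivity

theorem RR_mem2 (ht : t ∈ Icc a b) (hr : r ∈ Icc a b) (hk : MemLp k 2 m) :
    MemLp (RR P ε f g t r k) 2 m := by
  rcases le_total t r with h1 | h1
  · rw [RR_of_le h1]
    exact mem_mul_top (h.top_g hC ht) (hP.mem _ (tau_nonneg hC h hP h1) _
      (mem_top_mul hk (h.top_f hC hr)))
  · rw [RR_of_ge hC h hP ht h1 hk]
    exact mem_mul_top (h.top_f hC ht) (hP.mem _ (tau_nonneg hC h hP h1) _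
      (mem_top_mul hk (h.top_g hC hr)))

theorem RR_add (ht : t ∈ Icc a b) (hr : r ∈ Icc a b) (hk : MemLp k 2 m) (hl : MemLp l 2 m) :
    RR P ε f g t r (k + l) = RR P ε f g t r k + RR P ε f g t r l := by
  rcases le_total t r with h1 | h1
  · rw [RR_of_le h1, RR_of_le h1, RR_of_le h1, add_mul, hP.add _ (tau_nonneg hC h hP h1) _ _
      (mem_top_mul hk (h.top_f hC hr)) (mem_top_mul hl (h.top_f hC hr)), mul_add]
  · rw [RR_of_ge hC h hP ht h1 hk, RR_of_ge hC h hP ht h1 hl,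
      RR_of_ge hC h hP ht h1 (mem_add hk hl), add_mul, hP.add _ (tau_nonneg hC h hP h1) _ _
      (mem_top_mul hk (h.top_g hC hr)) (mem_top_mul hl (h.top_g hC hr)), mul_add]

theorem RR_smul (ht : t ∈ Icc a b) (hr : r ∈ Icc a b) (c : ℝ) (hk : MemLp k 2 m) :
    RR P ε f g t r (c • k) = c • RR P ε f g t r k := by
  rcases le_total t r with h1 | h1
  · rw [RR_of_le h1, RR_of_le h1, smul_mul_assoc, hP.smul _ (tau_nonneg hC h hP h1) _ _
      (mem_top_mul hk (h.top_f hC hr)), mul_smul_comm]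
  · rw [RR_of_ge hC h hP ht h1 hk, RR_of_ge hC h hP ht h1 (mem_smul c hk), smul_mul_assoc,
      hP.smul _ (tau_nonneg hC h hP h1) _ _ (mem_top_mul hk (h.top_g hC hr)), mul_smul_comm]

theorem RR_nonneg (ht : t ∈ Icc a b) (hr : r ∈ Icc a b) (hk : MemLp k 2 m) (hk0 : 0 ≤ k) :
    0 ≤ RR P ε f g t r k := by
  rcases le_total t r with h1 | h1
  · rw [RR_of_le h1]
    exact mul_nonneg (h.g0 ht) (hP.nonneg _ (tau_nonneg hC h hP h1) _
      (mem_top_mul hk (h.top_f hC hr)) (mul_nonneg hk0 (h.f0 hr)))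
  · rw [RR_of_ge hC h hP ht h1 hk]
    exact mul_nonneg (h.f0 ht) (hP.nonneg _ (tau_nonneg hC h hP h1) _
      (mem_top_mul hk (h.top_g hC hr)) (mul_nonneg hk0 (h.g0 hr)))

theorem RR_le (ht : t ∈ Icc a b) (hr : r ∈ Icc a b) (hk : MemLp k 2 m) {c : ℝ} (hc : 0 ≤ c)
    (hkc : ∀ᵐ x ∂m, |k x| ≤ c) :
    ∀ᵐ x ∂m, |RR P ε f g t r k x| ≤ c * (f t * g t : M →ₘ[m] ℝ) x := by
  rcases le_total t r with h1 | h1
  · have a1 := P_mul_le hP (tau_nonneg hC h hP h1) (h.f2 hC hr) (h.f0 hr)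
      (mem_top_mul hk (h.top_f hC hr)) (h.trans_f hC hP ht hr h1) hc
      (hkc.mono fun x hx => (le_abs_self _).trans hx)
    have a2 := le_P_mul hP (tau_nonneg hC h hP h1) (h.f2 hC hr) (h.f0 hr)
      (mem_top_mul hk (h.top_f hC hr)) (h.trans_f hC hP ht hr h1) hc
      (hkc.mono fun x hx => (abs_le.1 hx).1)
    rw [RR_of_le h1]
    filter_upwards [a1, a2, mul_ae (g t) (P (ε * (r - t) / 2) (k * f r)), mul_ae (f t) (g t),
      h.g_pos t ht] with x b1 b2 b3 b4 b5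
    rw [b3, b4, abs_le]
    constructor <;> nlinarith
  · have a1 := P_mul_le hP (tau_nonneg hC h hP h1) (h.g2 hC hr) (h.g0 hr)
      (mem_top_mul hk (h.top_g hC hr)) (h.trans_g hC hP hr ht h1) hc
      (hkc.mono fun x hx => (le_abs_self _).trans hx)
    have a2 := le_P_mul hP (tau_nonneg hC h hP h1) (h.g2 hC hr) (h.g0 hr)
      (mem_top_mul hk (h.top_g hC hr)) (h.trans_g hC hP hr ht h1) hc
      (hkc.mono fun x hx => (abs_le.1 hx).1)
    rw [RR_of_ge hC h hP ht h1 hk]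
    filter_upwards [a1, a2, mul_ae (f t) (P (ε * (t - r) / 2) (k * g r)), mul_ae (f t) (g t),
      h.f_pos t ht] with x b1 b2 b3 b4 b5
    rw [b3, b4, abs_le]
    constructor <;> nlinarith

theorem RR_symm (ht : t ∈ Icc a b) (hr : r ∈ Icc a b) (hk : MemLp k 2 m) (hl : MemLp l 2 m) :
    I (l * RR P ε f g t r k) = I (k * RR P ε f g r t l) := by
  have key : ∀ t ∈ Icc a b, ∀ r ∈ Icc a b, ∀ k l : M →ₘ[m] ℝ, MemLp k 2 m → MemLp l 2 m → t ≤ r →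
      I (l * RR P ε f g t r k) = I (k * RR P ε f g r t l) := by
    intro t ht r hr k l hk hl h1
    rw [RR_of_le h1, RR_of_ge hC h hP hr h1 hl]
    have e1 : l * (g t * P (ε * (r - t) / 2) (k * f r)) = (l * g t) * P (ε * (r - t) / 2) (k * f r) := by
      ring
    have e2 : k * (f r * P (ε * (r - t) / 2) (l * g t)) = P (ε * (r - t) / 2) (l * g t) * (k * f r) := by
      ring
    rw [e1, e2, hP.symm _ (tau_nonneg hC h hP h1) _ _ (mem_top_mul hl (h.top_g hC ht))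
      (mem_top_mul hk (h.top_f hC hr))]
  rcases le_total t r with h1 | h1
  · exact key t ht r hr k l hk hl h1
  · exact (key r hr t ht l k hl hk h1).symm

theorem RR_mem1 (ht : t ∈ Icc a b) (hr : r ∈ Icc a b) (hk : MemLp k 2 m) (hk1 : MemLp k 1 m) :
    MemLp (RR P ε f g t r k) 1 m := by
  rcases le_total t r with h1 | h1
  · rw [RR_of_le h1]
    exact mem_mul_top (h.top_g hC ht) (hP.L1 _ (tau_nonneg hC h hP h1) _
      (mem_top_mul hk (h.top_f hC hr)) (mem_top_mul hk1 (h.top_f hC hr)))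
  · rw [RR_of_ge hC h hP ht h1 hk]
    exact mem_mul_top (h.top_f hC ht) (hP.L1 _ (tau_nonneg hC h hP h1) _
      (mem_top_mul hk (h.top_g hC hr)) (mem_top_mul hk1 (h.top_g hC hr)))

theorem RR_mass (ht : t ∈ Icc a b) (hr : r ∈ Icc a b) (hk : MemLp k 2 m) (hk1 : MemLp k 1 m) :
    I (RR P ε f g t r k) = I (k * (f r * g r)) := by
  rcases le_total t r with h1 | h1
  · have m2 := mem_top_mul hk (h.top_f hC hr)
    have m1 := mem_top_mul hk1 (h.top_f hC hr)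
    have p2 := hP.mem _ (tau_nonneg hC h hP h1) _ m2
    have p1 := hP.L1 _ (tau_nonneg hC h hP h1) _ m2 m1
    rw [RR_of_le h1]
    have e1 : g t * P (ε * (r - t) / 2) (k * f r)
        = (g t - 1) * P (ε * (r - t) / 2) (k * f r) + P (ε * (r - t) / 2) (k * f r) := by ring
    have e2 : k * (f r * g r) = (g r - 1) * (k * f r) + k * f r := by ring
    rw [e1, e2, I_add (mem_mul_22 (h.g2 hC ht) p2) p1, I_add (mem_mul_22 (h.g2 hC hr) m2) m1,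
      hP.mass _ (tau_nonneg hC h hP h1) _ m2 m1, h.trans_g hC hP ht hr h1,
      hP.symm _ (tau_nonneg hC h hP h1) _ _ (h.g2 hC ht) m2]
  · have m2 := mem_top_mul hk (h.top_g hC hr)
    have m1 := mem_top_mul hk1 (h.top_g hC hr)
    have p2 := hP.mem _ (tau_nonneg hC h hP h1) _ m2
    have p1 := hP.L1 _ (tau_nonneg hC h hP h1) _ m2 m1
    rw [RR_of_ge hC h hP ht h1 hk]
    have e1 : f t * P (ε * (t - r) / 2) (k * g r)
        = (f t - 1) * P (ε * (t - r) / 2) (k * g r) + P (ε * (t - r) / 2) (k * g r) := by ring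
    have e2 : k * (f r * g r) = (f r - 1) * (k * g r) + k * g r := by ring
    rw [e1, e2, I_add (mem_mul_22 (h.f2 hC ht) p2) p1, I_add (mem_mul_22 (h.f2 hC hr) m2) m1,
      hP.mass _ (tau_nonneg hC h hP h1) _ m2 m1, h.trans_f hC hP hr ht h1,
      hP.symm _ (tau_nonneg hC h hP h1) _ _ (h.f2 hC ht) m2]

theorem RR_cs (ht : t ∈ Icc a b) (hr : r ∈ Icc a b) (hk : MemLp k 2 m) (hkt : MemLp k ∞ m) :
    ∀ᵐ x ∂m, RR P ε f g t r k x ^ 2 ≤ (f t * g t : M →ₘ[m] ℝ) x * RR P ε f g t r (k ^ 2) x := by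
  have hk2 : MemLp (k ^ 2 : M →ₘ[m] ℝ) 2 m := by rw [pow_two]; exact mem_mul_top hkt hk
  rcases le_total t r with h1 | h1
  · have a1 := P_cs hP (tau_nonneg hC h hP h1) (k := k) (h.f2 hC hr) (h.f0 hr)
      (mem_top_mul hk (h.top_f hC hr)) (mem_top_mul hk2 (h.top_f hC hr))
      (h.trans_f hC hP ht hr h1)
    rw [RR_of_le h1, RR_of_le h1]
    filter_upwards [a1, mul_ae (g t) (P (ε * (r - t) / 2) (k * f r)), mul_ae (f t) (g t),
      mul_ae (g t) (P (ε * (r - t) / 2) (k ^ 2 * f r))] with x b1 b2 b3 b4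
    rw [b2, b3, b4]
    nlinarith [mul_le_mul_of_nonneg_left b1 (sq_nonneg (g t x))]
  · have a1 := P_cs hP (tau_nonneg hC h hP h1) (k := k) (h.g2 hC hr) (h.g0 hr)
      (mem_top_mul hk (h.top_g hC hr)) (mem_top_mul hk2 (h.top_g hC hr))
      (h.trans_g hC hP hr ht h1)
    rw [RR_of_ge hC h hP ht h1 hk, RR_of_ge hC h hP ht h1 hk2]
    filter_upwards [a1, mul_ae (f t) (P (ε * (t - r) / 2) (k * g r)), mul_ae (f t) (g t),
      mul_ae (f t) (P (ε * (t - r) / 2) (k ^ 2 * g r))] with x b1 b2 b3 b4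
    rw [b2, b3, b4]
    nlinarith [mul_le_mul_of_nonneg_left b1 (sq_nonneg (f t x))]

end basic

end FG

end Vale.Agent.P233.TT
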