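import Vale.Agent.P233.H305.TwoTime
import Vale.Agent.P233.H66.Time2

/-! P233, block C2-2T: three-time inequality and the continuity equation of level `ε`
for the two-time densities (helper305). -/

set_option linter.all false

open MeasureTheory Filter Topology Set
open scoped ENNReal NNReal

universe u

namespace Vale.Agent.P233.TT

open Vale.Agent.P233

variable {M : Type u} [MeasurableSpace M] {m : Measure M} {C : Calc m}

/-! ### limits of products -/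

section lim

variable {ι : Type*} {l : Filter ι} {X Y : ι → M →ₘ[m] ℝ} {x y : M →ₘ[m] ℝ}

theorem sqrt_tendsto_zero {a : ι → ℝ} (h : Tendsto a l (𝓝 0)) :
    Tendsto (fun i => √(a i)) l (𝓝 0) := by
  have := (Real.continuous_sqrt.tendsto 0).comp h
  simpa [Function.comp_def] using this

theorem tendsto_I_mul (hX : ∀ᶠ i in l, MemLp (X i) 2 m) (hY : ∀ᶠ i in l, MemLp (Y i) 2 m)
    (hx : MemLp x 2 m) (hy : MemLp y 2 m)
    (h1 : Tendsto (fun i => I ((X i - x) ^ 2)) l (𝓝 0))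
    (h2 : Tendsto (fun i => I ((Y i - y) ^ 2)) l (𝓝 0)) :
    Tendsto (fun i => I (X i * Y i)) l (𝓝 (I (x * y))) := by
  rw [tendsto_iff_dist_tendsto_zero]
  have l1 := sqrt_tendsto_zero h1
  have l2 := sqrt_tendsto_zero h2
  have l3 : Tendsto (fun i => √(I ((X i - x) ^ 2)) * √(I ((Y i - y) ^ 2))
      + √(I ((X i - x) ^ 2)) * √(I (y ^ 2)) + √(I (x ^ 2)) * √(I ((Y i - y) ^ 2))) l (𝓝 0) := by
    have := ((l1.mul l2).add (l1.mul_const (√(I (y ^ 2))))).add (l2.const_mul (√(I (x ^ 2))))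
    simpa using this
  refine squeeze_zero' (Eventually.of_forall fun _ => dist_nonneg) ?_ l3
  filter_upwards [hX, hY] with i a b
  rw [Real.dist_eq]
  have e : X i * Y i = (X i - x) * (Y i - y) + (X i - x) * y + x * (Y i - y) + x * y := by ring
  have e2 : I (X i * Y i) - I (x * y)
      = I ((X i - x) * (Y i - y)) + I ((X i - x) * y) + I (x * (Y i - y)) := by
    conv_lhs => rw [e]
    rw [I_add (mem_add (mem_add (mem_mul_22 (mem_sub a hx) (mem_sub b hy))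
      (mem_mul_22 (mem_sub a hx) hy)) (mem_mul_22 hx (mem_sub b hy))) (mem_mul_22 hx hy),
      I_add (mem_add (mem_mul_22 (mem_sub a hx) (mem_sub b hy))
      (mem_mul_22 (mem_sub a hx) hy)) (mem_mul_22 hx (mem_sub b hy)),
      I_add (mem_mul_22 (mem_sub a hx) (mem_sub b hy)) (mem_mul_22 (mem_sub a hx) hy)]
    ring
  rw [e2]
  have b1 := I_abs_le (mem_sub a hx) (mem_sub b hy)
  have b2 := I_abs_le (mem_sub a hx) hy
  have b3 := I_abs_le hx (mem_sub b hy)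
  exact (abs_add_le _ _).trans (add_le_add ((abs_add_le _ _).trans (add_le_add b1 b2)) b3)

/-- strong times weak -/
theorem tendsto_I_weak {S : ℝ} (hX : ∀ᶠ i in l, MemLp (X i) 2 m)
    (hY : ∀ᶠ i in l, MemLp (Y i) 2 m ∧ I (Y i ^ 2) ≤ S)
    (hx : MemLp x 2 m) (hy : MemLp y 2 m)
    (h1 : Tendsto (fun i => I ((X i - x) ^ 2)) l (𝓝 0))
    (h2 : Tendsto (fun i => I (x * Y i)) l (𝓝 (I (x * y)))) :
    Tendsto (fun i => I (X i * Y i)) l (𝓝 (I (x * y))) := by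
  have l1 := sqrt_tendsto_zero h1
  have l3 : Tendsto (fun i => I (X i * Y i) - I (x * Y i)) l (𝓝 0) := by
    rw [tendsto_zero_iff_abs_tendsto_zero]
    refine squeeze_zero' (Eventually.of_forall fun _ => abs_nonneg _) ?_
      (by simpa using l1.mul_const (√S))
    filter_upwards [hX, hY] with i a b
    have e : X i * Y i = (X i - x) * Y i + x * Y i := by ring
    have e2 : I (X i * Y i) - I (x * Y i) = I ((X i - x) * Y i) := by
      conv_lhs => rw [e]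
      rw [I_add (mem_mul_22 (mem_sub a hx) b.1) (mem_mul_22 hx b.1)]
      ring
    rw [Function.comp_apply, e2]
    refine (I_abs_le (mem_sub a hx) b.1).trans ?_
    exact mul_le_mul_of_nonneg_left (Real.sqrt_le_sqrt b.2) (Real.sqrt_nonneg _)
  have := l3.add h2
  simpa using this

end lim

/-! ### derivatives -/

section deriv

variable {x y : ℝ → M →ₘ[m] ℝ} {x' y' b : M →ₘ[m] ℝ} {S : Set ℝ} {t : ℝ}

theorem I_mul_bdd_sq {F : M →ₘ[m] ℝ} (hF : MemLp F 2 m) {c : ℝ} (hc : ∀ᵐ x ∂m, |b x| ≤ c) :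
    I ((b * F) ^ 2) ≤ c ^ 2 * I (F ^ 2) := by
  have hb : MemLp b ∞ m := mem_top_iff.2 ⟨c, hc⟩
  have h1 : MemLp ((b * F) ^ 2 : M →ₘ[m] ℝ) 1 m := mem_sq (mem_mul_top hb hF)
  rw [← I_smul]
  refine I_mono h1 (mem_smul _ (mem_sq hF)) (le_iff_ae.2 ?_)
  filter_upwards [hc, sq_ae (b * F), mul_ae b F, smul_ae (F ^ 2) (c ^ 2), sq_ae F]
    with x a1 a2 a3 a4 a5
  rw [a2, a3, a4, a5, mul_pow]
  exact mul_le_mul_of_nonneg_right (sq_le_sq' (by linarith [(abs_le.1 a1).1]) (abs_le.1 a1).2)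
    (sq_nonneg _)

theorem DL2_mul_bdd (hb : MemLp b ∞ m) (h : DL2 x x' S t) :
    DL2 (fun s => b * x s) (b * x') S t := by
  obtain ⟨c, hc⟩ := mem_top_iff.1 hb
  have e : ∀ r, b * x r - b * x t = b * (x r - x t) := fun r => by ring
  refine ⟨fun r hr => ?_, mem_mul_top hb h.mem', ?_⟩
  · rw [e]; exact mem_mul_top hb (h.mem r hr)
  · refine squeeze_zero' (Eventually.of_forall fun _ => I_sq_nonneg _) ?_
      (by simpa using h.lim.const_mul (c ^ 2))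
    filter_upwards [self_mem_nhdsWithin] with r hr
    have e2 : (r - t)⁻¹ • (b * x r - b * x t) - b * x'
        = b * ((r - t)⁻¹ • (x r - x t) - x') := by
      rw [e, mul_sub b ((r - t)⁻¹ • (x r - x t)) x', mul_smul_comm]
    rw [e2]
    exact I_mul_bdd_sq (mem_sub (mem_smul _ (h.mem r hr.1)) h.mem') hc

theorem hasDeriv_I_mul (h1 : DL2 x x' S t) (h2 : DL2 y y' S t)
    (hx : ∀ s ∈ S, MemLp (x s) 2 m) (hxt : MemLp (x t) 2 m)
    (hy : ∀ s ∈ S, MemLp (y s) 2 m) (hyt : MemLp (y t) 2 m) :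
    HasDerivWithinAt (fun s => I (x s * y s)) (I (x' * y t) + I (x t * y')) S t := by
  rw [hasDerivWithinAt_iff_tendsto_slope]
  have c2 : Tendsto (fun r => I ((y r - y t) ^ 2)) (𝓝[S \ {t}] t) (𝓝 0) :=
    h2.cont.mono_left (nhdsWithin_mono _ diff_subset)
  have k1 : Tendsto (fun s => I (((s - t)⁻¹ • (x s - x t)) * y s)) (𝓝[S \ {t}] t)
      (𝓝 (I (x' * y t))) := by
    refine tendsto_I_mul ?_ ?_ h1.mem' hyt h1.lim c2
    · filter_upwards [self_mem_nhdsWithin] with r hr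
      exact mem_smul _ (h1.mem r hr.1)
    · filter_upwards [self_mem_nhdsWithin] with r hr
      exact hy r hr.1
  have k2 : Tendsto (fun s => I (x t * ((s - t)⁻¹ • (y s - y t)))) (𝓝[S \ {t}] t)
      (𝓝 (I (x t * y'))) := by
    refine tendsto_I_mul (Eventually.of_forall fun _ => hxt) ?_ hxt h2.mem' ?_ h2.lim
    · filter_upwards [self_mem_nhdsWithin] with r hr
      exact mem_smul _ (h2.mem r hr.1)
    · have : ∀ i : ℝ, I ((x t - x t) ^ 2) = 0 := fun _ => by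
        have e : (x t - x t) ^ 2 = 0 := by ring
        rw [e, I_zero]
      simp only [this t]
      exact tendsto_const_nhds
  refine (k1.add k2).congr' ?_
  filter_upwards [self_mem_nhdsWithin] with s hs
  rw [slope_def_field, smul_mul_assoc, mul_smul_comm, I_smul, I_smul]
  have e : x s * y s = (x s - x t) * y s + x t * (y s - y t) + x t * y t := by ring
  have e2 : I (x s * y s) = I ((x s - x t) * y s) + I (x t * (y s - y t)) + I (x t * y t) := by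
    conv_lhs => rw [e]
    rw [I_add (mem_add (mem_mul_22 (h1.mem s hs.1) (hy s hs.1)) (mem_mul_22 hxt (h2.mem s hs.1)))
      (mem_mul_22 hxt hyt), I_add (mem_mul_22 (h1.mem s hs.1) (hy s hs.1))
      (mem_mul_22 hxt (h2.mem s hs.1))]
  rw [e2, div_eq_inv_mul]
  ring

end deriv

section heat

variable {K : ℝ} {P : ℝ → (M →ₘ[m] ℝ) → (M →ₘ[m] ℝ)} (hP : Heat C K P)
include hP

theorem DL2_P {f : M →ₘ[m] ℝ} (hf : MemLp f 2 m) {t : ℝ} (ht : 0 < t) :
    DL2 (fun s => P s f) (C.lap (P t f)) (Ici 0) t where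
  mem := fun r hr => mem_sub (hP.mem r hr f hf) (hP.mem t ht.le f hf)
  mem' := (hP.isLap t ht f hf).1.2.1
  lim := (hP.deriv f hf t ht).mono_left (nhdsWithin_mono _ fun x hx => hx.2)

theorem DL2_PD {f h : M →ₘ[m] ℝ} (hfh : C.IsLap f h) (hf : MemLp f 2 m) {t : ℝ} (ht : 0 ≤ t) :
    DL2 (fun s => P s f) (P t h) (Ici 0) t where
  mem := fun r hr => mem_sub (hP.mem r hr f hf) (hP.mem t ht f hf)
  mem' := hP.mem t ht h hfh.2.1
  lim := hP.derivD f h hfh t ht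

theorem DL2_back {ε r : ℝ} (hε : 0 < ε) {f : M →ₘ[m] ℝ} (hf : MemLp f 2 m) {t : ℝ} (ht : t < r) :
    DL2 (fun s => P (ε * (r - s) / 2) f) (-(ε / 2) • C.lap (P (ε * (r - t) / 2) f)) (Iic r) t := by
  have h1 := (DL2_P hP hf (t := ε * (r - t) / 2) (by have := sub_pos.2 ht; positivity)).comp_affine
    (a := -(ε / 2)) (b := ε * r / 2) (t' := t) (by
      have := hε.ne'
      simp [this]) (by ring)
  have e : (fun s : ℝ => P (-(ε / 2) * s + ε * r / 2) f) = fun s => P (ε * (r - s) / 2) f := by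
    funext s; congr 1; ring
  rw [e] at h1
  refine h1.mono fun s hs => ?_
  rw [mem_preimage, mem_Ici]
  have : s ≤ r := hs
  nlinarith

theorem DL2_forw {ε r : ℝ} (hε : 0 < ε) {f : M →ₘ[m] ℝ} (hf : MemLp f 2 m) {t : ℝ} (ht : r < t) :
    DL2 (fun s => P (ε * (s - r) / 2) f) ((ε / 2) • C.lap (P (ε * (t - r) / 2) f)) (Ici r) t := by
  have h1 := (DL2_P hP hf (t := ε * (t - r) / 2) (by have := sub_pos.2 ht; positivity)).comp_affine
    (a := ε / 2) (b := -(ε * r / 2)) (t' := t) (by positivity) (by ring)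
  have e : (fun s : ℝ => P (ε / 2 * s + -(ε * r / 2)) f) = fun s => P (ε * (s - r) / 2) f := by
    funext s; congr 1; ring
  rw [e] at h1
  refine h1.mono fun s hs => ?_
  rw [mem_preimage, mem_Ici]
  have : r ≤ s := hs
  nlinarith

end heat

section FG

variable {K ε a b : ℝ} {P : ℝ → (M →ₘ[m] ℝ) → (M →ₘ[m] ℝ)} {f g : ℝ → M →ₘ[m] ℝ}
  {k l h : M →ₘ[m] ℝ} {t r s : ℝ}

variable (hC : IsGamma C) (hP : Heat C K P) (hF : FG C P ε a b f g)
include hC hP hF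

theorem FG.DL2_g (ht : t ∈ Icc a b) :
    DL2 (fun s => g s - 1) ((ε / 2) • C.lap (g t - 1)) (Icc a b) t := by
  have hε := hF.hε
  have ha := left_mem_Icc.2 hF.hab.le
  have h0 := hC.test_isLap (hF.g_mem a ha).1
  have h1 := (DL2_PD hP h0 (hF.g2 hC ha) (t := ε * (t - a) / 2)
    (by have := sub_nonneg.2 ht.1; positivity)).comp_affine
    (a := ε / 2) (b := -(ε * a / 2)) (t' := t) (by positivity) (by ring)
  have e1 : P (ε * (t - a) / 2) (C.lap (g a - 1)) = C.lap (g t - 1) := by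
    have := hP.lapP (ε * (t - a) / 2) (by have := sub_nonneg.2 ht.1; positivity) _ _ h0
    rw [← hF.g_eq t ht] at this
    exact (hC.lap_eq this).symm
  rw [e1] at h1
  have h2 := h1.mono (S := Icc a b) (fun s hs => by
    rw [mem_preimage, mem_Ici]
    have : a ≤ s := hs.1
    nlinarith)
  have e2 : ∀ s ∈ Icc a b, g s - 1 = P (ε / 2 * s + -(ε * a / 2)) (g a - 1) := fun s hs => by
    rw [hF.g_eq s hs]; congr 1; ring
  exact h2.congr e2 (e2 t ht)

theorem FG.DL2_f (ht : t ∈ Icc a b) :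
    DL2 (fun s => f s - 1) (-(ε / 2) • C.lap (f t - 1)) (Icc a b) t := by
  have hε := hF.hε
  have hb := right_mem_Icc.2 hF.hab.le
  have h0 := hC.test_isLap (hF.f_mem b hb).1
  have h1 := (DL2_PD hP h0 (hF.f2 hC hb) (t := ε * (b - t) / 2)
    (by have := sub_nonneg.2 ht.2; positivity)).comp_affine
    (a := -(ε / 2)) (b := (ε * b / 2)) (t' := t) (by
      have := hε.ne'
      simp [this]) (by ring)
  have e1 : P (ε * (b - t) / 2) (C.lap (f b - 1)) = C.lap (f t - 1) := by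
    have := hP.lapP (ε * (b - t) / 2) (by have := sub_nonneg.2 ht.2; positivity) _ _ h0
    rw [← hF.f_eq t ht] at this
    exact (hC.lap_eq this).symm
  rw [e1] at h1
  have h2 := h1.mono (S := Icc a b) (fun s hs => by
    rw [mem_preimage, mem_Ici]
    have : s ≤ b := hs.2
    nlinarith)
  have e2 : ∀ s ∈ Icc a b, f s - 1 = P (-(ε / 2) * s + (ε * b / 2)) (f b - 1) := fun s hs => by
    rw [hF.f_eq s hs]; congr 1; ring
  exact h2.congr e2 (e2 t ht)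

end FG

/-! ### the identity -/

section identity

variable {κ : ℝ} (hC : IsGamma C) (hB : C.BEi κ) {b A H : M →ₘ[m] ℝ}
include hC hB

/-- `∫ b Δα H - ∫ b A ΔH = -∫ Δb A H - 2 ∫ H Γ(α,b)`, `A = 1 + α`. -/
theorem ce_identity (hb : b ∈ C.Test) (hA : A - 1 ∈ C.Test) (hH : H ∈ C.Test) :
    I (b * C.lap (A - 1) * H) - I (b * A * C.lap H)
      = -I (C.lap b * (A * H)) - 2 * I (H * C.Γ (A - 1) b) := by
  set α := A - 1 with hα
  have eA : A = 1 + α := by rw [hα]; ring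
  have bA := hC.test_A hb
  have αA := hC.test_A hA
  have HA := hC.test_A hH
  have lb := hC.test_isLap hb
  have lα := hC.test_isLap hA
  have lH := hC.test_isLap hH
  have g1 : MemLp (C.Γ b α) 1 m := hC.Γ_mem1 bA.1 αA.1
  have g2 : MemLp (C.Γ b H) 1 m := hC.Γ_mem1 bA.1 HA.1
  have g3 : MemLp (C.Γ H α) 1 m := hC.Γ_mem1 HA.1 αA.1
  -- `∫ b H Δα`
  have i1 : I (b * C.lap α * H) = -I (b * C.Γ H α) - I (H * C.Γ b α) := by
    have h1 := lα.2.2 (b * H) (hC.mul_mem_A bA HA).1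
    have h2 : I (C.Γ α (b * H)) = -I (C.lap α * (b * H)) := h1
    rw [hC.symm _ αA.1 _ (hC.mul_mem_A bA HA).1, hC.Γ_mul_left bA HA αA.1,
      I_add (mem_mul_top bA.2 g3) (mem_mul_top HA.2 g1)] at h2
    have e : b * C.lap α * H = C.lap α * (b * H) := by ring
    rw [e]; linarith
  have i2 : I (b * C.lap H) = -I (C.Γ b H) := by
    have h2 : I (C.Γ H b) = -I (C.lap H * b) := lH.2.2 b bA.1
    rw [hC.symm _ HA.1 _ bA.1] at h2
    rw [mul_comm b]; linarith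
  have i3 : I (b * α * C.lap H) = -I (b * C.Γ H α) - I (α * C.Γ b H) := by
    have h2 : I (C.Γ H (b * α)) = -I (C.lap H * (b * α)) := lH.2.2 _ (hC.mul_mem_A bA αA).1
    rw [hC.symm _ HA.1 _ (hC.mul_mem_A bA αA).1, hC.Γ_mul_left bA αA HA.1,
      hC.symm _ αA.1 _ HA.1,
      I_add (mem_mul_top bA.2 g3) (mem_mul_top αA.2 g2)] at h2
    rw [mul_comm (b * α)]; linarith
  have i4 : I (C.lap b * (α * H)) = -I (α * C.Γ b H) - I (H * C.Γ b α) := by
    have h2 : I (C.Γ b (α * H)) = -I (C.lap b * (α * H)) := lb.2.2 _ (hC.mul_mem_A αA HA).1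
    rw [hC.symm _ bA.1 _ (hC.mul_mem_A αA HA).1, hC.Γ_mul_left αA HA bA.1,
      hC.symm _ HA.1 _ bA.1, hC.symm _ αA.1 _ bA.1,
      I_add (mem_mul_top αA.2 g2) (mem_mul_top HA.2 g1)] at h2
    linarith
  have i5 : I (C.lap b * H) = -I (C.Γ b H) := by
    have h2 : I (C.Γ b H) = -I (C.lap b * H) := lb.2.2 H HA.1
    linarith
  have e1 : b * A * C.lap H = b * C.lap H + b * α * C.lap H := by rw [eA]; ring
  have e2 : C.lap b * (A * H) = C.lap b * H + C.lap b * (α * H) := by rw [eA]; ring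
  rw [e1, e2, I_add (mem_mul_22 (hC.memLp _ bA.1) lH.2.1)
    (mem_mul_22 (hC.memLp _ (hC.mul_mem_A bA αA).1) lH.2.1),
    I_add (mem_mul_22 lb.2.1 (hC.memLp _ HA.1))
    (mem_mul_22 lb.2.1 (hC.memLp _ (hC.mul_mem_A αA HA).1)), i1, i2, i3, i4, i5,
    hC.symm _ αA.1 _ bA.1]
  ring

end identity

/-! ### the continuity equation of level `ε` -/

section ce

variable {κ K ε a b : ℝ} {P : ℝ → (M →ₘ[m] ℝ) → (M →ₘ[m] ℝ)} {φ u : ℝ → M →ₘ[m] ℝ}
  {k h : M →ₘ[m] ℝ} {t r s T L S : ℝ}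

theorem Γ_ex (hC : IsDir C) {w : M →ₘ[m] ℝ} (hw : w ∈ C.A) {h : M →ₘ[m] ℝ} (hh : h ∈ C.W) :
    C.Γ (ex w - 1) h = ex w * C.Γ w h := by
  obtain ⟨Kw, hK⟩ := mem_top_iff.1 hw.2
  have hc : Continuous fun t : ℝ => Real.exp t - 1 := by fun_prop
  obtain ⟨h1, h2⟩ := hC.chain_bdd hw.1 hK hc Real.continuous_exp
    (fun t _ => ((Real.hasDerivAt_exp t).sub_const 1).hasDerivWithinAt) (by simp)
  have e : AEEqFun.comp (fun t : ℝ => Real.exp t - 1) hc w = ex w - 1 := by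
    rw [eq_iff_ae]
    filter_upwards [AEEqFun.coeFn_comp (fun t : ℝ => Real.exp t - 1) hc w, ex_ae w,
      sub_ae (ex w) 1, one_ae (M := M) (m := m)] with x a1 a2 a3 a4
    rw [a1, a3, a2, a4]; rfl
  rw [e] at h2
  exact h2 h hh

/-- for times before `r` -/
theorem ce_deriv_lt (hC : IsGamma C) (hB : C.BEi κ) (hP : Heat C K P)
    (hp : Pair C P ε a b φ u) (hh : h ∈ C.Test) (hk : MemLp k 2 m) (hk' : MemLp k ∞ m)
    (hr : r ∈ Icc a b) (hat : a < t) (htr : t < r) :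
    HasDerivAt (fun s => I (h * RR P ε (ff ε φ) (gg ε u) s r k))
      (I (C.Γ (u t) h * RR P ε (ff ε φ) (gg ε u) t r k)
        - ε / 2 * I (C.lap h * RR P ε (ff ε φ) (gg ε u) t r k)) t := by
  have hF := FG.of_pair hp
  set f := ff ε φ with hf
  set g := gg ε u with hg
  have ht : t ∈ Icc a b := ⟨hat.le, htr.le.trans hr.2⟩
  have hε := hp.hε
  have hA := hC.test_A hh
  have hkf2 : MemLp (k * f r : M →ₘ[m] ℝ) 2 m := mem_top_mul hk (hF.top_f hC hr)
  have hkft : MemLp (k * f r : M →ₘ[m] ℝ) ∞ m := mem_top_mul hk' (hF.top_f hC hr)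
  have τ0 : ∀ s, s ≤ r → 0 ≤ ε * (r - s) / 2 := fun s hs => tau_nonneg hC hF hP hs
  have τt : 0 < ε * (r - t) / 2 := by have := sub_pos.2 htr; positivity
  set H := P (ε * (r - t) / 2) (k * f r) with hH
  have hHT : H ∈ C.TestI := hP.testI' _ τt _ hkf2 hkft
  have hS : Icc a r ⊆ Icc a b := Icc_subset_Icc_right hr.2
  have d1 : DL2 (fun s => h * g s) (h * ((ε / 2) • C.lap (g t - 1))) (Icc a r) t := by
    have := ((DL2_mul_bdd hA.2 (hF.DL2_g hC hP ht)).mono hS).add_const h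
    have e : (fun s => h * (g s - 1) + h) = fun s => h * g s := by funext s; ring
    rwa [e] at this
  have d2 : DL2 (fun s => P (ε * (r - s) / 2) (k * f r)) (-(ε / 2) • C.lap H) (Icc a r) t :=
    (DL2_back hP hε hkf2 htr).mono fun s hs => hs.2
  have m1 : ∀ s ∈ Icc a r, MemLp (h * g s : M →ₘ[m] ℝ) 2 m := fun s hs =>
    mem_top_mul (hC.memLp _ hA.1) (hF.top_g hC (hS hs))
  have m2 : ∀ s ∈ Icc a r, MemLp (P (ε * (r - s) / 2) (k * f r)) 2 m := fun s hs =>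
    hP.mem _ (τ0 s hs.2) _ hkf2
  have htS : t ∈ Icc a r := ⟨hat.le, htr.le⟩
  have d3 := (hasDeriv_I_mul d1 d2 m1 (m1 t htS) m2 (m2 t htS)).hasDerivAt (Icc_mem_nhds hat htr)
  have e1 : (fun s => I (h * g s * P (ε * (r - s) / 2) (k * f r))) =ᶠ[𝓝 t]
      fun s => I (h * RR P ε f g s r k) := by
    filter_upwards [Iio_mem_nhds htr] with s hs
    rw [RR_of_le (le_of_lt hs)]
    congr 1; ring
  have d4 := d3.congr_of_eventuallyEq e1.symm
  refine d4.congr_deriv ?_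
  have hAw : -(ε⁻¹ • u t) ∈ C.A := by
    have := hC.A_smul (-ε⁻¹) (hC.test_A (hp.u_mem t ht).1)
    rwa [neg_smul] at this
  have eΓ : C.Γ (g t - 1) h = (-ε⁻¹) • (g t * C.Γ (u t) h) := by
    have h1 := Γ_ex hC.toIsDir hAw hA.1
    have h2 : C.Γ (-(ε⁻¹ • u t)) h = (-ε⁻¹) • C.Γ (u t) h := by
      rw [← neg_smul, hC.smul_left _ _ (hC.test_A (hp.u_mem t ht).1).1 _ hA.1]
    rw [h2, mul_smul_comm] at h1
    exact h1
  have id1 := ce_identity hC hB hh (hF.g_mem t ht).1 hHT.1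
  have e2 : I (h * ((ε / 2) • C.lap (g t - 1)) * H) = ε / 2 * I (h * C.lap (g t - 1) * H) := by
    rw [mul_smul_comm, smul_mul_assoc, I_smul]
  have e3 : I (h * g t * (-(ε / 2) • C.lap H)) = -(ε / 2) * I (h * g t * C.lap H) := by
    rw [mul_smul_comm, I_smul]
  have e4 : I (H * C.Γ (g t - 1) h) = -ε⁻¹ * I (C.Γ (u t) h * (g t * H)) := by
    rw [eΓ, mul_smul_comm, I_smul]
    congr 2; ring
  show I (h * ((ε / 2) • C.lap (g t - 1)) * H) + I (h * g t * (-(ε / 2) • C.lap H)) = _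
  rw [e2, e3, RR_of_le htr.le, ← hH]
  have : ε * ε⁻¹ = 1 := mul_inv_cancel₀ hε.ne'
  rw [e4] at id1
  have e5 : I (h * C.lap (g t - 1) * H) = I (h * g t * C.lap H)
      + (-I (C.lap h * (g t * H)) - 2 * (-ε⁻¹ * I (C.Γ (u t) h * (g t * H)))) := by
    linarith
  rw [e5]
  linear_combination (I (C.Γ (u t) h * (g t * H))) * this

/-- for times after `r` -/
theorem ce_deriv_gt (hC : IsGamma C) (hB : C.BEi κ) (hP : Heat C K P)
    (hp : Pair C P ε a b φ u) (hh : h ∈ C.Test) (hk : MemLp k 2 m) (hk' : MemLp k ∞ m)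
    (hr : r ∈ Icc a b) (hrt : r < t) (htb : t < b) :
    HasDerivAt (fun s => I (h * RR P ε (ff ε φ) (gg ε u) s r k))
      (I (C.Γ (φ t) h * RR P ε (ff ε φ) (gg ε u) t r k)
        + ε / 2 * I (C.lap h * RR P ε (ff ε φ) (gg ε u) t r k)) t := by
  have hF := FG.of_pair hp
  set f := ff ε φ with hf
  set g := gg ε u with hg
  have ht : t ∈ Icc a b := ⟨hr.1.trans hrt.le, htb.le⟩
  have hε := hp.hε
  have hA := hC.test_A hh
  have hkf2 : MemLp (k * g r : M →ₘ[m] ℝ) 2 m := mem_top_mul hk (hF.top_g hC hr)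
  have hkft : MemLp (k * g r : M →ₘ[m] ℝ) ∞ m := mem_top_mul hk' (hF.top_g hC hr)
  have τ0 : ∀ s, r ≤ s → 0 ≤ ε * (s - r) / 2 := fun s hs => tau_nonneg hC hF hP hs
  have τt : 0 < ε * (t - r) / 2 := by have := sub_pos.2 hrt; positivity
  set H := P (ε * (t - r) / 2) (k * g r) with hH
  have hHT : H ∈ C.TestI := hP.testI' _ τt _ hkf2 hkft
  have hS : Icc r b ⊆ Icc a b := Icc_subset_Icc_left hr.1
  have d1 : DL2 (fun s => h * f s) (h * (-(ε / 2) • C.lap (f t - 1))) (Icc r b) t := by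
    have := ((DL2_mul_bdd hA.2 (hF.DL2_f hC hP ht)).mono hS).add_const h
    have e : (fun s => h * (f s - 1) + h) = fun s => h * f s := by funext s; ring
    rwa [e] at this
  have d2 : DL2 (fun s => P (ε * (s - r) / 2) (k * g r)) ((ε / 2) • C.lap H) (Icc r b) t :=
    (DL2_forw hP hε hkf2 hrt).mono fun s hs => hs.1
  have m1 : ∀ s ∈ Icc r b, MemLp (h * f s : M →ₘ[m] ℝ) 2 m := fun s hs =>
    mem_top_mul (hC.memLp _ hA.1) (hF.top_f hC (hS hs))
  have m2 : ∀ s ∈ Icc r b, MemLp (P (ε * (s - r) / 2) (k * g r)) 2 m := fun s hs =>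
    hP.mem _ (τ0 s hs.1) _ hkf2
  have htS : t ∈ Icc r b := ⟨hrt.le, htb.le⟩
  have d3 := (hasDeriv_I_mul d1 d2 m1 (m1 t htS) m2 (m2 t htS)).hasDerivAt (Icc_mem_nhds hrt htb)
  have e1 : (fun s => I (h * f s * P (ε * (s - r) / 2) (k * g r))) =ᶠ[𝓝 t]
      fun s => I (h * RR P ε f g s r k) := by
    filter_upwards [Ioo_mem_nhds hrt htb] with s hs
    rw [RR_of_ge hC hF hP ⟨hr.1.trans hs.1.le, hs.2.le⟩ hs.1.le hk]
    congr 1; ring
  have d4 := d3.congr_of_eventuallyEq e1.symm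
  refine d4.congr_deriv ?_
  have hAw : ε⁻¹ • φ t ∈ C.A := hC.A_smul ε⁻¹ (hC.test_A (hp.φ_mem t ht).1)
  have eΓ : C.Γ (f t - 1) h = ε⁻¹ • (f t * C.Γ (φ t) h) := by
    have h1 := Γ_ex hC.toIsDir hAw hA.1
    have h2 : C.Γ (ε⁻¹ • φ t) h = ε⁻¹ • C.Γ (φ t) h := by
      rw [hC.smul_left _ _ (hC.test_A (hp.φ_mem t ht).1).1 _ hA.1]
    rw [h2, mul_smul_comm] at h1
    exact h1
  have id1 := ce_identity hC hB hh (hF.f_mem t ht).1 hHT.1
  have e2 : I (h * (-(ε / 2) • C.lap (f t - 1)) * H) = -(ε / 2) * I (h * C.lap (f t - 1) * H) := by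
    rw [mul_smul_comm, smul_mul_assoc, I_smul]
  have e3 : I (h * f t * ((ε / 2) • C.lap H)) = (ε / 2) * I (h * f t * C.lap H) := by
    rw [mul_smul_comm, I_smul]
  have e4 : I (H * C.Γ (f t - 1) h) = ε⁻¹ * I (C.Γ (φ t) h * (f t * H)) := by
    rw [eΓ, mul_smul_comm, I_smul]
    congr 2; ring
  show I (h * (-(ε / 2) • C.lap (f t - 1)) * H) + I (h * f t * ((ε / 2) • C.lap H)) = _
  rw [e2, e3, RR_of_ge hC hF hP ht hrt.le hk, ← hH]
  have : ε * ε⁻¹ = 1 := mul_inv_cancel₀ hε.ne'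
  rw [e4] at id1
  have e5 : I (h * C.lap (f t - 1) * H) = I (h * f t * C.lap H)
      + (-I (C.lap h * (f t * H)) - 2 * (ε⁻¹ * I (C.Γ (φ t) h * (f t * H)))) := by
    linarith
  rw [e5]
  linear_combination (I (C.Γ (φ t) h * (f t * H))) * this

/-- continuity -/
theorem RR_cont (hC : IsGamma C) (hP : Heat C K P) {f g : ℝ → M →ₘ[m] ℝ}
    (hF : FG C P ε a b f g) (hh : MemLp h 2 m) (hh' : MemLp h ∞ m) (hk : MemLp k 2 m)
    (hr : r ∈ Icc a b) :
    ContinuousOn (fun s => I (h * RR P ε f g s r k)) (Icc a b) := by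
  have hkf2 : MemLp (k * f r : M →ₘ[m] ℝ) 2 m := mem_top_mul hk (hF.top_f hC hr)
  have hkg2 : MemLp (k * g r : M →ₘ[m] ℝ) 2 m := mem_top_mul hk (hF.top_g hC hr)
  have τ0 : ∀ s, s ≤ r → 0 ≤ ε * (r - s) / 2 := fun s hs => tau_nonneg hC hF hP hs
  have τ1 : ∀ s, r ≤ s → 0 ≤ ε * (s - r) / 2 := fun s hs => tau_nonneg hC hF hP hs
  have c1 : ContinuousOn (fun s => I (h * RR P ε f g s r k)) (Icc a r) := by
    intro t ht
    have htb : t ∈ Icc a b := ⟨ht.1, ht.2.trans hr.2⟩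
    have hS : Icc a r ⊆ Icc a b := Icc_subset_Icc_right hr.2
    have d1 : DL2 (fun s => h * g s) (h * ((ε / 2) • C.lap (g t - 1))) (Icc a r) t := by
      have := ((DL2_mul_bdd hh' (hF.DL2_g hC hP htb)).mono hS).add_const h
      have e : (fun s => h * (g s - 1) + h) = fun s => h * g s := by funext s; ring
      rwa [e] at this
    have d2 : Tendsto (fun s => I ((P (ε * (r - s) / 2) (k * f r)
        - P (ε * (r - t) / 2) (k * f r)) ^ 2)) (𝓝[Icc a r] t) (𝓝 0) := by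
      refine (hP.cont _ hkf2 _ (τ0 t ht.2)).comp (tendsto_nhdsWithin_iff.2 ⟨?_, ?_⟩)
      · have : Continuous fun s : ℝ => ε * (r - s) / 2 := by fun_prop
        exact (this.tendsto t).mono_left nhdsWithin_le_nhds
      · filter_upwards [self_mem_nhdsWithin] with s hs using τ0 s hs.2
    have l1 := tendsto_I_mul (l := 𝓝[Icc a r] t) (X := fun s => h * g s)
      (Y := fun s => P (ε * (r - s) / 2) (k * f r)) (x := h * g t)
      (y := P (ε * (r - t) / 2) (k * f r))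
      (by
        filter_upwards [self_mem_nhdsWithin] with s hs
        exact mem_top_mul hh (hF.top_g hC (hS hs)))
      (by
        filter_upwards [self_mem_nhdsWithin] with s hs
        exact hP.mem _ (τ0 s hs.2) _ hkf2)
      (mem_top_mul hh (hF.top_g hC htb)) (hP.mem _ (τ0 t ht.2) _ hkf2) d1.cont d2
    have e : ∀ s ∈ Icc a r, I (h * g s * P (ε * (r - s) / 2) (k * f r))
        = I (h * RR P ε f g s r k) := by
      intro s hs
      rw [RR_of_le hs.2]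
      congr 1; ring
    show Tendsto _ _ (𝓝 (I (h * RR P ε f g t r k)))
    rw [← e t ht]
    refine l1.congr' ?_
    filter_upwards [self_mem_nhdsWithin] with s hs using e s hs
  have c2 : ContinuousOn (fun s => I (h * RR P ε f g s r k)) (Icc r b) := by
    intro t ht
    have htb : t ∈ Icc a b := ⟨hr.1.trans ht.1, ht.2⟩
    have hS : Icc r b ⊆ Icc a b := Icc_subset_Icc_left hr.1
    have d1 : DL2 (fun s => h * f s) (h * (-(ε / 2) • C.lap (f t - 1))) (Icc r b) t := by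
      have := ((DL2_mul_bdd hh' (hF.DL2_f hC hP htb)).mono hS).add_const h
      have e : (fun s => h * (f s - 1) + h) = fun s => h * f s := by funext s; ring
      rwa [e] at this
    have d2 : Tendsto (fun s => I ((P (ε * (s - r) / 2) (k * g r)
        - P (ε * (t - r) / 2) (k * g r)) ^ 2)) (𝓝[Icc r b] t) (𝓝 0) := by
      refine (hP.cont _ hkg2 _ (τ1 t ht.1)).comp (tendsto_nhdsWithin_iff.2 ⟨?_, ?_⟩)
      · have : Continuous fun s : ℝ => ε * (s - r) / 2 := by fun_prop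
        exact (this.tendsto t).mono_left nhdsWithin_le_nhds
      · filter_upwards [self_mem_nhdsWithin] with s hs using τ1 s hs.1
    have l1 := tendsto_I_mul (l := 𝓝[Icc r b] t) (X := fun s => h * f s)
      (Y := fun s => P (ε * (s - r) / 2) (k * g r)) (x := h * f t)
      (y := P (ε * (t - r) / 2) (k * g r))
      (by
        filter_upwards [self_mem_nhdsWithin] with s hs
        exact mem_top_mul hh (hF.top_f hC (hS hs)))
      (by
        filter_upwards [self_mem_nhdsWithin] with s hs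
        exact hP.mem _ (τ1 s hs.1) _ hkg2)
      (mem_top_mul hh (hF.top_f hC htb)) (hP.mem _ (τ1 t ht.1) _ hkg2) d1.cont d2
    have e : ∀ s ∈ Icc r b, I (h * f s * P (ε * (s - r) / 2) (k * g r))
        = I (h * RR P ε f g s r k) := by
      intro s hs
      rw [RR_of_ge hC hF hP (hS hs) hs.1 hk]
      congr 1; ring
    show Tendsto _ _ (𝓝 (I (h * RR P ε f g t r k)))
    rw [← e t ht]
    refine l1.congr' ?_
    filter_upwards [self_mem_nhdsWithin] with s hs using e s hs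
  have c3 := c1.union_of_isClosed c2 isClosed_Icc isClosed_Icc
  rwa [Icc_union_Icc_eq_Icc hr.1 hr.2] at c3

/-! ### the three-time inequality -/

theorem three_time (hC : IsGamma C) (hP : Heat C K P) {f g : ℝ → M →ₘ[m] ℝ}
    (hF : FG C P ε a b f g) (hs : s ∈ Icc a b) (hr : r ∈ Icc a b) (ht : t ∈ Icc a b)
    (hsr : s ≤ r) (hrt : r ≤ t) {z y c : M →ₘ[m] ℝ} (hz : MemLp z 2 m) (hz' : MemLp z ∞ m)
    (hy : MemLp y 2 m) (hc : MemLp c 2 m) (hc' : MemLp c ∞ m) :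
    0 ≤ I (y ^ 2 * (f r * g r)) + I (c ^ 2 * (f t * g t)) + I (z ^ 2 * (f s * g s))
      - 2 * I (y * RR P ε f g r t c) - 2 * I (y * RR P ε f g r s z)
      + 2 * I (z * RR P ε f g s t c) := by
  have hst := hsr.trans hrt
  have c2 : MemLp (c ^ 2 : M →ₘ[m] ℝ) 2 m := by rw [pow_two]; exact mem_mul_top hc' hc
  have c1 : MemLp (c ^ 2 : M →ₘ[m] ℝ) 1 m := mem_sq hc
  have z2 : MemLp (z ^ 2 : M →ₘ[m] ℝ) 2 m := by rw [pow_two]; exact mem_mul_top hz' hz
  have z1 : MemLp (z ^ 2 : M →ₘ[m] ℝ) 1 m := mem_sq hz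
  have y1 : MemLp (y ^ 2 * (f r * g r) : M →ₘ[m] ℝ) 1 m :=
    mem_top_mul (mem_sq hy) (hF.top_rho hC hr)
  set A := P (ε * (t - r) / 2) (c * f t) with hA
  set B := P (ε * (r - s) / 2) (z * g s) with hB
  have cf : MemLp (c * f t : M →ₘ[m] ℝ) 2 m := mem_top_mul hc (hF.top_f hC ht)
  have zg : MemLp (z * g s : M →ₘ[m] ℝ) 2 m := mem_top_mul hz (hF.top_g hC hs)
  have A2 : MemLp A 2 m := hP.mem _ (tau_nonneg hC hF hP hrt) _ cf
  have B2 : MemLp B 2 m := hP.mem _ (tau_nonneg hC hF hP hsr) _ zg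
  have e1 : RR P ε f g r t c = g r * A := RR_of_le hrt c
  have e2 : RR P ε f g r s z = f r * B := RR_of_ge hC hF hP hr hsr hz
  have e3 : I (z * RR P ε f g s t c) = I (A * B) := by
    rw [RR_of_le hst]
    have h1 : P (ε * (t - s) / 2) (c * f t) = P (ε * (r - s) / 2) A := by
      rw [hA, ← hP.semi _ _ (tau_nonneg hC hF hP hsr) (tau_nonneg hC hF hP hrt) _ cf]
      congr 1; ring
    rw [h1]
    have h2 : z * (g s * P (ε * (r - s) / 2) A) = P (ε * (r - s) / 2) A * (z * g s) := by ring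
    rw [h2, hP.symm _ (tau_nonneg hC hF hP hsr) _ _ A2 zg]
  have e4 : I (c ^ 2 * (f t * g t)) = I (g r * P (ε * (t - r) / 2) (c ^ 2 * f t)) := by
    rw [← RR_mass hC hF hP hr ht c2 c1, RR_of_le hrt]
  have e5 : I (z ^ 2 * (f s * g s)) = I (f r * P (ε * (r - s) / 2) (z ^ 2 * g s)) := by
    rw [← RR_mass hC hF hP hr hs z2 z1, RR_of_ge hC hF hP hr hsr z2]
  have m4 : MemLp (g r * P (ε * (t - r) / 2) (c ^ 2 * f t) : M →ₘ[m] ℝ) 1 m := by
    rw [← RR_of_le hrt]; exact RR_mem1 hC hF hP hr ht c2 c1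
  have m5 : MemLp (f r * P (ε * (r - s) / 2) (z ^ 2 * g s) : M →ₘ[m] ℝ) 1 m := by
    rw [← RR_of_ge hC hF hP hr hsr z2]; exact RR_mem1 hC hF hP hr hs z2 z1
  have m1 : MemLp (y * (g r * A) : M →ₘ[m] ℝ) 1 m :=
    mem_mul_22 hy (mem_mul_top (hF.top_g hC hr) A2)
  have m2 : MemLp (y * (f r * B) : M →ₘ[m] ℝ) 1 m :=
    mem_mul_22 hy (mem_mul_top (hF.top_f hC hr) B2)
  have m3 : MemLp (A * B : M →ₘ[m] ℝ) 1 m := mem_mul_22 A2 B2
  rw [e1, e2, e3, e4, e5, ← I_smul, ← I_smul, ← I_smul, ← I_add y1 m4, ← I_add (mem_add y1 m4) m5,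
    ← I_sub (mem_add (mem_add y1 m4) m5) (mem_smul _ m1),
    ← I_sub (mem_sub (mem_add (mem_add y1 m4) m5) (mem_smul _ m1)) (mem_smul _ m2),
    ← I_add (mem_sub (mem_sub (mem_add (mem_add y1 m4) m5) (mem_smul _ m1)) (mem_smul _ m2))
      (mem_smul _ m3)]
  refine I_nonneg (nonneg_iff_ae.2 ?_)
  set G1 := g r * P (ε * (t - r) / 2) (c ^ 2 * f t) with hG1
  set G2 := f r * P (ε * (r - s) / 2) (z ^ 2 * g s) with hG2
  have s1 := P_cs hP (tau_nonneg hC hF hP hrt) (k := c) (hF.f2 hC ht) (hF.f0 ht) cf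
    (mem_top_mul c2 (hF.top_f hC ht)) (hF.trans_f hC hP hr ht hrt)
  have s2 := P_cs hP (tau_nonneg hC hF hP hsr) (k := z) (hF.g2 hC hs) (hF.g0 hs) zg
    (mem_top_mul z2 (hF.top_g hC hs)) (hF.trans_g hC hP hs hr hsr)
  filter_upwards [add_ae (y ^ 2 * (f r * g r) + G1 + G2 - (2 : ℝ) • (y * (g r * A))
      - (2 : ℝ) • (y * (f r * B))) ((2 : ℝ) • (A * B)),
    sub_ae (y ^ 2 * (f r * g r) + G1 + G2 - (2 : ℝ) • (y * (g r * A))) ((2 : ℝ) • (y * (f r * B))),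
    sub_ae (y ^ 2 * (f r * g r) + G1 + G2) ((2 : ℝ) • (y * (g r * A))),
    add_ae (y ^ 2 * (f r * g r) + G1) G2, add_ae (y ^ 2 * (f r * g r)) G1,
    mul_ae (y ^ 2) (f r * g r), sq_ae y, mul_ae (f r) (g r), smul_ae (y * (g r * A)) 2,
    smul_ae (y * (f r * B)) 2, smul_ae (A * B) 2, mul_ae y (g r * A), mul_ae (g r) A,
    mul_ae y (f r * B), mul_ae (f r) B, mul_ae A B,
    mul_ae (g r) (P (ε * (t - r) / 2) (c ^ 2 * f t)),
    mul_ae (f r) (P (ε * (r - s) / 2) (z ^ 2 * g s)), hF.f_pos r hr, hF.g_pos r hr, s1, s2]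
    with x a1 a2 a3 a4 a5 a6 a7 a8 a9 a10 a11 a12 a13 a14 a15 a16 a17 a18 p1 p2 q1 q2
  rw [a1, a2, a3, a4, a5, a6, a7, a8, a9, a10, a11, a12, a13, a14, a15, a16, a17, a18]
  clear a1 a2 a3 a4 a5 a6 a7 a8 a9 a10 a11 a12 a13 a14 a15 a16 a17 a18
  rw [← hA] at q1
  rw [← hB] at q2
  generalize P (ε * (t - r) / 2) (c ^ 2 * f t) x = X at q1 ⊢
  generalize P (ε * (r - s) / 2) (z ^ 2 * g s) x = Y at q2 ⊢
  generalize A x = α at q1 ⊢
  generalize B x = β at q2 ⊢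
  generalize f r x = p at p1 q1 ⊢
  generalize g r x = q at p2 q2 ⊢
  generalize y x = w
  have h1 : α ^ 2 / p ≤ X := by rw [div_le_iff₀ p1]; linarith
  have h2 : β ^ 2 / q ≤ Y := by rw [div_le_iff₀ p2]; linarith
  have h3 : 0 ≤ (w * (p * q) - q * α - p * β) ^ 2 / (p * q) := by positivity
  have h4 : (w * (p * q) - q * α - p * β) ^ 2 / (p * q)
      = w ^ 2 * (p * q) + q * (α ^ 2 / p) + p * (β ^ 2 / q) - 2 * (w * (q * α))
        - 2 * (w * (p * β)) + 2 * (α * β) := by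
    field_simp
    ring
  rw [h4] at h3
  have h5 := mul_le_mul_of_nonneg_left h1 p2.le
  have h6 := mul_le_mul_of_nonneg_left h2 p1.le
  linarith

/-! ### Lipschitz estimate -/

/-- mean value inequality with one exceptional point -/
theorem lip_of_deriv_ne {G G' : ℝ → ℝ} {D : ℝ} (hG : ContinuousOn G (Icc s T))
    (hd : ∀ x ∈ Ioo s T, x ≠ r → HasDerivAt G (G' x) x)
    (hD : ∀ x ∈ Ioo s T, x ≠ r → |G' x| ≤ D) :
    ∀ x ∈ Icc s T, ∀ y ∈ Icc s T, |G x - G y| ≤ D * |x - y| := by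
  have key : ∀ x ∈ Icc s T, ∀ y ∈ Icc s T, x < y → (∀ z ∈ Ioo x y, z ≠ r) →
      |G y - G x| ≤ D * (y - x) := by
    intro x hx y hy hxy hz
    have hsub : Ioo x y ⊆ Ioo s T := Ioo_subset_Ioo hx.1 hy.2
    obtain ⟨c, hc, h1⟩ := exists_hasDerivAt_eq_slope G G' hxy
      (hG.mono (Icc_subset_Icc hx.1 hy.2)) (fun z hz' => hd z (hsub hz') (hz z hz'))
    have h2 := hD c (hsub hc) (hz c hc)
    have h3 : 0 < y - x := sub_pos.2 hxy
    rw [h1, abs_div, abs_of_pos h3, div_le_iff₀ h3] at h2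
    exact h2
  have key2 : ∀ x ∈ Icc s T, ∀ y ∈ Icc s T, x < y → |G y - G x| ≤ D * (y - x) := by
    intro x hx y hy hxy
    by_cases hr : r ∈ Ioo x y
    · have hrI : r ∈ Icc s T := ⟨hx.1.trans hr.1.le, hr.2.le.trans hy.2⟩
      have h1 := key x hx r hrI hr.1 (fun z hz => hz.2.ne)
      have h2 := key r hrI y hy hr.2 (fun z hz => hz.1.ne')
      have h3 : G y - G x = (G y - G r) + (G r - G x) := by ring
      rw [h3]
      exact (abs_add_le _ _).trans (by linarith)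
    · exact key x hx y hy hxy (fun z hz hzr => hr (hzr ▸ hz))
  intro x hx y hy
  rcases lt_trichotomy x y with h | h | h
  · rw [abs_sub_comm, abs_sub_comm x y, abs_of_pos (sub_pos.2 h)]
    exact key2 x hx y hy h
  · subst h; simp
  · rw [abs_of_pos (sub_pos.2 h)]
    exact key2 y hy x hx h

theorem I_Γ_bdd_sq (hC : IsDir C) {v : M →ₘ[m] ℝ} (hv : v ∈ C.W) (hh : h ∈ C.W) (hL : 0 ≤ L)
    (hb : ∀ᵐ x ∂m, C.Γ v v x ≤ L ^ 2) : MemLp (C.Γ v h) 2 m ∧
      I (C.Γ v h ^ 2) ≤ L ^ 2 * I (C.Γ h h) := by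
  have hvt : MemLp (C.Γ v v) ∞ m := mem_top_iff.2 ⟨L ^ 2, by
    filter_upwards [hb, hC.Γ_nonneg_ae hv] with x a1 a2
    rwa [abs_of_nonneg a2]⟩
  have h2 := hC.Γ_mem2 hv hvt hh
  refine ⟨h2, ?_⟩
  rw [← I_smul]
  refine I_mono (mem_sq h2) (mem_smul _ (hC.mem1 _ hh)) (le_iff_ae.2 ?_)
  filter_upwards [hb, hC.Γ_cs_ae hv hh, hC.Γ_nonneg_ae hh, sq_ae (C.Γ v h),
    smul_ae (C.Γ h h) (L ^ 2)] with x a1 a2 a3 a4 a5
  rw [a4, a5]
  exact a2.trans (mul_le_mul_of_nonneg_right a1 a3)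

theorem abs_I_Γ_le (hC : IsDir C) {v F : M →ₘ[m] ℝ} (hv : v ∈ C.W) (hh : h ∈ C.W) (hL : 0 ≤ L)
    (hb : ∀ᵐ x ∂m, C.Γ v v x ≤ L ^ 2) (hF : MemLp F 2 m) (hS : 0 ≤ S) (hFS : I (F ^ 2) ≤ S ^ 2) :
    |I (C.Γ v h * F)| ≤ S * (L * √(I (C.Γ h h))) := by
  obtain ⟨h1, h2⟩ := I_Γ_bdd_sq hC hv hh hL hb
  refine (I_abs_le h1 hF).trans ?_
  have h3 : √(I (C.Γ v h ^ 2)) ≤ L * √(I (C.Γ h h)) := by
    refine (Real.sqrt_le_sqrt h2).trans ?_
    rw [Real.sqrt_mul (sq_nonneg L), Real.sqrt_sq hL]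
  have h4 : √(I (F ^ 2)) ≤ S := by
    refine (Real.sqrt_le_sqrt hFS).trans ?_
    rw [Real.sqrt_sq hS]
  calc _ ≤ (L * √(I (C.Γ h h))) * S := mul_le_mul h3 h4 (Real.sqrt_nonneg _) (by positivity)
    _ = _ := by ring

theorem abs_I_le' {F G : M →ₘ[m] ℝ} (hF : MemLp F 2 m) (hG : MemLp G 2 m) (hS : 0 ≤ S)
    (hGS : I (G ^ 2) ≤ S ^ 2) : |I (F * G)| ≤ S * √(I (F ^ 2)) := by
  refine (I_abs_le hF hG).trans ?_
  rw [mul_comm]
  refine mul_le_mul_of_nonneg_right ?_ (Real.sqrt_nonneg _)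
  refine (Real.sqrt_le_sqrt hGS).trans ?_
  rw [Real.sqrt_sq hS]

/-- the derivative of level `ε` -/
noncomputable def DG (C : Calc m) (P : ℝ → (M →ₘ[m] ℝ) → (M →ₘ[m] ℝ)) (ε : ℝ)
    (φ u : ℝ → M →ₘ[m] ℝ) (r : ℝ) (k h : M →ₘ[m] ℝ) (t : ℝ) : ℝ :=
  open Classical in
  if t < r then I (C.Γ (u t) h * RR P ε (ff ε φ) (gg ε u) t r k)
        - ε / 2 * I (C.lap h * RR P ε (ff ε φ) (gg ε u) t r k)
  else I (C.Γ (φ t) h * RR P ε (ff ε φ) (gg ε u) t r k)
        + ε / 2 * I (C.lap h * RR P ε (ff ε φ) (gg ε u) t r k)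

theorem hasDerivAt_RR (hC : IsGamma C) (hB : C.BEi κ) (hP : Heat C K P)
    (hp : Pair C P ε a b φ u) (hh : h ∈ C.Test) (hk : MemLp k 2 m) (hk' : MemLp k ∞ m)
    (hr : r ∈ Icc a b) (ht : t ∈ Ioo a b) (htr : t ≠ r) :
    HasDerivAt (fun s => I (h * RR P ε (ff ε φ) (gg ε u) s r k)) (DG C P ε φ u r k h t) t := by
  unfold DG
  rcases lt_or_gt_of_ne htr with h1 | h1
  · rw [if_pos h1]
    exact ce_deriv_lt hC hB hP hp hh hk hk' hr ht.1 h1
  · rw [if_neg (not_lt.2 h1.le)]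
    exact ce_deriv_gt hC hB hP hp hh hk hk' hr h1 ht.2

theorem abs_DG_le (hC : IsGamma C) (hP : Heat C K P)
    (hp : Pair C P ε a b φ u) (hh : h ∈ C.Test) (hk : MemLp k 2 m)
    (hr : r ∈ Icc a b) (ht : t ∈ Icc a b) (hL : 0 ≤ L) (hS : 0 ≤ S)
    (hu : ∀ᵐ x ∂m, C.Γ (u t) (u t) x ≤ L ^ 2) (hφ : ∀ᵐ x ∂m, C.Γ (φ t) (φ t) x ≤ L ^ 2)
    (hR : I (RR P ε (ff ε φ) (gg ε u) t r k ^ 2) ≤ S ^ 2) :
    |DG C P ε φ u r k h t| ≤ S * (L * √(I (C.Γ h h)) + ε / 2 * √(I (C.lap h ^ 2))) := by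
  have hF := FG.of_pair hp
  have hε := hp.hε
  have hhW := (hC.test_A hh).1
  have hl2 := (hC.test_isLap hh).2.1
  have m2 := RR_mem2 hC hF hP ht hr hk
  have b1 := abs_I_Γ_le hC.toIsDir (hC.test_A (hp.u_mem t ht).1).1 hhW hL hu m2 hS hR
  have b2 := abs_I_Γ_le hC.toIsDir (hC.test_A (hp.φ_mem t ht).1).1 hhW hL hφ m2 hS hR
  have b3 := abs_I_le' hl2 m2 hS hR
  have b4 : |ε / 2 * I (C.lap h * RR P ε (ff ε φ) (gg ε u) t r k)|
      ≤ ε / 2 * (S * √(I (C.lap h ^ 2))) := by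
    rw [abs_mul, abs_of_pos (by positivity : 0 < ε / 2)]
    exact mul_le_mul_of_nonneg_left b3 (by positivity)
  unfold DG
  split_ifs with h1
  · refine (abs_sub _ _).trans ?_
    linarith
  · refine (abs_add_le _ _).trans ?_
    linarith

/-- Lipschitz estimate in time -/
theorem RR_lip (hC : IsGamma C) (hB : C.BEi κ) (hP : Heat C K P)
    (hp : Pair C P ε a b φ u) (hh : h ∈ C.Test) (hk : MemLp k 2 m) (hk' : MemLp k ∞ m)
    (hr : r ∈ Icc a b) (hL : 0 ≤ L) (hS : 0 ≤ S) (has : a ≤ s) (hTb : T ≤ b)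
    (hu : ∀ t ∈ Icc s T, ∀ᵐ x ∂m, C.Γ (u t) (u t) x ≤ L ^ 2)
    (hφ : ∀ t ∈ Icc s T, ∀ᵐ x ∂m, C.Γ (φ t) (φ t) x ≤ L ^ 2)
    (hR : ∀ t ∈ Icc s T, I (RR P ε (ff ε φ) (gg ε u) t r k ^ 2) ≤ S ^ 2) :
    ∀ x ∈ Icc s T, ∀ y ∈ Icc s T,
      |I (h * RR P ε (ff ε φ) (gg ε u) x r k) - I (h * RR P ε (ff ε φ) (gg ε u) y r k)|
        ≤ S * (L * √(I (C.Γ h h)) + ε / 2 * √(I (C.lap h ^ 2))) * |x - y| := by
  have hA := hC.test_A hh
  have hsub : Icc s T ⊆ Icc a b := Icc_subset_Icc has hTb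
  have hsub' : Ioo s T ⊆ Ioo a b := Ioo_subset_Ioo has hTb
  refine lip_of_deriv_ne (r := r) (G' := DG C P ε φ u r k h)
    ((RR_cont hC hP (FG.of_pair hp) (hC.memLp _ hA.1) hA.2 hk hr).mono hsub)
    (fun x hx hxr => hasDerivAt_RR hC hB hP hp hh hk hk' hr (hsub' hx) hxr) ?_
  intro x hx hxr
  have hx' := Ioo_subset_Icc_self hx
  exact abs_DG_le hC hP hp hh hk hr (hsub hx') hL hS (hu x hx') (hφ x hx') (hR x hx')

end ce

end Vale.Agent.P233.TT
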