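import Vale.Agent.P233.H305.TwoTimeLim
import Vale.Agent.P233.H372.C1b

/-! P233, block C2-2T (helper305): the two-time half of block C1 of `Gig/IfC`, from `PA.OutA` and
`PA.PotLim`. -/

set_option linter.all false

open MeasureTheory Filter Topology Set
open scoped ENNReal NNReal

universe u

namespace Vale.Agent.P233.TT

open Vale.Agent.P233 Vale.Agent.P233.UST
open Vale.Agent.P233.PA (en OutA PotLim)
open Vale.Agent.P233.PC

variable {M : Type u} [MetricSpace M] [SecondCountableTopology M] [MeasurableSpace M]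
  [BorelSpace M] {m : Measure M} {K N : ℝ} {P : ℝ → (M →ₘ[m] ℝ) → (M →ₘ[m] ℝ)} {p : M}
  {s₀ C₀ : ℝ} {u : ℕ → ℝ → M →ₘ[m] ℝ} {φ : (M →ₘ[m] ℝ) → ℕ → ℝ → M →ₘ[m] ℝ}
  {U : Ultrafilter ℕ} {φ₀ : ℝ → M → ℝ} {L B R₀ c : ℝ}

theorem sf_of_chyp (hyp : CHyp M m K N P p s₀ C₀) : SigmaFinite m :=
  ⟨⟨⟨fun n => Metric.ball p n, fun _ => trivial, fun n => hyp.std.hfin p n,
    Metric.iUnion_ball_nat p⟩⟩⟩

theorem le_sq_of_abs_le {a b : ℝ} (h : |a| ≤ b) : a ^ 2 ≤ b ^ 2 := by
  rw [← sq_abs a]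
  exact pow_le_pow_left₀ (abs_nonneg a) h 2

theorem le_sq_of_sqrt_le {a b : ℝ} (h : √|a| ≤ b) : a ≤ b ^ 2 := by
  refine (le_abs_self a).trans ?_
  rw [← Real.sq_sqrt (abs_nonneg a)]
  exact pow_le_pow_left₀ (Real.sqrt_nonneg _) h 2

/-- the hypotheses of the abstract limit calculus, from the output of part A -/
theorem limHyp (hyp : CHyp M m K N P p s₀ C₀) (hA : OutA m K N P p s₀ C₀ u φ)
    (hU : (U : Filter ℕ) ≤ atTop) (hp : PotLim m N p s₀ C₀ U (φ 0) u φ₀ L B R₀ c) :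
    ∃ (L' : ℝ) (B' E' : ℝ → ℝ), LimHyp (sob m) P U en (φ 0) u (zc m p s₀ C₀)
      (fun t => cl m (φ₀ t)) (H372.ρl U u φ) L' B' E' := by
  have hC := hyp.std.base.hC
  have hD := hC.toIsDir
  have hN := hyp.std.hN
  have hBi := hC.bei hN hyp.std.rcd.bochner
  have h0 : (0 : M →ₘ[m] ℝ) ∈ (sob m).TestI := hC.testI_zero hBi
  have hFam : ∀ᶠ n in (U : Filter ℕ),
      Fam (sob m) P (en n) (cl m (zr p s₀ C₀ 0)) 0 (φ 0 n) (u n) :=
    (hA.fam.filter_mono hU).mono fun n hn => hn 0 h0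
  obtain ⟨D, D', hLU⟩ := hA.levU
  obtain ⟨F, F', hLF⟩ := H372.lev_zero hyp hA
  replace hLU := hLU.filter_mono hU
  replace hLF := hLF.filter_mono hU
  have hpot := H372.c1pot hyp hA hU hp
  obtain ⟨Lz, hLz⟩ := hpot.z_grad
  obtain ⟨Lφ, hLφ⟩ := hpot.φ_grad
  obtain ⟨E, hE⟩ := H372.zc_energy hD hyp.std.hfin (p := p) hyp.hs hyp.hC0.le
  have hc1 : ∀ n, PA.c1 K (en n) C₀ ≤ (1 + |K|) * |K| * C₀ := fun n => by
    have := H372.c1_le (K := K) (H372.en_pos n).le (H372.en_le_one n) hyp.hC0.le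
      (left_mem_Icc.2 zero_le_one)
    simpa using this
  set Λ : ℝ := |D| + |F| + √|Lz| + √|Lφ| with hΛ
  have n1 := abs_nonneg D
  have n2 := abs_nonneg F
  have n3 := Real.sqrt_nonneg |Lz|
  have n4 := Real.sqrt_nonneg |Lφ|
  have hD' : |D| ≤ Λ := by rw [hΛ]; linarith
  have hF' : |F| ≤ Λ := by rw [hΛ]; linarith
  have hz' : √|Lz| ≤ Λ := by rw [hΛ]; linarith
  have hφ' : √|Lφ| ≤ Λ := by rw [hΛ]; linarith
  refine ⟨Λ, fun s => |s| ^ (-N) * Real.exp ((1 + |K|) * |K| * C₀), fun _ => E, ?_⟩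
  refine
    { ε0 := ?_, pair := hFam.mono fun n hn => hn.pair, hL := ?_, gu := ?_, gφ := ?_, tu := ?_,
      tφ := ?_, lu := ?_, lφ := ?_, B0 := ?_, dens := ?_, zW := ?_, zL := ?_, zE := ?_, φW := ?_,
      φL := ?_, ulim := ?_, φlim := ?_, ρlim := hpot.ρ_lim, φle := ?_, supp := hpot.ρ_supp }
  · refine Tendsto.mono_left ?_ hU
    exact tendsto_inv_atTop_zero.comp
      (tendsto_atTop_add_const_right _ 1 tendsto_natCast_atTop_atTop)
  · rw [hΛ]; positivity
  · filter_upwards [hLU] with n hn t ht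
    filter_upwards [hn.lip t ht] with x hx
    exact hx.trans (le_sq_of_abs_le hD')
  · filter_upwards [hLF] with n hn t ht
    filter_upwards [hn.lip t ht] with x hx
    exact hx.trans (le_sq_of_abs_le hF')
  · filter_upwards [hLU] with n hn s hs t ht
    filter_upwards [hn.time t ht s hs] with x hx
    exact hx.trans (mul_le_mul_of_nonneg_right ((le_abs_self D).trans hD') (abs_nonneg _))
  · filter_upwards [hLF] with n hn s hs t ht
    filter_upwards [hn.time t ht s hs] with x hx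
    exact hx.trans (mul_le_mul_of_nonneg_right ((le_abs_self F).trans hF') (abs_nonneg _))
  · intro s hs
    refine ⟨N / s + (1 + |K|) * |K| * C₀, ?_⟩
    filter_upwards [hLU] with n hn t ht
    filter_upwards [hn.lap t (Icc_sub hs ht)] with x hx
    have h1 := div_le_div_of_nonneg_left hN.le hs.1 ht.1
    have h2 := hc1 n
    linarith
  · intro s hs
    refine ⟨N / (1 - s) + |F|, ?_⟩
    filter_upwards [hLF] with n hn t ht
    filter_upwards [hn.lap t ⟨ht.1, ht.2.trans_lt hs.2⟩] with x hx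
    have h1 : N / (1 - t) ≤ N / (1 - s) :=
      div_le_div_of_nonneg_left hN.le (by linarith [hs.2]) (by linarith [ht.2])
    have h2 := le_abs_self F
    linarith
  · exact fun s => mul_nonneg (Real.rpow_nonneg (abs_nonneg s) _) (Real.exp_pos _).le
  · intro s hs
    filter_upwards [hLF] with n hn t ht
    have ht' := Icc_sub hs ht
    filter_upwards [hn.dens t ht'] with x hx
    rw [mul_one] at hx
    refine hx.trans ?_
    rw [abs_of_pos hs.1]
    refine mul_le_mul ?_ ?_ (Real.exp_pos _).le (Real.rpow_nonneg hs.1.le _)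
    · exact Real.rpow_le_rpow_of_nonpos hs.1 ht.1 (by linarith)
    · exact Real.exp_le_exp.2 (H372.c1_le (H372.en_pos n).le (H372.en_le_one n) hyp.hC0.le
        (Ioc_Icc ht'))
  · exact fun t ht => (hpot.z_mem t ht).1
  · intro t ht
    filter_upwards [hLz t ht] with x hx
    exact hx.trans (le_sq_of_sqrt_le hz')
  · exact fun s hs t ht => hE t (Ioc_Icc (Icc_sub hs ht))
  · exact fun t ht => (hpot.φ_mem t ht).1
  · intro t ht
    filter_upwards [hLφ t ht] with x hx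
    exact hx.trans (le_sq_of_sqrt_le hφ')
  · intro t ht χ χ1 χt χ0
    obtain ⟨b, hb⟩ := mem_top_iff.1 χt
    have h1 : Tendsto (fun n => I ((u n t - zc m p s₀ C₀ t) ^ 2)) U (𝓝 0) :=
      (hA.ulim.conv t ht).mono_left hU
    have h2 := h1.const_mul b
    rw [mul_zero] at h2
    refine squeeze_zero' ?_ ?_ h2
    · exact Eventually.of_forall fun n => I_nonneg (mul_nonneg χ0 (sq_nonneg' _))
    · filter_upwards [hFam] with n hn
      have m1 : MemLp (u n t - zc m p s₀ C₀ t : M →ₘ[m] ℝ) 2 m := by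
        have := hC.memLp _ (hpot.z_mem t ht).1
        refine mem_sub ?_ this
        exact hC.memLp _ (hC.test_A (hn.pair.u_mem t ht).1).1
      rw [← I_smul]
      refine I_mono (mem_mul_top χt (mem_sq m1)) (mem_smul _ (mem_sq m1)) (le_iff_ae.2 ?_)
      filter_upwards [hb, nonneg_iff_ae.1 χ0, mul_ae χ ((u n t - zc m p s₀ C₀ t) ^ 2),
        smul_ae ((u n t - zc m p s₀ C₀ t) ^ 2) b, sq_ae (u n t - zc m p s₀ C₀ t)]
        with x a1 a2 a3 a4 a5
      rw [a3, a4, a5]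
      rw [abs_of_nonneg a2] at a1
      exact mul_le_mul_of_nonneg_right a1 (sq_nonneg _)
  · exact fun t ht χ χ1 χt χ0 => hp.convφ t ht χ χ0 χ1
  · exact fun t ht => hpot.φ_le t (Ioc_Icc ht)

/-- the limit of the two-time densities of `PC.RE` -/
noncomputable def Rc (P : ℝ → (M →ₘ[m] ℝ) → (M →ₘ[m] ℝ)) (U : Ultrafilter ℕ)
    (u : ℕ → ℝ → M →ₘ[m] ℝ) (φ : (M →ₘ[m] ℝ) → ℕ → ℝ → M →ₘ[m] ℝ) (t r : ℝ)
    (k : M →ₘ[m] ℝ) : M →ₘ[m] ℝ := RL P U en (φ 0) u t r k

theorem limOf (hyp : CHyp M m K N P p s₀ C₀) (hA : OutA m K N P p s₀ C₀ u φ)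
    (hU : (U : Filter ℕ) ≤ atTop) (hp : PotLim m N p s₀ C₀ U (φ 0) u φ₀ L B R₀ c) :
    LimOf P U u φ (H372.ρl U u φ) (Rc P U u φ) := by
  obtain ⟨L', B', E', h⟩ := limHyp hyp hA hU hp
  refine ⟨fun t ht b hb => ?_, fun t ht r hr k hk b hb => ?_⟩
  · exact (h.ρlim t ht).lim b hb
  · exact (R_wconv hyp.std.base.hC hyp.heat h ht hr hk.1 hk.2).lim b hb

theorem lim (hyp : CHyp M m K N P p s₀ C₀) (hA : OutA m K N P p s₀ C₀ u φ)
    (hU : (U : Filter ℕ) ≤ atTop) (hp : PotLim m N p s₀ C₀ U (φ 0) u φ₀ L B R₀ c) :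
    Lim m K N p s₀ C₀ (fun t => cl m (φ₀ t)) (H372.ρl U u φ) (Rc P U u φ) := by
  obtain ⟨L', B', E', h⟩ := limHyp hyp hA hU hp
  have hpot := H372.c1pot hyp hA hU hp
  have hC := hyp.std.base.hC
  have hB : (sob m).BEi K := hC.bei hyp.std.hN hyp.std.rcd.bochner
  have hP := hyp.heat
  haveI := sf_of_chyp hyp
  exact
    { z_mem := hpot.z_mem
      z_grad := hpot.z_grad
      z_lap := hpot.z_lap
      unit := hpot.unit
      φ_mem := hpot.φ_mem
      φ_bd := by
        refine ⟨|B|, fun t ht => ?_⟩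
        have h1 : Continuous (φ₀ t) := by
          have : LipschitzWith (Real.toNNReal (max L 0)) (φ₀ t) := by
            refine lipschitz_of_abs_sub_le (le_max_right _ _) fun x y => ?_
            have := hp.lip t ht t ht x y
            rw [sub_self, abs_zero, zero_add] at this
            exact this.trans (mul_le_mul_of_nonneg_right (le_max_left _ _) dist_nonneg)
          exact this.continuous
        filter_upwards [H183.cl_cont (m := m) h1] with x hx
        rw [hx, abs_le]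
        have h2 := hp.lo t ht x
        have h3 := hp.le t ht x
        have h4 : zr p s₀ C₀ t x ≤ 0 := min_le_right _ _
        exact ⟨by linarith [le_abs_self B], by linarith [abs_nonneg B]⟩
      φ_grad := hpot.φ_grad
      φ_lap := hpot.φ_lap
      φ_far := hpot.φ_far
      φ_le := hpot.φ_le
      ρ_one := hpot.ρ_one
      ρ_nonneg := hpot.ρ_nonneg
      ρ_le := hpot.ρ_le
      ρ_L2 := hpot.ρ_L2
      R_mem := fun t ht r hr k hk => ⟨RL_mem2 hC hP h ht hr hk.1 hk.2, RL_memt hC hP h ht hr hk.1 hk.2⟩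
      R_add := fun t ht r hr k k' hk hk' => RL_add hC hP h ht hr hk.1 hk.2 hk'.1 hk'.2
      R_smul := fun t ht r hr c k hk => RL_smul hC hP h ht hr c hk.1 hk.2
      R_nonneg := fun t ht r hr k hk k0 => RL_nonneg hC hP h ht hr hk.1 hk.2 k0
      R_le := fun t ht r hr k hk B hB => RL_le hC hP h ht hr hk.1 hk.2 hB
      R_symm := fun t ht r hr k b hk hb => RL_symm hC hP h ht hr hk.1 hk.2 hb.1 hb.2
      R_diag := fun t ht k hk => RL_diag hC hP h ht hk.1 hk.2
      R_mass := fun t ht r hr k hk k1 => RL_mass hC hB hP h ht hr hk.1 hk.2 k1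
      R_sq := fun t ht r hr k hk => by
        rw [le_iff_ae]
        filter_upwards [RL_cs hC hP h ht hr hk.1 hk.2, sq_ae (Rc P U u φ t r k),
          mul_ae (H372.ρl U u φ t) (Rc P U u φ t r (k ^ 2))] with x a1 a2 a3
        rw [a2, a3]
        exact a1
      R_gram := fun s hs r hr t ht a b c ha hb hc =>
        RL_gram hC hP h hs hr ht ha.1 ha.2 hb.1 hb.2 hc.1 hc.2
      ρ_supp := hpot.ρ_supp
      CE := fun r hr k hk b hb s hs t ht =>
        ⟨FL_int hC hB hP h hs ht hr hk.1 hk.2 hb, CE_all hC hB hP h hs ht hr hk.1 hk.2 hb⟩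
      CEρ := fun b hb s hs t ht => CEρ_all hC hB hP h hs ht hb }

/-- block C1 -/
theorem blk_C1 : Blk_C1.{u} := by
  intro M _ _ _ _ _ m K N P p s₀ C₀ hyp u φ hA U hU
  obtain ⟨φ₀, L, B, R₀, c, hp⟩ := hA.plim U hU
  exact ⟨φ₀, L, B, R₀, c, _, _, hp, limOf hyp hA hU hp, lim hyp hA hU hp⟩

end Vale.Agent.P233.TT
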