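import Vale.Agent.P233.H305.TwoTimeCE
import Vale.Agent.P233.H196.UST4
import Vale.Agent.P233.H169.Grad
import Vale.Agent.P233.H589.Lat

/-! P233, block C2-2T: limits of the two-time densities along an ultrafilter (helper305). -/

set_option linter.all false

open MeasureTheory Filter Topology Set
open scoped ENNReal NNReal

universe u

namespace Vale.Agent.P233.TT

open Vale.Agent.P233 Vale.Agent.P233.UST

variable {M : Type u} [MeasurableSpace M] {m : Measure M} {C : Calc m} {ι : Type*}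

/-- Level data and limit potentials; everything at the level only eventually along `U`. -/
structure LimHyp (C : Calc m) (P : ℝ → (M →ₘ[m] ℝ) → (M →ₘ[m] ℝ)) (U : Ultrafilter ι) (ε : ι → ℝ)
    (φn un : ι → ℝ → M →ₘ[m] ℝ) (z φ ρ : ℝ → M →ₘ[m] ℝ) (L : ℝ) (B E : ℝ → ℝ) : Prop where
  ε0 : Tendsto ε U (𝓝 0)
  pair : ∀ᶠ n in (U : Filter ι), Pair C P (ε n) 0 1 (φn n) (un n)
  hL : 0 ≤ L
  gu : ∀ᶠ n in (U : Filter ι), ∀ t ∈ Icc (0 : ℝ) 1, ∀ᵐ x ∂m, C.Γ (un n t) (un n t) x ≤ L ^ 2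
  gφ : ∀ᶠ n in (U : Filter ι), ∀ t ∈ Icc (0 : ℝ) 1, ∀ᵐ x ∂m, C.Γ (φn n t) (φn n t) x ≤ L ^ 2
  tu : ∀ᶠ n in (U : Filter ι), ∀ s ∈ Icc (0 : ℝ) 1, ∀ t ∈ Icc (0 : ℝ) 1,
    ∀ᵐ x ∂m, |un n s x - un n t x| ≤ L * |s - t|
  tφ : ∀ᶠ n in (U : Filter ι), ∀ s ∈ Icc (0 : ℝ) 1, ∀ t ∈ Icc (0 : ℝ) 1,
    ∀ᵐ x ∂m, |φn n s x - φn n t x| ≤ L * |s - t|
  lu : ∀ s ∈ Ioc (0 : ℝ) 1, ∃ c : ℝ, ∀ᶠ n in (U : Filter ι), ∀ t ∈ Icc s 1,
    ∀ᵐ x ∂m, C.lap (un n t) x ≤ c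
  lφ : ∀ s ∈ Ico (0 : ℝ) 1, ∃ c : ℝ, ∀ᶠ n in (U : Filter ι), ∀ t ∈ Icc 0 s,
    ∀ᵐ x ∂m, -c ≤ C.lap (φn n t) x
  B0 : ∀ s, 0 ≤ B s
  dens : ∀ s ∈ Ioc (0 : ℝ) 1, ∀ᶠ n in (U : Filter ι), ∀ t ∈ Icc s 1,
    ∀ᵐ x ∂m, rh (ε n) (φn n) (un n) t x ≤ B s
  zW : ∀ t ∈ Icc (0 : ℝ) 1, z t ∈ C.W
  zL : ∀ t ∈ Icc (0 : ℝ) 1, ∀ᵐ x ∂m, C.Γ (z t) (z t) x ≤ L ^ 2
  zE : ∀ s ∈ Ioc (0 : ℝ) 1, ∀ t ∈ Icc s 1, I (C.Γ (z t) (z t)) ≤ E s
  φW : ∀ t ∈ Icc (0 : ℝ) 1, φ t ∈ C.W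
  φL : ∀ t ∈ Icc (0 : ℝ) 1, ∀ᵐ x ∂m, C.Γ (φ t) (φ t) x ≤ L ^ 2
  ulim : ∀ t ∈ Icc (0 : ℝ) 1, ∀ χ : M →ₘ[m] ℝ, MemLp χ 1 m → MemLp χ ∞ m → 0 ≤ χ →
    Tendsto (fun n => I (χ * (un n t - z t) ^ 2)) U (𝓝 0)
  φlim : ∀ t ∈ Icc (0 : ℝ) 1, ∀ χ : M →ₘ[m] ℝ, MemLp χ 1 m → MemLp χ ∞ m → 0 ≤ χ →
    Tendsto (fun n => I (χ * (φn n t - φ t) ^ 2)) U (𝓝 0)
  ρlim : ∀ t ∈ Ioc (0 : ℝ) 1,
    WConv (U : Filter ι) (fun n => rh (ε n) (φn n) (un n) t - 1) (ρ t - 1)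
  φle : ∀ t ∈ Ioc (0 : ℝ) 1, φ t ≤ z t
  supp : ∀ t ∈ Ioo (0 : ℝ) 1, ∀ᵐ x ∂m, φ t x < z t x → ρ t x = 0

/-- the two-time density of level `n` -/
noncomputable def Rn (P : ℝ → (M →ₘ[m] ℝ) → (M →ₘ[m] ℝ)) (ε : ι → ℝ)
    (φn un : ι → ℝ → M →ₘ[m] ℝ) (n : ι) (t r : ℝ) (k : M →ₘ[m] ℝ) : M →ₘ[m] ℝ :=
  RR P (ε n) (ff (ε n) (φn n)) (gg (ε n) (un n)) t r k

/-- the limit -/
noncomputable def RL (P : ℝ → (M →ₘ[m] ℝ) → (M →ₘ[m] ℝ)) (U : Ultrafilter ι) (ε : ι → ℝ)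
    (φn un : ι → ℝ → M →ₘ[m] ℝ) (t r : ℝ) (k : M →ₘ[m] ℝ) : M →ₘ[m] ℝ :=
  wlim U (fun n => Rn P ε φn un n t r k)

section basic

variable {κ K : ℝ} {P : ℝ → (M →ₘ[m] ℝ) → (M →ₘ[m] ℝ)} {U : Ultrafilter ι} {ε : ι → ℝ}
  {φn un : ι → ℝ → M →ₘ[m] ℝ} {z φ ρ : ℝ → M →ₘ[m] ℝ} {L : ℝ} {B E : ℝ → ℝ}
  {k l : M →ₘ[m] ℝ} {t r s s' : ℝ}

theorem sq_mem2 (hk : MemLp k 2 m) (hk' : MemLp k ∞ m) : MemLp (k ^ 2 : M →ₘ[m] ℝ) 2 m := by
  rw [pow_two]; exact mem_mul_top hk' hk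

theorem sq_mem1 (hk : MemLp k 2 m) : MemLp (k ^ 2 : M →ₘ[m] ℝ) 1 m := mem_sq hk

theorem sq_memt (hk' : MemLp k ∞ m) : MemLp (k ^ 2 : M →ₘ[m] ℝ) ∞ m := by
  rw [pow_two]; exact mem_mul_top hk' hk'

theorem Ioc_Icc {t : ℝ} (ht : t ∈ Ioc (0 : ℝ) 1) : t ∈ Icc (0 : ℝ) 1 := Ioc_subset_Icc_self ht

theorem Icc_sub {s : ℝ} (hs : s ∈ Ioc (0 : ℝ) 1) : Icc s 1 ⊆ Ioc (0 : ℝ) 1 := fun t ht =>
  ⟨hs.1.trans_le ht.1, ht.2⟩

variable (hC : IsGamma C) (hP : Heat C K P) (h : LimHyp C P U ε φn un z φ ρ L B E)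
include hC hP h

omit hC hP in
theorem rho_le (hs : s ∈ Ioc (0 : ℝ) 1) : ∀ᶠ n in (U : Filter ι), ∀ t ∈ Icc s 1,
    ∀ᵐ x ∂m, (ff (ε n) (φn n) t * gg (ε n) (un n) t : M →ₘ[m] ℝ) x ≤ B s := by
  filter_upwards [h.dens s hs] with n hn t ht
  have := hn t ht
  rw [rh_eq] at this
  exact this

theorem Rn_sq_le (hs : s ∈ Ioc (0 : ℝ) 1) (hs' : s' ∈ Ioc (0 : ℝ) 1) (hk : MemLp k 2 m)
    (hk' : MemLp k ∞ m) : ∀ᶠ n in (U : Filter ι), ∀ t ∈ Icc s 1, ∀ r ∈ Icc s' 1,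
      MemLp (Rn P ε φn un n t r k) 2 m ∧
      I (Rn P ε φn un n t r k ^ 2) ≤ B s * (B s' * I (k ^ 2)) := by
  filter_upwards [rho_le h hs, rho_le h hs', h.pair] with n h1 h2 hp t ht r hr
  have hF := FG.of_pair hp
  have htI := Ioc_Icc (Icc_sub hs ht)
  have hrI := Ioc_Icc (Icc_sub hs' hr)
  have k2 := sq_mem2 hk hk'
  have k1 := sq_mem1 hk
  have m2 : MemLp (Rn P ε φn un n t r k) 2 m := RR_mem2 hC hF hP htI hrI hk
  have m1 : MemLp (Rn P ε φn un n t r (k ^ 2)) 1 m := RR_mem1 hC hF hP htI hrI k2 k1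
  have n1 : 0 ≤ Rn P ε φn un n t r (k ^ 2) := RR_nonneg hC hF hP htI hrI k2 (sq_nonneg' k)
  refine ⟨m2, ?_⟩
  have s1 : I (Rn P ε φn un n t r k ^ 2) ≤ B s * I (Rn P ε φn un n t r (k ^ 2)) := by
    rw [← I_smul]
    refine I_mono (mem_sq m2) (mem_smul _ m1) (le_iff_ae.2 ?_)
    filter_upwards [h1 t ht, RR_cs hC hF hP htI hrI hk hk', nonneg_iff_ae.1 n1,
      sq_ae (Rn P ε φn un n t r k), smul_ae (Rn P ε φn un n t r (k ^ 2)) (B s)]
      with x a1 a2 a3 a4 a5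
    rw [a4, a5]
    exact a2.trans (mul_le_mul_of_nonneg_right a1 a3)
  have s2 : I (Rn P ε φn un n t r (k ^ 2)) ≤ B s' * I (k ^ 2) := by
    have e : I (Rn P ε φn un n t r (k ^ 2))
        = I (k ^ 2 * (ff (ε n) (φn n) r * gg (ε n) (un n) r)) := RR_mass hC hF hP htI hrI k2 k1
    rw [e, ← I_smul]
    refine I_mono (mem_top_mul k1 (hF.top_rho hC hrI)) (mem_smul _ k1) (le_iff_ae.2 ?_)
    filter_upwards [h2 r hr, mul_ae (k ^ 2) (ff (ε n) (φn n) r * gg (ε n) (un n) r), sq_ae k,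
      smul_ae (k ^ 2) (B s')] with x a1 a2 a3 a4
    rw [a2, a3, a4, a3, mul_comm]
    exact mul_le_mul_of_nonneg_right a1 (sq_nonneg _)
  exact s1.trans (mul_le_mul_of_nonneg_left s2 (h.B0 s))

theorem Rn_bdd (ht : t ∈ Ioc (0 : ℝ) 1) (hr : r ∈ Ioc (0 : ℝ) 1) (hk : MemLp k 2 m)
    (hk' : MemLp k ∞ m) : BddL2 (U : Filter ι) (fun n => Rn P ε φn un n t r k) :=
  ⟨B t * (B r * I (k ^ 2)), (Rn_sq_le hC hP h ht hr hk hk').mono fun n hn =>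
    hn t ⟨le_rfl, ht.2⟩ r ⟨le_rfl, hr.2⟩⟩

theorem R_wconv (ht : t ∈ Ioc (0 : ℝ) 1) (hr : r ∈ Ioc (0 : ℝ) 1) (hk : MemLp k 2 m)
    (hk' : MemLp k ∞ m) :
    WConv (U : Filter ι) (fun n => Rn P ε φn un n t r k) (RL P U ε φn un t r k) :=
  (Rn_bdd hC hP h ht hr hk hk').wconv

theorem RL_mem2 (ht : t ∈ Ioc (0 : ℝ) 1) (hr : r ∈ Ioc (0 : ℝ) 1) (hk : MemLp k 2 m)
    (hk' : MemLp k ∞ m) : MemLp (RL P U ε φn un t r k) 2 m := (R_wconv hC hP h ht hr hk hk').mem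

theorem RL_add (ht : t ∈ Ioc (0 : ℝ) 1) (hr : r ∈ Ioc (0 : ℝ) 1) (hk : MemLp k 2 m)
    (hk' : MemLp k ∞ m) (hl : MemLp l 2 m) (hl' : MemLp l ∞ m) :
    RL P U ε φn un t r (k + l) = RL P U ε φn un t r k + RL P U ε φn un t r l := by
  have h1 := (R_wconv hC hP h ht hr hk hk').add (R_wconv hC hP h ht hr hl hl')
  refine (h1.congr ?_).wlim_eq
  filter_upwards [h.pair] with n hp
  exact (RR_add hC (FG.of_pair hp) hP (Ioc_Icc ht) (Ioc_Icc hr) hk hl).symm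

theorem RL_smul (ht : t ∈ Ioc (0 : ℝ) 1) (hr : r ∈ Ioc (0 : ℝ) 1) (c : ℝ) (hk : MemLp k 2 m)
    (hk' : MemLp k ∞ m) :
    RL P U ε φn un t r (c • k) = c • RL P U ε φn un t r k := by
  have h1 := (R_wconv hC hP h ht hr hk hk').smul c
  refine (h1.congr ?_).wlim_eq
  filter_upwards [h.pair] with n hp
  exact (RR_smul hC (FG.of_pair hp) hP (Ioc_Icc ht) (Ioc_Icc hr) c hk).symm

theorem RL_sub (ht : t ∈ Ioc (0 : ℝ) 1) (hr : r ∈ Ioc (0 : ℝ) 1) (hk : MemLp k 2 m)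
    (hk' : MemLp k ∞ m) (hl : MemLp l 2 m) (hl' : MemLp l ∞ m) :
    RL P U ε φn un t r (k - l) = RL P U ε φn un t r k - RL P U ε φn un t r l := by
  have e : k - l = k + (-1 : ℝ) • l := by rw [neg_one_smul, sub_eq_add_neg]
  rw [e, RL_add hC hP h ht hr hk hk' (mem_smul _ hl) (mem_smul _ hl'),
    RL_smul hC hP h ht hr _ hl hl', neg_one_smul, sub_eq_add_neg]

theorem RL_nonneg (ht : t ∈ Ioc (0 : ℝ) 1) (hr : r ∈ Ioc (0 : ℝ) 1) (hk : MemLp k 2 m)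
    (hk' : MemLp k ∞ m) (hk0 : 0 ≤ k) : 0 ≤ RL P U ε φn un t r k := by
  refine (R_wconv hC hP h ht hr hk hk').nonneg ?_
  filter_upwards [h.pair] with n hp
  exact RR_nonneg hC (FG.of_pair hp) hP (Ioc_Icc ht) (Ioc_Icc hr) hk hk0

theorem RL_le (ht : t ∈ Ioc (0 : ℝ) 1) (hr : r ∈ Ioc (0 : ℝ) 1) (hk : MemLp k 2 m)
    (hk' : MemLp k ∞ m) {c : ℝ} (hkc : ∀ᵐ x ∂m, |k x| ≤ c) :
    ∀ᵐ x ∂m, |RL P U ε φn un t r k x| ≤ c * ρ t x := by
  rcases lt_or_ge c 0 with hc | hc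
  · filter_upwards [hkc] with x hx
    exact absurd ((abs_nonneg _).trans hx) (not_le.2 hc)
  have w1 := R_wconv hC hP h ht hr hk hk'
  have w2 := (h.ρlim t ht).smul c
  have key : ∀ᶠ n in (U : Filter ι), ∀ᵐ x ∂m, |Rn P ε φn un n t r k x|
      ≤ c * rh (ε n) (φn n) (un n) t x := by
    filter_upwards [h.pair] with n hp
    rw [rh_eq]
    exact RR_le hC (FG.of_pair hp) hP (Ioc_Icc ht) (Ioc_Icc hr) hk hc hkc
  have a1 := (w1.sub w2).le_const (K := c) (by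
    filter_upwards [key] with n hn
    filter_upwards [hn, sub_ae (Rn P ε φn un n t r k) (c • (rh (ε n) (φn n) (un n) t - 1)),
      smul_ae (rh (ε n) (φn n) (un n) t - 1) c, sub_ae (rh (ε n) (φn n) (un n) t) 1,
      one_ae (M := M) (m := m)] with x b1 b2 b3 b4 b5
    rw [b2, b3, b4, b5]
    have := (abs_le.1 b1).2
    linarith)
  have a2 := (w1.add w2).ge_const (K := -c) (by
    filter_upwards [key] with n hn
    filter_upwards [hn, add_ae (Rn P ε φn un n t r k) (c • (rh (ε n) (φn n) (un n) t - 1)),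
      smul_ae (rh (ε n) (φn n) (un n) t - 1) c, sub_ae (rh (ε n) (φn n) (un n) t) 1,
      one_ae (M := M) (m := m)] with x b1 b2 b3 b4 b5
    rw [b2, b3, b4, b5]
    have := (abs_le.1 b1).1
    linarith)
  filter_upwards [a1, a2, sub_ae (RL P U ε φn un t r k) (c • (ρ t - 1)),
    add_ae (RL P U ε φn un t r k) (c • (ρ t - 1)), smul_ae (ρ t - 1) c, sub_ae (ρ t) 1,
    one_ae (M := M) (m := m)] with x b1 b2 b3 b4 b5 b6 b7
  rw [b3, b5, b6, b7] at b1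
  rw [b4, b5, b6, b7] at b2
  rw [abs_le]
  constructor <;> linarith

omit hC hP in
theorem rho_nonneg (ht : t ∈ Ioc (0 : ℝ) 1) : 0 ≤ ρ t := by
  have a1 := (h.ρlim t ht).ge_const (K := -1) (by
    refine Eventually.of_forall fun n => ?_
    filter_upwards [sub_ae (rh (ε n) (φn n) (un n) t) 1, one_ae (M := M) (m := m),
      ex_pos ((ε n)⁻¹ • (φn n t - un n t))] with x b1 b2 b3
    rw [b1, b2]
    have : 0 < rh (ε n) (φn n) (un n) t x := b3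
    linarith)
  refine nonneg_iff_ae.2 ?_
  filter_upwards [a1, sub_ae (ρ t) 1, one_ae (M := M) (m := m)] with x b1 b2 b3
  rw [b2, b3] at b1; linarith

omit hC hP in
theorem rho_le_B (ht : t ∈ Ioc (0 : ℝ) 1) : ∀ᵐ x ∂m, ρ t x ≤ B t := by
  have a1 := (h.ρlim t ht).le_const (K := B t - 1) (by
    filter_upwards [h.dens t ht] with n hn
    filter_upwards [hn t ⟨le_rfl, ht.2⟩, sub_ae (rh (ε n) (φn n) (un n) t) 1,
      one_ae (M := M) (m := m)] with x b0 b1 b2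
    rw [b1, b2]
    linarith)
  filter_upwards [a1, sub_ae (ρ t) 1, one_ae (M := M) (m := m)] with x b1 b2 b3
  rw [b2, b3] at b1; linarith

omit hC hP in
theorem rho_le_B' (hs : s ∈ Ioc (0 : ℝ) 1) (ht : t ∈ Icc s 1) : ∀ᵐ x ∂m, ρ t x ≤ B s := by
  have a1 := (h.ρlim t (Icc_sub hs ht)).le_const (K := B s - 1) (by
    filter_upwards [h.dens s hs] with n hn
    filter_upwards [hn t ht, sub_ae (rh (ε n) (φn n) (un n) t) 1,
      one_ae (M := M) (m := m)] with x b0 b1 b2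
    rw [b1, b2]
    linarith)
  filter_upwards [a1, sub_ae (ρ t) 1, one_ae (M := M) (m := m)] with x b1 b2 b3
  rw [b2, b3] at b1; linarith

omit hC hP in
theorem rho_top (ht : t ∈ Ioc (0 : ℝ) 1) : MemLp (ρ t) ∞ m := by
  refine mem_top_iff.2 ⟨B t, ?_⟩
  filter_upwards [rho_le_B h ht, nonneg_iff_ae.1 (rho_nonneg h ht)] with x a1 a2
  rwa [abs_of_nonneg a2]

theorem RL_memt (ht : t ∈ Ioc (0 : ℝ) 1) (hr : r ∈ Ioc (0 : ℝ) 1) (hk : MemLp k 2 m)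
    (hk' : MemLp k ∞ m) : MemLp (RL P U ε φn un t r k) ∞ m := by
  obtain ⟨c, hc⟩ := mem_top_iff.1 hk'
  refine mem_of_le (mem_smul c (rho_top h ht)) ?_
  filter_upwards [RL_le hC hP h ht hr hk hk' hc, smul_ae (ρ t) c] with x a1 a2
  rw [a2]
  exact a1.trans (le_abs_self _)

theorem RL_symm (ht : t ∈ Ioc (0 : ℝ) 1) (hr : r ∈ Ioc (0 : ℝ) 1) (hk : MemLp k 2 m)
    (hk' : MemLp k ∞ m) (hl : MemLp l 2 m) (hl' : MemLp l ∞ m) :
    I (l * RL P U ε φn un t r k) = I (k * RL P U ε φn un r t l) := by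
  refine tendsto_nhds_unique (((R_wconv hC hP h ht hr hk hk').lim l hl).congr' ?_)
    ((R_wconv hC hP h hr ht hl hl').lim k hk)
  filter_upwards [h.pair] with n hp
  exact RR_symm hC (FG.of_pair hp) hP (Ioc_Icc ht) (Ioc_Icc hr) hk hl

theorem RL_diag (ht : t ∈ Ioc (0 : ℝ) 1) (hk : MemLp k 2 m) (hk' : MemLp k ∞ m) :
    RL P U ε φn un t t k = k * ρ t := by
  have h1 := ((h.ρlim t ht).mul_top hk').add (WConv.const (l := (U : Filter ι)) hk)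
  have e : k * (ρ t - 1) + k = k * ρ t := by ring
  rw [e] at h1
  refine (h1.congr ?_).wlim_eq
  filter_upwards [h.pair] with n hp
  have := RR_self hC (FG.of_pair hp) hP (Ioc_Icc ht) hk
  rw [Rn, this, rh_eq]
  show k * (ff (ε n) (φn n) t * gg (ε n) (un n) t - 1) + k = _
  ring

omit hC hP in
theorem I_sq_rho_lim (ht : t ∈ Ioc (0 : ℝ) 1) (hk2 : MemLp k 2 m) (hk1 : MemLp k 1 m) :
    Tendsto (fun n => I (k * (ff (ε n) (φn n) t * gg (ε n) (un n) t))) U (𝓝 (I (k * ρ t))) := by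
  have h1 := ((h.ρlim t ht).lim k hk2).add (tendsto_const_nhds (x := I k))
  have e : ∀ w : M →ₘ[m] ℝ, MemLp (w - 1 : M →ₘ[m] ℝ) 2 m → I (k * (w - 1)) + I k = I (k * w) := by
    intro w hw
    rw [← I_add (mem_mul_22 hk2 hw) hk1]
    congr 1; ring
  rw [e _ (h.ρlim t ht).mem] at h1
  refine h1.congr' ?_
  obtain ⟨K, hK⟩ := (h.ρlim t ht).bdd
  filter_upwards [hK] with n hn
  rw [e _ hn.1, rh_eq]
  rfl

/-- `(R k)² ≤ ρ R (k²)` -/
theorem RL_cs (ht : t ∈ Ioc (0 : ℝ) 1) (hr : r ∈ Ioc (0 : ℝ) 1) (hk : MemLp k 2 m)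
    (hk' : MemLp k ∞ m) :
    ∀ᵐ x ∂m, RL P U ε φn un t r k x ^ 2 ≤ ρ t x * RL P U ε φn un t r (k ^ 2) x := by
  have w1 := R_wconv hC hP h ht hr hk hk'
  have w2 := R_wconv hC hP h ht hr (sq_mem2 hk hk') (sq_memt hk')
  have w3 := h.ρlim t ht
  have key : ∀ q : ℚ, ∀ᵐ x ∂m, 0 ≤ RL P U ε φn un t r (k ^ 2) x
      + 2 * (q : ℝ) * RL P U ε φn un t r k x + (q : ℝ) ^ 2 * ρ t x := by
    intro q
    have a1 := ((w2.add (w1.smul (2 * (q : ℝ)))).add (w3.smul ((q : ℝ) ^ 2))).ge_const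
      (K := -(q : ℝ) ^ 2) (by
      filter_upwards [h.pair] with n hp
      have hF := FG.of_pair hp
      filter_upwards [RR_cs hC hF hP (Ioc_Icc ht) (Ioc_Icc hr) hk hk',
        add_ae (Rn P ε φn un n t r (k ^ 2) + (2 * (q : ℝ)) • Rn P ε φn un n t r k)
          (((q : ℝ) ^ 2) • (rh (ε n) (φn n) (un n) t - 1)),
        add_ae (Rn P ε φn un n t r (k ^ 2)) ((2 * (q : ℝ)) • Rn P ε φn un n t r k),
        smul_ae (Rn P ε φn un n t r k) (2 * (q : ℝ)),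
        smul_ae (rh (ε n) (φn n) (un n) t - 1) ((q : ℝ) ^ 2),
        sub_ae (rh (ε n) (φn n) (un n) t) 1, one_ae (M := M) (m := m),
        ex_pos ((ε n)⁻¹ • (φn n t - un n t)),
        nonneg_iff_ae.1 (RR_nonneg hC hF hP (Ioc_Icc ht) (Ioc_Icc hr) (sq_mem2 hk hk')
          (sq_nonneg' k))] with x b1 b2 b3 b4 b5 b6 b7 b8 b9
      rw [b2, b3, b4, b5, b6, b7]
      have e1 : (ff (ε n) (φn n) t * gg (ε n) (un n) t : M →ₘ[m] ℝ) = rh (ε n) (φn n) (un n) t :=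
        (rh_eq _ _ _ _).symm
      rw [e1] at b1
      have b10 : 0 < rh (ε n) (φn n) (un n) t x := b8
      change Rn P ε φn un n t r k x ^ 2 ≤ rh (ε n) (φn n) (un n) t x *
        Rn P ε φn un n t r (k ^ 2) x at b1
      change 0 ≤ Rn P ε φn un n t r (k ^ 2) x at b9
      generalize Rn P ε φn un n t r k x = a at b1 ⊢
      generalize Rn P ε φn un n t r (k ^ 2) x = c at b1 b9 ⊢
      generalize rh (ε n) (φn n) (un n) t x = p at b1 b10 ⊢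
      have h3 : a ^ 2 / p ≤ c := by rw [div_le_iff₀ b10]; linarith
      have h4 : a ^ 2 / p + 2 * (q : ℝ) * a + (q : ℝ) ^ 2 * p = (a + q * p) ^ 2 / p := by
        field_simp
        ring
      have h5 : 0 ≤ (a + q * p) ^ 2 / p := by positivity
      linarith)
    filter_upwards [a1,
      add_ae (RL P U ε φn un t r (k ^ 2) + (2 * (q : ℝ)) • RL P U ε φn un t r k)
        (((q : ℝ) ^ 2) • (ρ t - 1)),
      add_ae (RL P U ε φn un t r (k ^ 2)) ((2 * (q : ℝ)) • RL P U ε φn un t r k),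
      smul_ae (RL P U ε φn un t r k) (2 * (q : ℝ)),
      smul_ae (ρ t - 1) ((q : ℝ) ^ 2), sub_ae (ρ t) 1, one_ae (M := M) (m := m)]
      with x b1 b2 b3 b4 b5 b6 b7
    rw [b2, b3, b4, b5, b6, b7] at b1
    linarith
  filter_upwards [ae_all_iff.2 key] with x hx
  have := disc_of_forall (forall_real_of_rat hx)
  linarith

/-- three-time positivity, ordered times -/
theorem RL_three (hs : s ∈ Ioc (0 : ℝ) 1) (hr : r ∈ Ioc (0 : ℝ) 1) (ht : t ∈ Ioc (0 : ℝ) 1)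
    (hsr : s ≤ r) (hrt : r ≤ t) {x y c : M →ₘ[m] ℝ} (hx : MemLp x 2 m) (hx' : MemLp x ∞ m)
    (hy : MemLp y 2 m) (hy' : MemLp y ∞ m) (hc : MemLp c 2 m) (hc' : MemLp c ∞ m) :
    0 ≤ I (x ^ 2 * ρ s) + I (y ^ 2 * ρ r) + I (c ^ 2 * ρ t)
      + 2 * I (x * RL P U ε φn un s r y) + 2 * I (y * RL P U ε φn un r t c)
      + 2 * I (x * RL P U ε φn un s t c) := by
  have l1 := I_sq_rho_lim h hs (sq_mem2 hx hx') (sq_mem1 hx)
  have l2 := I_sq_rho_lim h hr (sq_mem2 hy hy') (sq_mem1 hy)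
  have l3 := I_sq_rho_lim h ht (sq_mem2 hc hc') (sq_mem1 hc)
  have l4 := ((R_wconv hC hP h hs hr hy hy').lim x hx).const_mul 2
  have l5 := ((R_wconv hC hP h hr ht hc hc').lim y hy).const_mul 2
  have l6 := ((R_wconv hC hP h hs ht hc hc').lim x hx).const_mul 2
  refine ge_of_tendsto (((((l1.add l2).add l3).add l4).add l5).add l6) ?_
  filter_upwards [h.pair] with n hp
  have hF := FG.of_pair hp
  have h1 := three_time hC hP hF (Ioc_Icc hs) (Ioc_Icc hr) (Ioc_Icc ht) hsr hrt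
    (z := -x) (y := y) (c := -c) (mem_neg hx) (mem_neg hx') hy (mem_neg hc) (mem_neg hc')
  have e1 : RR P (ε n) (ff (ε n) (φn n)) (gg (ε n) (un n)) r t (-c)
      = -Rn P ε φn un n r t c := by
    have := RR_smul hC hF hP (Ioc_Icc hr) (Ioc_Icc ht) (-1) hc
    rwa [neg_one_smul, neg_one_smul] at this
  have e2 : RR P (ε n) (ff (ε n) (φn n)) (gg (ε n) (un n)) s t (-c)
      = -Rn P ε φn un n s t c := by
    have := RR_smul hC hF hP (Ioc_Icc hs) (Ioc_Icc ht) (-1) hc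
    rwa [neg_one_smul, neg_one_smul] at this
  have e3 : RR P (ε n) (ff (ε n) (φn n)) (gg (ε n) (un n)) r s (-x)
      = -Rn P ε φn un n r s x := by
    have := RR_smul hC hF hP (Ioc_Icc hr) (Ioc_Icc hs) (-1) hx
    rwa [neg_one_smul, neg_one_smul] at this
  have e4 : I (y * Rn P ε φn un n r s x) = I (x * Rn P ε φn un n s r y) :=
    RR_symm hC hF hP (Ioc_Icc hr) (Ioc_Icc hs) hx hy
  rw [e1, e2, e3] at h1
  have f1 : y * -Rn P ε φn un n r t c = -(y * Rn P ε φn un n r t c) := by ring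
  have f2 : y * -Rn P ε φn un n r s x = -(y * Rn P ε φn un n r s x) := by ring
  have f3 : -x * -Rn P ε φn un n s t c = x * Rn P ε φn un n s t c := by ring
  have f4 : (-c) ^ 2 = c ^ 2 := by ring
  have f5 : (-x) ^ 2 = x ^ 2 := by ring
  rw [f1, f2, f3, f4, f5, I_neg, I_neg, e4] at h1
  linarith

/-- three-time positivity, all times -/
theorem RL_gram (hs : s ∈ Ioc (0 : ℝ) 1) (hr : r ∈ Ioc (0 : ℝ) 1) (ht : t ∈ Ioc (0 : ℝ) 1)
    {x y c : M →ₘ[m] ℝ} (hx : MemLp x 2 m) (hx' : MemLp x ∞ m)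
    (hy : MemLp y 2 m) (hy' : MemLp y ∞ m) (hc : MemLp c 2 m) (hc' : MemLp c ∞ m) :
    0 ≤ I (x ^ 2 * ρ s) + I (y ^ 2 * ρ r) + I (c ^ 2 * ρ t)
      + 2 * I (x * RL P U ε φn un s r y) + 2 * I (y * RL P U ε φn un r t c)
      + 2 * I (x * RL P U ε φn un s t c) := by
  have y1 : I (x * RL P U ε φn un s r y) = I (y * RL P U ε φn un r s x) :=
    RL_symm hC hP h hs hr hy hy' hx hx'
  have y2 : I (y * RL P U ε φn un r t c) = I (c * RL P U ε φn un t r y) :=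
    RL_symm hC hP h hr ht hc hc' hy hy'
  have y3 : I (x * RL P U ε φn un s t c) = I (c * RL P U ε φn un t s x) :=
    RL_symm hC hP h hs ht hc hc' hx hx'
  rcases le_total s r with h1 | h1
  · rcases le_total r t with h2 | h2
    · exact RL_three hC hP h hs hr ht h1 h2 hx hx' hy hy' hc hc'
    · rcases le_total s t with h3 | h3
      · have := RL_three hC hP h hs ht hr h3 h2 hx hx' hc hc' hy hy'
        linarith
      · have := RL_three hC hP h ht hs hr h3 h1 hc hc' hx hx' hy hy'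
        linarith
  · rcases le_total s t with h2 | h2
    · have := RL_three hC hP h hr hs ht h1 h2 hy hy' hx hx' hc hc'
      linarith
    · rcases le_total r t with h3 | h3
      · have := RL_three hC hP h hr ht hs h3 h2 hy hy' hc hc' hx hx'
        linarith
      · have := RL_three hC hP h ht hr hs h3 h1 hc hc' hy hy' hx hx'
        linarith

end basic

/-! ### convergence in time -/

section time

variable {κ K : ℝ} {P : ℝ → (M →ₘ[m] ℝ) → (M →ₘ[m] ℝ)} {U : Ultrafilter ι} {ε : ι → ℝ}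
  {φn un : ι → ℝ → M →ₘ[m] ℝ} {z φ ρ : ℝ → M →ₘ[m] ℝ} {L : ℝ} {B E : ℝ → ℝ}
  {k l b : M →ₘ[m] ℝ} {t r s s' t0 : ℝ}

theorem testI_dense2 [SigmaFinite m] (hC : IsGamma C) (hB : C.BEi κ) {G : M →ₘ[m] ℝ}
    (hG : MemLp G 2 m) {e : ℝ} (he : 0 < e) :
    ∃ H ∈ C.TestI, MemLp H 2 m ∧ I ((G - H) ^ 2) < e := by
  obtain ⟨g, hg, h1⟩ := hC.dense_L2 G hG (e / 4) (by positivity)
  obtain ⟨H, hH, h2⟩ := hC.testI_dense hB hg (ε := e / 4) (by positivity)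
  have g2 := hC.memLp g hg
  have hHW := (hC.test_A hH.1).1
  have H2 := hC.memLp _ hHW
  refine ⟨H, hH, H2, ?_⟩
  have h3 := hC.I_sq_le_nrm2 (hC.sub_mem hg hHW)
  rw [hC.nrm2_sub_comm hg hHW] at h3
  have h4 := I_sq_add_le (mem_sub hG g2) (mem_sub g2 H2)
  rw [sub_add_sub_cancel] at h4
  linarith

/-- weak convergence of the two-time densities, jointly in `(n,t)` -/
theorem R_wcc [SigmaFinite m] (hC : IsGamma C) (hB : C.BEi κ) (hP : Heat C K P)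
    (h : LimHyp C P U ε φn un z φ ρ L B E) (hs : s ∈ Ioc (0 : ℝ) 1)
    (hr : r ∈ Ioc (0 : ℝ) 1) (hk : MemLp k 2 m) (hk' : MemLp k ∞ m) :
    WCC (U : Filter ι) (Icc s 1) (fun n t => Rn P ε φn un n t r k)
      (fun t => RL P U ε φn un t r k) := by
  set S := √(B s * (B r * I (k ^ 2))) with hS
  have hS2 : S ^ 2 = B s * (B r * I (k ^ 2)) :=
    Real.sq_sqrt (mul_nonneg (h.B0 s) (mul_nonneg (h.B0 r) (I_sq_nonneg k)))
  have hb := Rn_sq_le hC hP h hs hr hk hk'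
  refine WCC.of_lipschitz (K := B s * (B r * I (k ^ 2))) ?_
    (fun t ht => R_wconv hC hP h (Icc_sub hs ht) hr hk hk')
    (D := C.TestI) (fun G hG e he => testI_dense2 hC hB hG he) ?_
  · filter_upwards [hb] with n hn t ht using hn t ht r ⟨le_rfl, hr.2⟩
  · intro G hG hG2
    refine ⟨S * (L * √(I (C.Γ G G)) + 1 / 2 * √(I (C.lap G ^ 2))), ?_⟩
    filter_upwards [hb, h.pair, h.gu, h.gφ, h.ε0.eventually (ge_mem_nhds one_pos)]
      with n hn hp h1 h2 h3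
    intro x hx y hy
    have hsub : Icc s 1 ⊆ Icc (0 : ℝ) 1 := Icc_subset_Icc_left hs.1.le
    have h4 := RR_lip hC hB hP hp hG.1 hk hk' (Ioc_Icc hr) h.hL (Real.sqrt_nonneg _) hs.1.le
      (le_refl (1 : ℝ)) (fun t ht => h1 t (hsub ht)) (fun t ht => h2 t (hsub ht))
      (S := S) (fun t ht => by rw [hS2]; exact (hn t ht r ⟨le_rfl, hr.2⟩).2) x hx y hy
    refine h4.trans (mul_le_mul_of_nonneg_right ?_ (abs_nonneg _))
    refine mul_le_mul_of_nonneg_left ?_ (Real.sqrt_nonneg _)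
    have h5 : ε n / 2 ≤ 1 / 2 := by linarith
    have h6 := mul_le_mul_of_nonneg_right h5 (Real.sqrt_nonneg (I (C.lap G ^ 2)))
    linarith

/-- general form of the strong convergence of the gradients, jointly in `(n,t)` -/
theorem sconv_gen (hC : IsGamma C) {ι : Type*} {l : Filter ι} {v : ι → ℝ → M →ₘ[m] ℝ}
    {w b : M →ₘ[m] ℝ} {S : Set ℝ} {t0 : ℝ} (ht0 : t0 ∈ S) {L Lam : ℝ} (hL0 : 0 ≤ L)
    (hLam : 0 ≤ Lam)
    (hv : ∀ᶠ n in l, ∀ t ∈ S, v n t ∈ C.W ∧ (∀ᵐ x ∂m, C.Γ (v n t) (v n t) x ≤ L ^ 2) ∧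
      ∀ g ∈ C.A, 0 ≤ g → MemLp g 1 m → -I (C.Γ (v n t) g) ≤ Lam * I g)
    (hw : w ∈ C.W) (hwL : ∀ᵐ x ∂m, C.Γ w w x ≤ L ^ 2)
    (htime : ∀ᶠ n in l, ∀ t ∈ S, ∀ᵐ x ∂m, |v n t x - v n t0 x| ≤ L * |t - t0|)
    (hlim : ∀ χ : M →ₘ[m] ℝ, MemLp χ 1 m → MemLp χ ∞ m → 0 ≤ χ →
      Tendsto (fun n => I (χ * (v n t0 - w) ^ 2)) l (𝓝 0))
    (hb : b ∈ C.W) :
    SConv (l ×ˢ 𝓝[S] t0) (fun p : ι × ℝ => C.Γ b (v p.1 p.2)) (C.Γ b w) := by
  obtain ⟨η, h1, hmono, h3⟩ := hC.cutoff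
  have hηA : ∀ j, η j ∈ C.A := fun j => ⟨(h1 j).1, mem_top_iff.2 ⟨1, by
    filter_upwards [nonneg_iff_ae.1 (h1 j).2.1, le_iff_ae.1 (h1 j).2.2.1,
      one_ae (M := M) (m := m)] with x a1 a2 a3
    rw [a3] at a2
    rwa [abs_of_nonneg a1]⟩⟩
  have hη1 : ∀ j, ∀ᵐ x ∂m, |η j x| ≤ 1 := fun j => by
    filter_upwards [nonneg_iff_ae.1 (h1 j).2.1, le_iff_ae.1 (h1 j).2.2.1,
      one_ae (M := M) (m := m)] with x a1 a2 a3
    rw [a3] at a2
    rwa [abs_of_nonneg a1]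
  have hηΓ : ∀ j, MemLp (C.Γ (η j) (η j)) ∞ m := fun j => mem_top_iff.2 ⟨((j : ℝ) + 1)⁻¹, by
    filter_upwards [hC.Γ_nonneg_ae (h1 j).1, le_iff_ae.1 (h1 j).2.2.2,
      smul_ae (1 : M →ₘ[m] ℝ) ((j : ℝ) + 1)⁻¹, one_ae (M := M) (m := m)] with x a1 a2 a3 a4
    rw [a3, a4, mul_one] at a2
    rwa [abs_of_nonneg a1]⟩
  have hη2 : ∀ j, MemLp (η j) 2 m := fun j => hC.memLp _ (h1 j).1
  have hS : ∀ᶠ t in 𝓝[S] t0, t ∈ S := eventually_mem_nhdsWithin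
  have hv' : ∀ᶠ p : ι × ℝ in l ×ˢ 𝓝[S] t0, v p.1 p.2 ∈ C.W ∧
      (∀ᵐ x ∂m, C.Γ (v p.1 p.2) (v p.1 p.2) x ≤ L ^ 2) ∧
      ∀ g ∈ C.A, 0 ≤ g → MemLp g 1 m → -I (C.Γ (v p.1 p.2) g) ≤ Lam * I g := by
    filter_upwards [hv.prod_mk hS] with p hp using hp.1 _ hp.2
  refine sconv_Γ hC.toIsDir (K := 4 * L ^ 2) (hv'.mono fun p hp => hp.1) hw ?_ hη1 hη2 h3 ?_ hb
  · filter_upwards [hv'] with p hp
    exact hC.grad_sub_bd hp.1 hw hp.2.1 hwL
  · intro j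
    refine hC.tendsto_grad' hL0 hLam hw hwL hv' (hηA j) (hηΓ j) ?_
    have l1 : Tendsto (fun p : ι × ℝ => 2 * ((L * |p.2 - t0|) ^ 2 * I (η j ^ 2))
        + 2 * I (η j ^ 2 * (v p.1 t0 - w) ^ 2)) (l ×ˢ 𝓝[S] t0) (𝓝 0) := by
      have k1 : Tendsto (fun p : ι × ℝ => 2 * ((L * |p.2 - t0|) ^ 2 * I (η j ^ 2)))
          (l ×ˢ 𝓝[S] t0) (𝓝 0) := by
        have : Tendsto (fun t : ℝ => 2 * ((L * |t - t0|) ^ 2 * I (η j ^ 2))) (𝓝 t0)
            (𝓝 (2 * ((L * |t0 - t0|) ^ 2 * I (η j ^ 2)))) := by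
          have hc : Continuous fun t : ℝ => 2 * ((L * |t - t0|) ^ 2 * I (η j ^ 2)) := by fun_prop
          exact hc.tendsto t0
        simp only [sub_self, abs_zero, mul_zero, ne_eq, OfNat.ofNat_ne_zero, not_false_eq_true,
          zero_pow, zero_mul] at this
        exact (this.mono_left nhdsWithin_le_nhds).comp tendsto_snd
      have k2 : Tendsto (fun p : ι × ℝ => 2 * I (η j ^ 2 * (v p.1 t0 - w) ^ 2))
          (l ×ˢ 𝓝[S] t0) (𝓝 0) := by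
        have := (hlim (η j ^ 2) (mem_sq (hη2 j)) (by
          rw [pow_two]; exact mem_mul_top (hηA j).2 (hηA j).2) (sq_nonneg' _)).const_mul 2
        rw [mul_zero] at this
        exact this.comp tendsto_fst
      simpa using k1.add k2
    refine squeeze_zero' (Eventually.of_forall fun _ => I_sq_nonneg _) ?_ l1
    filter_upwards [(htime.and hv).prod_mk hS] with p hp
    obtain ⟨⟨q1, q2⟩, q3⟩ := hp
    have w1 := hC.memLp _ (q2 _ q3).1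
    have w0 := hC.memLp _ (q2 _ ht0).1
    have w2 := hC.memLp _ hw
    have m1 : MemLp (η j * (v p.1 p.2 - v p.1 t0) : M →ₘ[m] ℝ) 2 m :=
      mem_mul_top (hηA j).2 (mem_sub w1 w0)
    have m2 : MemLp (η j * (v p.1 t0 - w) : M →ₘ[m] ℝ) 2 m :=
      mem_mul_top (hηA j).2 (mem_sub w0 w2)
    have e1 : η j * (v p.1 p.2 - w) = η j * (v p.1 p.2 - v p.1 t0) + η j * (v p.1 t0 - w) := by
      ring
    rw [e1]
    refine (I_sq_add_le m1 m2).trans ?_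
    have e2 : I ((η j * (v p.1 p.2 - v p.1 t0)) ^ 2) ≤ (L * |p.2 - t0|) ^ 2 * I (η j ^ 2) := by
      rw [← I_smul]
      refine I_mono (mem_sq m1) (mem_smul _ (mem_sq (hη2 j))) (le_iff_ae.2 ?_)
      filter_upwards [q1 _ q3, sq_ae (η j * (v p.1 p.2 - v p.1 t0)),
        mul_ae (η j) (v p.1 p.2 - v p.1 t0), sub_ae (v p.1 p.2) (v p.1 t0),
        smul_ae (η j ^ 2) ((L * |p.2 - t0|) ^ 2), sq_ae (η j)] with x a1 a2 a3 a4 a5 a6
      rw [a2, a3, a4, a5, a6, mul_pow, mul_comm]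
      refine mul_le_mul_of_nonneg_right ?_ (sq_nonneg _)
      exact sq_le_sq' (by linarith [(abs_le.1 a1).1]) (abs_le.1 a1).2
    have e3 : (η j * (v p.1 t0 - w)) ^ 2 = η j ^ 2 * (v p.1 t0 - w) ^ 2 := by ring
    rw [e3]
    linarith

/-- from a pointwise bound of the Laplacian to the weak one -/
theorem lap_weak (hC : IsGamma C) {v g : M →ₘ[m] ℝ} (hv : v ∈ C.Test) {c : ℝ}
    (hc : ∀ᵐ x ∂m, C.lap v x ≤ c) (hg : g ∈ C.A) (hg0 : 0 ≤ g) (hg1 : MemLp g 1 m) :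
    -I (C.Γ v g) ≤ |c| * I g := by
  have hl := hC.test_isLap hv
  have e : I (C.Γ v g) = -I (C.lap v * g) := hl.2.2 g hg.1
  rw [e, neg_neg, ← I_smul]
  refine I_mono (mem_mul_22 hl.2.1 (hC.memLp _ hg.1)) (mem_smul _ hg1) (le_iff_ae.2 ?_)
  filter_upwards [hc, mul_ae (C.lap v) g, smul_ae g |c|, nonneg_iff_ae.1 hg0] with x a1 a2 a3 a4
  rw [a2, a3]
  exact mul_le_mul_of_nonneg_right (a1.trans (le_abs_self c)) a4

theorem sconv_u (hC : IsGamma C) (h : LimHyp C P U ε φn un z φ ρ L B E)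
    (hs : s ∈ Ioc (0 : ℝ) 1) (ht0 : t0 ∈ Icc s 1) (hb : b ∈ C.W) :
    SConv ((U : Filter ι) ×ˢ 𝓝[Icc s 1] t0) (fun p : ι × ℝ => C.Γ b (un p.1 p.2))
      (C.Γ b (z t0)) := by
  obtain ⟨c, hc⟩ := h.lu s hs
  have hsub : Icc s 1 ⊆ Icc (0 : ℝ) 1 := Icc_subset_Icc_left hs.1.le
  refine sconv_gen hC ht0 h.hL (abs_nonneg c) ?_ (h.zW t0 (hsub ht0)) (h.zL t0 (hsub ht0)) ?_
    (h.ulim t0 (hsub ht0)) hb
  · filter_upwards [hc, h.pair, h.gu] with n h1 hp h2 t ht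
    exact ⟨(hC.test_A (hp.u_mem t (hsub ht)).1).1, h2 t (hsub ht), fun g hg g0 g1 =>
      lap_weak hC (hp.u_mem t (hsub ht)).1 (h1 t ht) hg g0 g1⟩
  · filter_upwards [h.tu] with n hn t ht using hn t (hsub ht) t0 (hsub ht0)

theorem Γ_neg_neg (hC : IsDir C) {v : M →ₘ[m] ℝ} (hv : v ∈ C.W) : C.Γ (-v) (-v) = C.Γ v v := by
  rw [hC.Γ_neg_left hv (hC.neg_mem hv), hC.Γ_neg_right hv hv, neg_neg]

theorem sconv_φ (hC : IsGamma C) (h : LimHyp C P U ε φn un z φ ρ L B E)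
    (hs : s ∈ Ico (0 : ℝ) 1) (ht0 : t0 ∈ Icc 0 s) (hb : b ∈ C.W) :
    SConv ((U : Filter ι) ×ˢ 𝓝[Icc 0 s] t0) (fun p : ι × ℝ => C.Γ b (φn p.1 p.2))
      (C.Γ b (φ t0)) := by
  obtain ⟨c, hc⟩ := h.lφ s hs
  have hsub : Icc 0 s ⊆ Icc (0 : ℝ) 1 := Icc_subset_Icc_right hs.2.le
  have hS : ∀ᶠ t in 𝓝[Icc 0 s] t0, t ∈ Icc 0 s := eventually_mem_nhdsWithin
  have key : SConv ((U : Filter ι) ×ˢ 𝓝[Icc 0 s] t0) (fun p : ι × ℝ => C.Γ b (-φn p.1 p.2))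
      (C.Γ b (-φ t0)) := by
    refine sconv_gen hC (v := fun n t => -φn n t) ht0 h.hL (abs_nonneg c) ?_
      (hC.neg_mem (h.φW t0 (hsub ht0))) ?_ ?_ ?_ hb
    · filter_upwards [hc, h.pair, h.gφ] with n h1 hp h2 t ht
      have hφ := (hp.φ_mem t (hsub ht))
      have hW := (hC.test_A hφ.1).1
      refine ⟨hC.neg_mem hW, by rw [Γ_neg_neg hC.toIsDir hW]; exact h2 t (hsub ht),
        fun g hg g0 g1 => ?_⟩
      rw [hC.Γ_neg_left hW hg.1, I_neg, neg_neg]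
      have hl := hC.test_isLap hφ.1
      have e : I (C.Γ (φn n t) g) = -I (C.lap (φn n t) * g) := hl.2.2 g hg.1
      rw [e, ← I_neg, ← I_smul]
      refine I_mono (mem_neg (mem_mul_22 hl.2.1 (hC.memLp _ hg.1))) (mem_smul _ g1)
        (le_iff_ae.2 ?_)
      filter_upwards [h1 t ht, mul_ae (C.lap (φn n t)) g, neg_ae (C.lap (φn n t) * g),
        smul_ae g |c|, nonneg_iff_ae.1 g0] with x a1 a2 a3 a4 a5
      rw [a3, a2, a4]
      have : -(C.lap (φn n t) x) ≤ |c| := by linarith [le_abs_self c]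
      nlinarith
    · rw [Γ_neg_neg hC.toIsDir (h.φW t0 (hsub ht0))]; exact h.φL t0 (hsub ht0)
    · filter_upwards [h.tφ] with n hn t ht
      filter_upwards [hn t (hsub ht) t0 (hsub ht0), neg_ae (φn n t), neg_ae (φn n t0)]
        with x a1 a2 a3
      rw [a2, a3]
      have e : -(φn n t x) - -(φn n t0 x) = -(φn n t x - φn n t0 x) := by ring
      rwa [e, abs_neg]
    · intro χ c1 c2 c3
      refine (h.φlim t0 (hsub ht0) χ c1 c2 c3).congr fun n => ?_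
      have e : -φn n t0 - -φ t0 = -(φn n t0 - φ t0) := by abel
      rw [e, neg_sq]
  have e0 : C.Γ b (-φ t0) = -C.Γ b (φ t0) := hC.Γ_neg_right hb (h.φW t0 (hsub ht0))
  have k2 := key.neg
  rw [e0, neg_neg] at k2
  refine k2.congr ?_
  filter_upwards [h.pair.prod_mk hS] with p hp
  rw [hC.Γ_neg_right hb (hC.test_A (hp.1.φ_mem _ (hsub hp.2)).1).1, neg_neg]

end time

/-! ### the continuity equation in the limit -/

section ce

variable {κ K : ℝ} {P : ℝ → (M →ₘ[m] ℝ) → (M →ₘ[m] ℝ)} {U : Ultrafilter ι} {ε : ι → ℝ}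
  {φn un : ι → ℝ → M →ₘ[m] ℝ} {z φ ρ : ℝ → M →ₘ[m] ℝ} {L : ℝ} {B E : ℝ → ℝ}
  {k l b : M →ₘ[m] ℝ} {t r s s' t0 : ℝ}

/-- the velocity functional -/
noncomputable def FL (C : Calc m) (P : ℝ → (M →ₘ[m] ℝ) → (M →ₘ[m] ℝ)) (U : Ultrafilter ι)
    (ε : ι → ℝ) (φn un : ι → ℝ → M →ₘ[m] ℝ) (z : ℝ → M →ₘ[m] ℝ) (r : ℝ) (k b : M →ₘ[m] ℝ)
    (t : ℝ) : ℝ := I (C.Γ b (z t) * RL P U ε φn un t r k)

theorem Γ_mem2' (hC : IsDir C) {v b : M →ₘ[m] ℝ} (hv : v ∈ C.W) (hb : b ∈ C.W)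
    (hL : ∀ᵐ x ∂m, C.Γ v v x ≤ L ^ 2) : MemLp (C.Γ b v) 2 m := by
  rw [hC.symm b hb v hv]
  refine hC.Γ_mem2 hv (mem_top_iff.2 ⟨L ^ 2, ?_⟩) hb
  filter_upwards [hL, hC.Γ_nonneg_ae hv] with x a1 a2
  rwa [abs_of_nonneg a2]

theorem tendsto_u_term [SigmaFinite m] (hC : IsGamma C) (hB : C.BEi κ) (hP : Heat C K P)
    (h : LimHyp C P U ε φn un z φ ρ L B E) (hs : s ∈ Ioc (0 : ℝ) 1)
    (hr : r ∈ Ioc (0 : ℝ) 1) (hk : MemLp k 2 m) (hk' : MemLp k ∞ m) (ht0 : t0 ∈ Icc s 1)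
    (hb : b ∈ C.W) :
    Tendsto (fun p : ι × ℝ => I (C.Γ b (un p.1 p.2) * Rn P ε φn un p.1 p.2 r k))
      ((U : Filter ι) ×ˢ 𝓝[Icc s 1] t0) (𝓝 (FL C P U ε φn un z r k b t0)) := by
  have hsub : Icc s 1 ⊆ Icc (0 : ℝ) 1 := Icc_subset_Icc_left hs.1.le
  have h1 := (sconv_u hC h hs ht0 hb).tendsto_I_mul
    (Γ_mem2' hC.toIsDir (h.zW t0 (hsub ht0)) hb (h.zL t0 (hsub ht0)))
    (R_wcc hC hB hP h hs hr hk hk' t0 ht0)
  rw [FL, mul_comm]
  exact h1.congr fun p => by rw [mul_comm]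

/-- the velocity functional is continuous -/
theorem FL_cont [SigmaFinite m] (hC : IsGamma C) (hB : C.BEi κ) (hP : Heat C K P)
    (h : LimHyp C P U ε φn un z φ ρ L B E) (hs : s ∈ Ioc (0 : ℝ) 1)
    (hr : r ∈ Ioc (0 : ℝ) 1) (hk : MemLp k 2 m) (hk' : MemLp k ∞ m) (hb : b ∈ C.W) :
    ContinuousOn (FL C P U ε φn un z r k b) (Icc s 1) := by
  have h1 : CC (U : Filter ι) (Icc s 1)
      (fun n t => I (C.Γ b (un n t) * Rn P ε φn un n t r k)) (FL C P U ε φn un z r k b) :=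
    fun t ht => tendsto_u_term hC hB hP h hs hr hk hk' ht hb
  exact h1.continuousOn

theorem FL_eq_φ (hC : IsGamma C) (hP : Heat C K P)
    (h : LimHyp C P U ε φn un z φ ρ L B E) (ht : t ∈ Ioo (0 : ℝ) 1)
    (hr : r ∈ Ioc (0 : ℝ) 1) (hk : MemLp k 2 m) (hk' : MemLp k ∞ m) (hb : b ∈ C.W) :
    I (C.Γ b (φ t) * RL P U ε φn un t r k) = FL C P U ε φn un z r k b t := by
  have htI : t ∈ Ioc (0 : ℝ) 1 := ⟨ht.1, ht.2.le⟩
  obtain ⟨c, hc⟩ := mem_top_iff.1 hk'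
  have hle := RL_le hC hP h htI hr hk hk' hc
  rw [FL]
  congr 1
  rw [eq_iff_ae, hC.symm b hb _ (h.φW t (Ioc_Icc htI)), hC.symm b hb _ (h.zW t (Ioc_Icc htI))]
  filter_upwards [hle, h.supp t ht, le_iff_ae.1 (h.φle t htI),
    hC.Γ_eq_on (h.φW t (Ioc_Icc htI)) (h.zW t (Ioc_Icc htI)) hb,
    mul_ae (C.Γ (φ t) b) (RL P U ε φn un t r k), mul_ae (C.Γ (z t) b) (RL P U ε φn un t r k)]
    with x a1 a2 a3 a4 a5 a6
  rw [a5, a6]
  rcases a3.eq_or_lt with h1 | h1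
  · rw [a4 h1]
  · have h2 := a2 h1
    rw [h2, mul_zero] at a1
    have h3 : RL P U ε φn un t r k x = 0 := abs_eq_zero.1 (le_antisymm a1 (abs_nonneg _))
    rw [h3]; simp

theorem tendsto_φ_term [SigmaFinite m] (hC : IsGamma C) (hB : C.BEi κ) (hP : Heat C K P)
    (h : LimHyp C P U ε φn un z φ ρ L B E) (hr : r ∈ Ioc (0 : ℝ) 1) (hk : MemLp k 2 m)
    (hk' : MemLp k ∞ m) (ht0 : t0 ∈ Ioo (0 : ℝ) 1) (hb : b ∈ C.W) :
    Tendsto (fun p : ι × ℝ => I (C.Γ b (φn p.1 p.2) * Rn P ε φn un p.1 p.2 r k))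
      ((U : Filter ι) ×ˢ 𝓝 t0) (𝓝 (FL C P U ε φn un z r k b t0)) := by
  have hs : t0 / 2 ∈ Ioc (0 : ℝ) 1 := ⟨by linarith [ht0.1], by linarith [ht0.1, ht0.2]⟩
  have hs' : (1 + t0) / 2 ∈ Ico (0 : ℝ) 1 := ⟨by linarith [ht0.1], by linarith [ht0.2]⟩
  have n1 : 𝓝[Icc (t0 / 2) 1] t0 = 𝓝 t0 :=
    nhdsWithin_eq_nhds.2 (Icc_mem_nhds (by linarith [ht0.1]) ht0.2)
  have n2 : 𝓝[Icc 0 ((1 + t0) / 2)] t0 = 𝓝 t0 :=
    nhdsWithin_eq_nhds.2 (Icc_mem_nhds ht0.1 (by linarith [ht0.2]))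
  have w1 := R_wcc hC hB hP h hs hr hk hk' t0 ⟨by linarith [ht0.1], ht0.2.le⟩
  have w2 := sconv_φ hC h hs' (t0 := t0) ⟨ht0.1.le, by linarith [ht0.2]⟩ hb
  rw [n1] at w1
  rw [n2] at w2
  have hI : t0 ∈ Icc (0 : ℝ) 1 := Ioo_subset_Icc_self ht0
  have h1 := w2.tendsto_I_mul (Γ_mem2' hC.toIsDir (h.φW t0 hI) hb (h.φL t0 hI)) w1
  rw [← FL_eq_φ hC hP h ht0 hr hk hk' hb, mul_comm]
  exact h1.congr fun p => by rw [mul_comm]

theorem tendsto_DG [SigmaFinite m] (hC : IsGamma C) (hB : C.BEi κ) (hP : Heat C K P)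
    (h : LimHyp C P U ε φn un z φ ρ L B E) (hr : r ∈ Ioc (0 : ℝ) 1) (hk : MemLp k 2 m)
    (hk' : MemLp k ∞ m) (ht0 : t0 ∈ Ioo (0 : ℝ) 1) (hb : b ∈ C.Test) :
    Tendsto (fun p : ι × ℝ => DG C P (ε p.1) (φn p.1) (un p.1) r k b p.2)
      ((U : Filter ι) ×ˢ 𝓝 t0) (𝓝 (FL C P U ε φn un z r k b t0)) := by
  have hbW := (hC.test_A hb).1
  have hs : t0 / 2 ∈ Ioc (0 : ℝ) 1 := ⟨by linarith [ht0.1], by linarith [ht0.1, ht0.2]⟩
  have n1 : 𝓝[Icc (t0 / 2) 1] t0 = 𝓝 t0 :=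
    nhdsWithin_eq_nhds.2 (Icc_mem_nhds (by linarith [ht0.1]) ht0.2)
  have htI : t0 ∈ Icc (t0 / 2) 1 := ⟨by linarith [ht0.1], ht0.2.le⟩
  have w1 := R_wcc hC hB hP h hs hr hk hk' t0 htI
  have l1 := tendsto_u_term hC hB hP h hs hr hk hk' htI hbW
  rw [n1] at w1 l1
  have l2 := tendsto_φ_term hC hB hP h hr hk hk' ht0 hbW
  have l3 : Tendsto (fun p : ι × ℝ => ε p.1 / 2 * I (C.lap b * Rn P ε φn un p.1 p.2 r k))
      ((U : Filter ι) ×ˢ 𝓝 t0) (𝓝 0) := by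
    have k1 := w1.lim (C.lap b) (hC.test_isLap hb).2.1
    have k2 : Tendsto (fun p : ι × ℝ => ε p.1 / 2) ((U : Filter ι) ×ˢ 𝓝 t0) (𝓝 (0 / 2)) :=
      (h.ε0.div_const 2).comp tendsto_fst
    have := k2.mul k1
    simpa using this
  have hI : ∀ᶠ t in 𝓝 t0, t ∈ Ioo (0 : ℝ) 1 := Ioo_mem_nhds ht0.1 ht0.2
  have e1 := (l1.sub l3)
  have e2 := (l2.add l3)
  rw [sub_zero] at e1
  rw [add_zero] at e2
  have e3 := Filter.Tendsto.if' (p := fun p : ι × ℝ => p.2 < r) e1 e2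
  refine e3.congr' ?_
  filter_upwards [h.pair.prod_mk hI] with p hp
  have hpI := Ioo_subset_Icc_self hp.2
  unfold DG
  rw [hC.symm b hbW _ (hC.test_A (hp.1.u_mem _ hpI).1).1,
    hC.symm b hbW _ (hC.test_A (hp.1.φ_mem _ hpI).1).1]
  rfl

/-- the limit has the right derivative at every time in `(0,1)` -/
theorem R_hasDeriv [SigmaFinite m] (hC : IsGamma C) (hB : C.BEi κ) (hP : Heat C K P)
    (h : LimHyp C P U ε φn un z φ ρ L B E) (hr : r ∈ Ioc (0 : ℝ) 1) (hk : MemLp k 2 m)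
    (hk' : MemLp k ∞ m) (ht0 : t0 ∈ Ioo (0 : ℝ) 1) (hb : b ∈ C.Test) :
    HasDerivAt (fun t => I (b * RL P U ε φn un t r k)) (FL C P U ε φn un z r k b t0) t0 := by
  set F := FL C P U ε φn un z r k b t0 with hF
  have hbA := hC.test_A hb
  have hb2 := hC.memLp _ hbA.1
  rw [hasDerivAt_iff_isLittleO, Asymptotics.isLittleO_iff]
  intro δ hδ
  have h1 := (Metric.tendsto_nhds.1 (tendsto_DG hC hB hP h hr hk hk' ht0 hb)) δ hδ
  obtain ⟨A, hA, A', hA', hAA⟩ := eventually_prod_iff.1 h1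
  have hI : ∀ᶠ t in 𝓝 t0, t ∈ Ioo (0 : ℝ) 1 := Ioo_mem_nhds ht0.1 ht0.2
  obtain ⟨e, he, hball⟩ := Metric.eventually_nhds_iff_ball.1 (hA'.and hI)
  filter_upwards [Metric.ball_mem_nhds t0 (half_pos he)] with t ht
  have ht1 : |t - t0| < e / 2 := by rwa [← Real.dist_eq]
  set lo := t0 - e / 2 with hlo
  set hi := t0 + e / 2 with hhi
  have hsub : Icc lo hi ⊆ Metric.ball t0 e := fun x hx => by
    rw [Metric.mem_ball, Real.dist_eq, abs_lt]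
    constructor <;> linarith [hx.1, hx.2]
  have hIcc : Icc lo hi ⊆ Ioo (0 : ℝ) 1 := fun x hx => (hball x (hsub hx)).2
  have htm : t ∈ Icc lo hi := by
    have := abs_lt.1 ht1
    constructor <;> linarith [this.1, this.2]
  have ht0m : t0 ∈ Icc lo hi := ⟨by linarith, by linarith⟩
  have hG : ∀ x ∈ Icc lo hi, Tendsto (fun n => I (b * Rn P ε φn un n x r k)) U
      (𝓝 (I (b * RL P U ε φn un x r k))) := fun x hx =>
    (R_wconv hC hP h ⟨(hIcc hx).1, (hIcc hx).2.le⟩ hr hk hk').lim b hb2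
  have key : ∀ᶠ n in (U : Filter ι), |(I (b * Rn P ε φn un n t r k) - F * t)
      - (I (b * Rn P ε φn un n t0 r k) - F * t0)| ≤ δ * |t - t0| := by
    filter_upwards [hA, h.pair] with n hn hp
    have hc := RR_cont hC hP (FG.of_pair hp) hb2 hbA.2 hk (Ioc_Icc hr)
    refine lip_of_deriv_ne (r := r) (G := fun x => I (b * Rn P ε φn un n x r k) - F * x)
      (G' := fun x => DG C P (ε n) (φn n) (un n) r k b x - F) ?_ ?_ ?_ t htm t0 ht0m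
    · refine ContinuousOn.sub (hc.mono fun x hx => Ioo_subset_Icc_self (hIcc hx)) ?_
      exact (continuous_const.mul continuous_id).continuousOn
    · intro x hx hxr
      have hx' := hIcc (Ioo_subset_Icc_self hx)
      have d1 := hasDerivAt_RR hC hB hP hp hb hk hk' (Ioc_Icc hr) hx' hxr
      have d2 : HasDerivAt (fun x : ℝ => F * x) F x := by
        simpa using (hasDerivAt_id x).const_mul F
      exact d1.sub d2
    · intro x hx hxr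
      have := hAA hn (hball x (hsub (Ioo_subset_Icc_self hx))).1
      rw [Real.dist_eq] at this
      exact this.le
  have l1 := (((hG t htm).sub_const (F * t)).sub ((hG t0 ht0m).sub_const (F * t0))).abs
  have h5 := le_of_tendsto l1 key
  rw [Real.norm_eq_abs, Real.norm_eq_abs, smul_eq_mul]
  have e5 : I (b * RL P U ε φn un t r k) - I (b * RL P U ε φn un t0 r k) - (t - t0) * F
      = I (b * RL P U ε φn un t r k) - F * t - (I (b * RL P U ε φn un t0 r k) - F * t0) := by ring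
  rw [e5]
  exact h5

theorem G_cont [SigmaFinite m] (hC : IsGamma C) (hB : C.BEi κ) (hP : Heat C K P)
    (h : LimHyp C P U ε φn un z φ ρ L B E) (hs : s ∈ Ioc (0 : ℝ) 1)
    (hr : r ∈ Ioc (0 : ℝ) 1) (hk : MemLp k 2 m) (hk' : MemLp k ∞ m) (hb : MemLp b 2 m) :
    ContinuousOn (fun t => I (b * RL P U ε φn un t r k)) (Icc s 1) :=
  (R_wcc hC hB hP h hs hr hk hk').continuousOn hb

/-- the continuity equation for test functions -/
theorem CE_test [SigmaFinite m] (hC : IsGamma C) (hB : C.BEi κ) (hP : Heat C K P)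
    (h : LimHyp C P U ε φn un z φ ρ L B E) (hs : s ∈ Ioc (0 : ℝ) 1) (ht : t ∈ Icc s 1)
    (hr : r ∈ Ioc (0 : ℝ) 1) (hk : MemLp k 2 m) (hk' : MemLp k ∞ m) (hb : b ∈ C.Test) :
    I (b * RL P U ε φn un t r k) - I (b * RL P U ε φn un s r k)
      = ∫ τ in s..t, FL C P U ε φn un z r k b τ := by
  have hbA := hC.test_A hb
  have hb2 := hC.memLp _ hbA.1
  have hsub : Icc s t ⊆ Icc s 1 := Icc_subset_Icc_right ht.2
  have c1 := (G_cont hC hB hP h hs hr hk hk' hb2).mono hsub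
  have c2 := (FL_cont hC hB hP h hs hr hk hk' hbA.1).mono hsub
  refine (intervalIntegral.integral_eq_sub_of_hasDerivAt_of_le ht.1 c1 ?_ ?_).symm
  · intro x hx
    exact R_hasDeriv hC hB hP h hr hk hk' ⟨hs.1.trans hx.1, hx.2.trans_le ht.2⟩ hb
  · exact ContinuousOn.intervalIntegrable (by rwa [uIcc_of_le ht.1])

end ce

/-! ### the continuity equation for all weights and all `b ∈ W` -/

section ceW

variable {κ K : ℝ} {P : ℝ → (M →ₘ[m] ℝ) → (M →ₘ[m] ℝ)} {U : Ultrafilter ι} {ε : ι → ℝ}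
  {φn un : ι → ℝ → M →ₘ[m] ℝ} {z φ ρ : ℝ → M →ₘ[m] ℝ} {L : ℝ} {B E : ℝ → ℝ}
  {k l b : M →ₘ[m] ℝ} {t r s s' t0 : ℝ}

theorem RL_sq_le (hC : IsGamma C) (hP : Heat C K P) (h : LimHyp C P U ε φn un z φ ρ L B E)
    (hs : s ∈ Ioc (0 : ℝ) 1) (ht : t ∈ Icc s 1) (hr : r ∈ Ioc (0 : ℝ) 1) (hk : MemLp k 2 m)
    (hk' : MemLp k ∞ m) : I (RL P U ε φn un t r k ^ 2) ≤ B s * (B r * I (k ^ 2)) :=
  (R_wconv hC hP h (Icc_sub hs ht) hr hk hk').I_sq_le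
    ((Rn_sq_le hC hP h hs hr hk hk').mono fun n hn => (hn t ht r ⟨le_rfl, hr.2⟩).2).frequently

theorem FL_sub (hC : IsGamma C) (hP : Heat C K P) (h : LimHyp C P U ε φn un z φ ρ L B E)
    (ht : t ∈ Ioc (0 : ℝ) 1) (hr : r ∈ Ioc (0 : ℝ) 1) (hk : MemLp k 2 m)
    (hk' : MemLp k ∞ m) {b' : M →ₘ[m] ℝ} (hb : b ∈ C.W) (hb' : b' ∈ C.W) :
    FL C P U ε φn un z r k b t - FL C P U ε φn un z r k b' t
      = FL C P U ε φn un z r k (b - b') t := by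
  have hz := h.zW t (Ioc_Icc ht)
  have hzL := h.zL t (Ioc_Icc ht)
  have m2 := RL_mem2 hC hP h ht hr hk hk'
  rw [FL, FL, FL, hC.Γ_sub_left hb hb' hz, sub_mul,
    I_sub (mem_mul_22 (Γ_mem2' hC.toIsDir hz hb hzL) m2)
      (mem_mul_22 (Γ_mem2' hC.toIsDir hz hb' hzL) m2)]

theorem abs_FL_le (hC : IsGamma C) (hP : Heat C K P) (h : LimHyp C P U ε φn un z φ ρ L B E)
    (hs : s ∈ Ioc (0 : ℝ) 1) (ht : t ∈ Icc s 1) (hr : r ∈ Ioc (0 : ℝ) 1) (hk : MemLp k 2 m)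
    (hk' : MemLp k ∞ m) (hb : b ∈ C.W) :
    |FL C P U ε φn un z r k b t|
      ≤ √(B s * (B r * I (k ^ 2))) * (L * √(I (C.Γ b b))) := by
  have htI := Icc_sub hs ht
  have hz := h.zW t (Ioc_Icc htI)
  have hzL := h.zL t (Ioc_Icc htI)
  have hS2 : √(B s * (B r * I (k ^ 2))) ^ 2 = B s * (B r * I (k ^ 2)) :=
    Real.sq_sqrt (mul_nonneg (h.B0 s) (mul_nonneg (h.B0 r) (I_sq_nonneg k)))
  rw [FL, hC.symm b hb _ hz]
  exact abs_I_Γ_le hC.toIsDir hz hb h.hL hzL (RL_mem2 hC hP h htI hr hk hk')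
    (Real.sqrt_nonneg _) (by rw [hS2]; exact RL_sq_le hC hP h hs ht hr hk hk')

theorem FL_int [SigmaFinite m] (hC : IsGamma C) (hB : C.BEi κ) (hP : Heat C K P)
    (h : LimHyp C P U ε φn un z φ ρ L B E) (hs : s ∈ Ioc (0 : ℝ) 1) (ht : t ∈ Ioc (0 : ℝ) 1)
    (hr : r ∈ Ioc (0 : ℝ) 1) (hk : MemLp k 2 m) (hk' : MemLp k ∞ m) (hb : b ∈ C.W) :
    IntervalIntegrable (FL C P U ε φn un z r k b) volume s t := by
  have hmin : min s t ∈ Ioc (0 : ℝ) 1 := ⟨lt_min hs.1 ht.1, (min_le_left _ _).trans hs.2⟩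
  refine ContinuousOn.intervalIntegrable ((FL_cont hC hB hP h hmin hr hk hk' hb).mono ?_)
  rw [uIcc]
  exact Icc_subset_Icc_right (max_le hs.2 ht.2)

theorem CE_W [SigmaFinite m] (hC : IsGamma C) (hB : C.BEi κ) (hP : Heat C K P)
    (h : LimHyp C P U ε φn un z φ ρ L B E) (hs : s ∈ Ioc (0 : ℝ) 1) (ht : t ∈ Icc s 1)
    (hr : r ∈ Ioc (0 : ℝ) 1) (hk : MemLp k 2 m) (hk' : MemLp k ∞ m) (hb : b ∈ C.W) :
    I (b * RL P U ε φn un t r k) - I (b * RL P U ε φn un s r k)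
      = ∫ τ in s..t, FL C P U ε φn un z r k b τ := by
  have htI := Icc_sub hs ht
  set S := √(B s * (B r * I (k ^ 2))) with hS
  have hS0 : 0 ≤ S := Real.sqrt_nonneg _
  have hS2 : S ^ 2 = B s * (B r * I (k ^ 2)) :=
    Real.sq_sqrt (mul_nonneg (h.B0 s) (mul_nonneg (h.B0 r) (I_sq_nonneg k)))
  have hb2 := hC.memLp b hb
  have hL := h.hL
  refine eq_of_forall_dist_le fun δ hδ => ?_
  -- approximation
  set D := 2 * S + S * L + 1 with hD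
  have hD0 : 0 < D := by positivity
  obtain ⟨b', hb', h1⟩ := hC.testI_dense hB hb (ε := (δ / D) ^ 2) (by positivity)
  have hb'A := hC.test_A hb'.1
  have hb'2 := hC.memLp _ hb'A.1
  have h2 := CE_test hC hB hP h hs ht hr hk hk' hb'.1
  set c := b - b' with hc
  have hcW : c ∈ C.W := hC.sub_mem hb hb'A.1
  have hc2 := hC.memLp c hcW
  have n0 : √(C.nrm2 c) ≤ δ / D := by
    rw [hC.nrm2_sub_comm hb hb'A.1]
    refine (Real.sqrt_le_sqrt h1.le).trans ?_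
    rw [Real.sqrt_sq (by positivity)]
  have nE : √(I (C.Γ c c)) ≤ δ / D := (Real.sqrt_le_sqrt (hC.E_le_nrm2 c)).trans n0
  have n2 : √(I (c ^ 2)) ≤ δ / D := (Real.sqrt_le_sqrt (hC.I_sq_le_nrm2 hcW)).trans n0
  have mt := RL_mem2 hC hP h htI hr hk hk'
  have ms := RL_mem2 hC hP h hs hr hk hk'
  have a1 := abs_I_le' hc2 mt hS0 (by rw [hS2]; exact RL_sq_le hC hP h hs ht hr hk hk')
  have a2 := abs_I_le' hc2 ms hS0 (by
    rw [hS2]; exact RL_sq_le hC hP h hs ⟨le_rfl, hs.2⟩ hr hk hk')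
  have e1 : ∀ F : M →ₘ[m] ℝ, MemLp F 2 m → I (b * F) - I (b' * F) = I (c * F) := by
    intro F hF
    rw [hc, sub_mul, I_sub (mem_mul_22 hb2 hF) (mem_mul_22 hb'2 hF)]
  have i1 := FL_int hC hB hP h hs htI hr hk hk' hb
  have i2 := FL_int hC hB hP h hs htI hr hk hk' hb'A.1
  have e2 : (∫ τ in s..t, FL C P U ε φn un z r k b τ) - ∫ τ in s..t, FL C P U ε φn un z r k b' τ
      = ∫ τ in s..t, FL C P U ε φn un z r k c τ := by
    rw [← intervalIntegral.integral_sub i1 i2]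
    refine intervalIntegral.integral_congr fun τ hτ => ?_
    rw [uIcc_of_le ht.1] at hτ
    exact FL_sub hC hP h (Icc_sub hs ⟨hτ.1, hτ.2.trans ht.2⟩) hr hk hk' hb hb'A.1
  have a3 : |∫ τ in s..t, FL C P U ε φn un z r k c τ| ≤ S * (L * √(I (C.Γ c c))) * |t - s| := by
    rw [← Real.norm_eq_abs]
    refine intervalIntegral.norm_integral_le_of_norm_le_const fun τ hτ => ?_
    rw [uIoc_of_le ht.1] at hτ
    exact abs_FL_le hC hP h hs ⟨hτ.1.le, hτ.2.trans ht.2⟩ hr hk hk' hcW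
  have hts : |t - s| ≤ 1 := by
    rw [abs_of_nonneg (sub_nonneg.2 ht.1)]
    linarith [ht.2, hs.1]
  have a4 : S * (L * √(I (C.Γ c c))) * |t - s| ≤ S * (L * (δ / D)) := by
    calc S * (L * √(I (C.Γ c c))) * |t - s| ≤ S * (L * √(I (C.Γ c c))) * 1 :=
          mul_le_mul_of_nonneg_left hts (by positivity)
      _ ≤ S * (L * (δ / D)) := by
          rw [mul_one]
          exact mul_le_mul_of_nonneg_left (mul_le_mul_of_nonneg_left nE hL) hS0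
  have a5 : S * √(I (c ^ 2)) ≤ S * (δ / D) := mul_le_mul_of_nonneg_left n2 hS0
  rw [Real.dist_eq]
  have e3 : I (b * RL P U ε φn un t r k) - I (b * RL P U ε φn un s r k)
      - (∫ τ in s..t, FL C P U ε φn un z r k b τ)
      = I (c * RL P U ε φn un t r k) - I (c * RL P U ε φn un s r k)
        - ∫ τ in s..t, FL C P U ε φn un z r k c τ := by
    rw [← e1 _ mt, ← e1 _ ms, ← e2]
    linarith
  rw [e3]
  have e4 : 2 * (S * (δ / D)) + S * (L * (δ / D)) ≤ δ := by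
    have : 2 * (S * (δ / D)) + S * (L * (δ / D)) = (2 * S + S * L) * (δ / D) := by ring
    rw [this, mul_div_assoc', div_le_iff₀ hD0]
    nlinarith
  calc |I (c * RL P U ε φn un t r k) - I (c * RL P U ε φn un s r k)
        - ∫ τ in s..t, FL C P U ε φn un z r k c τ|
      ≤ |I (c * RL P U ε φn un t r k)| + |I (c * RL P U ε φn un s r k)|
        + |∫ τ in s..t, FL C P U ε φn un z r k c τ| :=
        (abs_sub _ _).trans (add_le_add (abs_sub _ _) le_rfl)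
    _ ≤ δ := by linarith

/-- the continuity equation, all times -/
theorem CE_all [SigmaFinite m] (hC : IsGamma C) (hB : C.BEi κ) (hP : Heat C K P)
    (h : LimHyp C P U ε φn un z φ ρ L B E) (hs : s ∈ Ioc (0 : ℝ) 1) (ht : t ∈ Ioc (0 : ℝ) 1)
    (hr : r ∈ Ioc (0 : ℝ) 1) (hk : MemLp k 2 m) (hk' : MemLp k ∞ m) (hb : b ∈ C.W) :
    I (b * (RL P U ε φn un t r k - RL P U ε φn un s r k))
      = ∫ τ in s..t, FL C P U ε φn un z r k b τ := by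
  have hb2 := hC.memLp b hb
  rw [mul_sub, I_sub (mem_mul_22 hb2 (RL_mem2 hC hP h ht hr hk hk'))
    (mem_mul_22 hb2 (RL_mem2 hC hP h hs hr hk hk'))]
  rcases le_total s t with h1 | h1
  · exact CE_W hC hB hP h hs ⟨h1, ht.2⟩ hr hk hk' hb
  · rw [intervalIntegral.integral_symm, ← CE_W hC hB hP h ht ⟨h1, hs.2⟩ hr hk hk' hb]
    ring

/-! ### mass -/

/-- the cut-offs -/
theorem exists_cutA (hC : IsGamma C) : ∃ η : ℕ → M →ₘ[m] ℝ, (∀ j, η j ∈ C.A) ∧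
    (∀ j, MemLp (η j) 2 m) ∧ (∀ j, 0 ≤ η j) ∧ (∀ j, ∀ᵐ x ∂m, |η j x| ≤ 1) ∧
    (∀ j, ∀ᵐ x ∂m, C.Γ (η j) (η j) x ≤ ((j : ℝ) + 1)⁻¹) ∧
    (∀ᵐ x ∂m, Tendsto (fun j => η j x) atTop (𝓝 1)) := by
  obtain ⟨η, h1, hmono, h3⟩ := hC.cutoff
  have hη1 : ∀ j, ∀ᵐ x ∂m, |η j x| ≤ 1 := fun j => by
    filter_upwards [nonneg_iff_ae.1 (h1 j).2.1, le_iff_ae.1 (h1 j).2.2.1,
      one_ae (M := M) (m := m)] with x a1 a2 a3
    rw [a3] at a2
    rwa [abs_of_nonneg a1]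
  refine ⟨η, fun j => ⟨(h1 j).1, mem_top_iff.2 ⟨1, hη1 j⟩⟩, fun j => hC.memLp _ (h1 j).1,
    fun j => (h1 j).2.1, hη1, fun j => ?_, h3⟩
  filter_upwards [le_iff_ae.1 (h1 j).2.2.2,
    smul_ae (1 : M →ₘ[m] ℝ) ((j : ℝ) + 1)⁻¹, one_ae (M := M) (m := m)] with x a2 a3 a4
  rwa [a3, a4, mul_one] at a2

/-- cut-offs and integrable functions -/
theorem cut_tendsto {η : ℕ → M →ₘ[m] ℝ} (h1 : ∀ j, ∀ᵐ x ∂m, |η j x| ≤ 1)
    (h3 : ∀ᵐ x ∂m, Tendsto (fun j => η j x) atTop (𝓝 1)) {F : M →ₘ[m] ℝ} (hF : MemLp F 1 m) :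
    Tendsto (fun j => I (η j * F)) atTop (𝓝 (I F)) := by
  refine I_tendsto_of_dominated (G := fun x => |F x|) (int_of_mem hF).abs (fun j => ?_) ?_
  · filter_upwards [h1 j, mul_ae (η j) F] with x a1 a2
    rw [a2, abs_mul]
    nlinarith [abs_nonneg (F x)]
  · filter_upwards [h3, ae_all_iff.2 fun j => mul_ae (η j) F] with x a1 a2
    have := a1.mul_const (F x)
    rw [one_mul] at this
    exact this.congr fun j => (a2 j).symm

theorem RL_mass_le [SigmaFinite m] (hC : IsGamma C) (hP : Heat C K P)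
    (h : LimHyp C P U ε φn un z φ ρ L B E) (ht : t ∈ Ioc (0 : ℝ) 1)
    (hr : r ∈ Ioc (0 : ℝ) 1) (hk : MemLp k 2 m) (hk' : MemLp k ∞ m) (hk1 : MemLp k 1 m)
    (hk0 : 0 ≤ k) : MemLp (RL P U ε φn un t r k) 1 m ∧
      I (RL P U ε φn un t r k) ≤ I (k * ρ r) := by
  obtain ⟨η, hA, hη2, hη0, hη1, hηΓ, hηl⟩ := exists_cutA (m := m) hC
  set R := RL P U ε φn un t r k with hR
  have R2 : MemLp R 2 m := RL_mem2 hC hP h ht hr hk hk'
  have R0 := RL_nonneg hC hP h ht hr hk hk' hk0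
  have Rx := nonneg_iff_ae.1 R0
  have key : ∀ j, I (η j * R) ≤ I (k * ρ r) := by
    intro j
    refine le_of_tendsto_of_tendsto ((R_wconv hC hP h ht hr hk hk').lim (η j) (hη2 j))
      (I_sq_rho_lim h hr hk hk1) ?_
    filter_upwards [h.pair] with n hp
    have hF := FG.of_pair hp
    have e1 := RR_mass hC hF hP (Ioc_Icc ht) (Ioc_Icc hr) hk hk1
    rw [← e1]
    have n0 := RR_nonneg hC hF hP (Ioc_Icc ht) (Ioc_Icc hr) hk hk0
    have m1 := RR_mem1 hC hF hP (Ioc_Icc ht) (Ioc_Icc hr) hk hk1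
    refine I_mono (mem_mul_22 (hη2 j) (RR_mem2 hC hF hP (Ioc_Icc ht) (Ioc_Icc hr) hk)) m1
      (le_iff_ae.2 ?_)
    filter_upwards [hη1 j, nonneg_iff_ae.1 n0, mul_ae (η j) (Rn P ε φn un n t r k)]
      with x a1 a2 a3
    rw [a3]
    have : η j x ≤ 1 := (le_abs_self _).trans a1
    exact mul_le_of_le_one_left a2 this
  have hc0 : 0 ≤ I (k * ρ r) := by
    refine le_trans ?_ (key 0)
    exact I_nonneg (mul_nonneg (hη0 0) R0)
  have fat : ∫⁻ x, ENNReal.ofReal (R x) ∂m ≤ ENNReal.ofReal (I (k * ρ r)) := by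
    have e1 : ∫⁻ x, ENNReal.ofReal (R x) ∂m
        = ∫⁻ x, liminf (fun j => ENNReal.ofReal ((η j * R : M →ₘ[m] ℝ) x)) atTop ∂m := by
      refine lintegral_congr_ae ?_
      filter_upwards [hηl, ae_all_iff.2 fun j => mul_ae (η j) R] with x a1 a2
      have h1 : Tendsto (fun j => ENNReal.ofReal ((η j * R : M →ₘ[m] ℝ) x)) atTop
          (𝓝 (ENNReal.ofReal (R x))) := by
        refine ENNReal.tendsto_ofReal ?_
        have := a1.mul_const (R x)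
        rw [one_mul] at this
        exact this.congr fun j => (a2 j).symm
      exact h1.liminf_eq.symm
    rw [e1]
    refine (lintegral_liminf_le' fun j => ((η j * R).aestronglyMeasurable.aemeasurable.ennreal_ofReal)).trans ?_
    refine Filter.liminf_le_of_frequently_le' (Eventually.of_forall fun j => ?_).frequently
    rw [← ofReal_integral_eq_lintegral_ofReal (int_of_mem (mem_mul_22 (hη2 j) R2))
      (nonneg_iff_ae.1 (mul_nonneg (hη0 j) R0))]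
    exact ENNReal.ofReal_le_ofReal (key j)
  have hint : Integrable R m :=
    ⟨R.aestronglyMeasurable, (hasFiniteIntegral_iff_ofReal Rx).2
      (fat.trans_lt ENNReal.ofReal_lt_top)⟩
  refine ⟨memLp_one_iff_integrable.2 hint, ?_⟩
  rw [← ofReal_integral_eq_lintegral_ofReal hint Rx] at fat
  exact (ENNReal.ofReal_le_ofReal_iff hc0).1 fat

theorem RL_mass_nonneg [SigmaFinite m] (hC : IsGamma C) (hB : C.BEi κ) (hP : Heat C K P)
    (h : LimHyp C P U ε φn un z φ ρ L B E) (ht : t ∈ Ioc (0 : ℝ) 1)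
    (hr : r ∈ Ioc (0 : ℝ) 1) (hk : MemLp k 2 m) (hk' : MemLp k ∞ m) (hk1 : MemLp k 1 m)
    (hk0 : 0 ≤ k) : I (RL P U ε φn un t r k) = I (k * ρ r) := by
  obtain ⟨η, hA, hη2, hη0, hη1, hηΓ, hηl⟩ := exists_cutA (m := m) hC
  have hkr : MemLp (k * ρ r : M →ₘ[m] ℝ) 1 m := mem_top_mul hk1 (rho_top h hr)
  have l1 := cut_tendsto hη1 hηl (RL_mass_le hC hP h ht hr hk hk' hk1 hk0).1
  have l2 := cut_tendsto hη1 hηl hkr
  have hL := h.hL
  set c0 := I (k * ρ r) with hc0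
  have hc00 : 0 ≤ c0 := I_nonneg (mul_nonneg hk0 (rho_nonneg h hr))
  have l3 : Tendsto (fun j : ℕ => √(((j : ℝ) + 1)⁻¹) * (L * c0)) atTop (𝓝 0) := by
    have := (sqrt_tendsto_zero tendsto_inv_succ).mul_const (L * c0)
    simpa using this
  have key : ∀ j, |I (η j * RL P U ε φn un t r k) - I (η j * (k * ρ r))|
      ≤ √(((j : ℝ) + 1)⁻¹) * (L * c0) := by
    intro j
    have h1 := CE_all hC hB hP h hr ht hr hk hk' (hA j).1
    rw [RL_diag hC hP h hr hk hk', mul_sub, I_sub (mem_mul_22 (hη2 j)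
      (RL_mem2 hC hP h ht hr hk hk')) (mem_mul_22 (hη2 j) (mem_top_mul hk (rho_top h hr)))] at h1
    rw [h1]
    have hbd : ∀ τ ∈ Ioc (0 : ℝ) 1, |FL C P U ε φn un z r k (η j) τ|
        ≤ √(((j : ℝ) + 1)⁻¹) * (L * c0) := by
      intro τ hτ
      have hz := h.zW τ (Ioc_Icc hτ)
      have hzL := h.zL τ (Ioc_Icc hτ)
      obtain ⟨m1, m2⟩ := RL_mass_le hC hP h hτ hr hk hk' hk1 hk0
      have R0 := RL_nonneg hC hP h hτ hr hk hk' hk0
      set R := RL P U ε φn un τ r k with hR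
      have hle : |I (C.Γ (η j) (z τ) * R)| ≤ √(((j : ℝ) + 1)⁻¹) * L * I R := by
        have e1 : |I (C.Γ (η j) (z τ) * R)| ≤ ∫ x, |(C.Γ (η j) (z τ) * R : M →ₘ[m] ℝ) x| ∂m :=
          abs_integral_le_integral_abs
        refine e1.trans ?_
        have e2 : √(((j : ℝ) + 1)⁻¹) * L * I R = ∫ x, √(((j : ℝ) + 1)⁻¹) * L * R x ∂m := by
          rw [integral_const_mul]; rfl
        rw [e2]
        refine integral_mono_ae (int_of_mem (mem_mul_22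
          (Γ_mem2' hC.toIsDir hz (hA j).1 hzL) (RL_mem2 hC hP h hτ hr hk hk'))).abs
          ((int_of_mem m1).const_mul _) ?_
        filter_upwards [hC.Γ_abs_ae (hA j).1 hz, hηΓ j, hzL, nonneg_iff_ae.1 R0,
          mul_ae (C.Γ (η j) (z τ)) R] with x a1 a2 a3 a4 a5
        rw [a5, abs_mul, abs_of_nonneg a4]
        refine mul_le_mul_of_nonneg_right (a1.trans ?_) a4
        refine mul_le_mul (Real.sqrt_le_sqrt a2) ?_ (Real.sqrt_nonneg _) (Real.sqrt_nonneg _)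
        rw [Real.sqrt_le_left hL]; exact a3
      refine hle.trans ?_
      rw [mul_assoc]
      exact mul_le_mul_of_nonneg_left (mul_le_mul_of_nonneg_left m2 hL) (Real.sqrt_nonneg _)
    have h2 : |∫ τ in r..t, FL C P U ε φn un z r k (η j) τ|
        ≤ √(((j : ℝ) + 1)⁻¹) * (L * c0) * |t - r| := by
      rw [← Real.norm_eq_abs]
      refine intervalIntegral.norm_integral_le_of_norm_le_const fun τ hτ => ?_
      refine hbd τ ?_
      rw [uIoc] at hτ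
      exact ⟨(lt_min hr.1 ht.1).trans hτ.1, hτ.2.trans (max_le hr.2 ht.2)⟩
    refine h2.trans ?_
    have h3 : |t - r| ≤ 1 := by
      rw [abs_le]; constructor <;> linarith [ht.1, ht.2, hr.1, hr.2]
    exact mul_le_of_le_one_right (by positivity) h3
  have l4 : Tendsto (fun j => I (η j * RL P U ε φn un t r k) - I (η j * (k * ρ r))) atTop
      (𝓝 0) := by
    rw [tendsto_zero_iff_abs_tendsto_zero]
    exact squeeze_zero (fun _ => abs_nonneg _) key l3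
  have := tendsto_nhds_unique l4 (l1.sub l2)
  linarith

theorem mem_abs {p : ℝ≥0∞} {f : M →ₘ[m] ℝ} (hf : MemLp f p m) : MemLp (|f| : M →ₘ[m] ℝ) p m := by
  refine mem_of_le hf ?_
  filter_upwards [AEEqFun.coeFn_abs f] with x hx
  rw [hx, abs_abs]

theorem RL_mass [SigmaFinite m] (hC : IsGamma C) (hB : C.BEi κ) (hP : Heat C K P)
    (h : LimHyp C P U ε φn un z φ ρ L B E) (ht : t ∈ Ioc (0 : ℝ) 1)
    (hr : r ∈ Ioc (0 : ℝ) 1) (hk : MemLp k 2 m) (hk' : MemLp k ∞ m) (hk1 : MemLp k 1 m) :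
    MemLp (RL P U ε φn un t r k) 1 m ∧ I (RL P U ε φn un t r k) = I (k * ρ r) := by
  set a : M →ₘ[m] ℝ := |k| with ha
  set c : M →ₘ[m] ℝ := |k| - k with hc
  have a2 := mem_abs hk
  have at' := mem_abs hk'
  have a1 := mem_abs hk1
  have c2 : MemLp c 2 m := mem_sub a2 hk
  have ct : MemLp c ∞ m := mem_sub at' hk'
  have c1 : MemLp c 1 m := mem_sub a1 hk1
  have a0 : 0 ≤ a := abs_nonneg k
  have c0 : 0 ≤ c := sub_nonneg.2 (le_abs_self k)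
  have e : k = a - c := by rw [hc]; abel
  have e1 : RL P U ε φn un t r k = RL P U ε φn un t r a - RL P U ε φn un t r c := by
    conv_lhs => rw [e]
    exact RL_sub hC hP h ht hr a2 at' c2 ct
  have ma := RL_mass_le hC hP h ht hr a2 at' a1 a0
  have mc := RL_mass_le hC hP h ht hr c2 ct c1 c0
  have hρ := rho_top h hr
  refine ⟨by rw [e1]; exact mem_sub ma.1 mc.1, ?_⟩
  rw [e1, I_sub ma.1 mc.1, RL_mass_nonneg hC hB hP h ht hr a2 at' a1 a0,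
    RL_mass_nonneg hC hB hP h ht hr c2 ct c1 c0]
  have e2 : k * ρ r = a * ρ r - c * ρ r := by rw [hc, ha]; ring
  rw [e2, I_sub (mem_top_mul a1 hρ) (mem_top_mul c1 hρ)]

end ceW

/-! ### the continuity equation of the density -/

section cerho

variable {κ K : ℝ} {P : ℝ → (M →ₘ[m] ℝ) → (M →ₘ[m] ℝ)} {U : Ultrafilter ι} {ε : ι → ℝ}
  {φn un : ι → ℝ → M →ₘ[m] ℝ} {z φ ρ : ℝ → M →ₘ[m] ℝ} {L : ℝ} {B E : ℝ → ℝ}
  {k l b : M →ₘ[m] ℝ} {t r s s' t0 : ℝ}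

theorem Γ_sub_mul_self (hC : IsGamma C) {η b : M →ₘ[m] ℝ} (hη : η ∈ C.A) (hb : b ∈ C.A) :
    ∀ᵐ x ∂m, C.Γ (b - η * b) (b - η * b) x
      ≤ 2 * ((1 - η x) ^ 2 * C.Γ b b x) + 2 * (b x ^ 2 * C.Γ η η x) := by
  have hηb := hC.mul_mem_A hη hb
  have e1 : C.Γ (b - η * b) (b - η * b) = C.Γ b b - C.Γ b (η * b)
      - (C.Γ (η * b) b - C.Γ (η * b) (η * b)) := by
    rw [hC.Γ_sub_left hb.1 hηb.1 (hC.sub_mem hb.1 hηb.1), hC.Γ_sub_right hb.1 hb.1 hηb.1,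
      hC.Γ_sub_right hηb.1 hb.1 hηb.1]
  have e2 : C.Γ (η * b) b = η * C.Γ b b + b * C.Γ η b := hC.Γ_mul_left hη hb hb.1
  have e3 : C.Γ b (η * b) = η * C.Γ b b + b * C.Γ η b := by
    rw [hC.symm b hb.1 _ hηb.1, e2]
  have e4 : C.Γ (η * b) (η * b) = η * (η * C.Γ b b + b * C.Γ η b)
      + b * (η * C.Γ η b + b * C.Γ η η) := by
    rw [hC.Γ_mul_left hη hb hηb.1, e3, hC.Γ_mul_right hη hb hη.1]
  rw [e1, e2, e3, e4]
  filter_upwards [sub_ae (C.Γ b b - (η * C.Γ b b + b * C.Γ η b))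
      (η * C.Γ b b + b * C.Γ η b - (η * (η * C.Γ b b + b * C.Γ η b)
      + b * (η * C.Γ η b + b * C.Γ η η))),
    sub_ae (C.Γ b b) (η * C.Γ b b + b * C.Γ η b),
    sub_ae (η * C.Γ b b + b * C.Γ η b) (η * (η * C.Γ b b + b * C.Γ η b)
      + b * (η * C.Γ η b + b * C.Γ η η)),
    add_ae (η * C.Γ b b) (b * C.Γ η b),
    add_ae (η * (η * C.Γ b b + b * C.Γ η b)) (b * (η * C.Γ η b + b * C.Γ η η)),
    mul_ae η (η * C.Γ b b + b * C.Γ η b), mul_ae b (η * C.Γ η b + b * C.Γ η η),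
    add_ae (η * C.Γ η b) (b * C.Γ η η), mul_ae η (C.Γ b b), mul_ae b (C.Γ η b),
    mul_ae η (C.Γ η b), mul_ae b (C.Γ η η), hC.Γ_cs_ae hη.1 hb.1, hC.Γ_nonneg_ae hη.1,
    hC.Γ_nonneg_ae hb.1] with x a1 a2 a3 a4 a5 a6 a7 a8 a9 a10 a11 a12 a13 a14 a15
  rw [a1, a2, a3, a5, a6, a7, a8, a4, a9, a10, a11, a12]
  generalize C.Γ b b x = X at a13 a15 ⊢
  generalize C.Γ η η x = Y at a13 a14 ⊢
  generalize C.Γ η b x = Z at a13 ⊢
  generalize η x = p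
  generalize b x = q
  -- `(1-p)² X - 2 (1-p) q Z + q² Y ≤ 2 (1-p)² X + 2 q² Y`
  have h1 : ((1 - p) * q * Z) ^ 2 ≤ ((1 - p) ^ 2 * X) * (q ^ 2 * Y) := by
    have : ((1 - p) * q * Z) ^ 2 = ((1 - p) ^ 2 * q ^ 2) * Z ^ 2 := by ring
    rw [this]
    have h2 := mul_le_mul_of_nonneg_left a13 (by positivity : 0 ≤ (1 - p) ^ 2 * q ^ 2)
    nlinarith
  have h3 : |(1 - p) * q * Z| ≤ ((1 - p) ^ 2 * X + q ^ 2 * Y) / 2 := by
    refine abs_le_of_sq_le_sq ?_ (by positivity)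
    nlinarith [sq_nonneg ((1 - p) ^ 2 * X - q ^ 2 * Y)]
  have h4 := (abs_le.1 h3).1
  nlinarith

/-- integrable Sobolev functions are dense in `W` -/
theorem dense_W1 [SigmaFinite m] (hC : IsGamma C) (hB : C.BEi κ) (hb : b ∈ C.W) {δ : ℝ}
    (hδ : 0 < δ) : ∃ b' ∈ C.W, MemLp b' 1 m ∧ C.nrm2 (b - b') < δ := by
  obtain ⟨c, hc, h1⟩ := hC.testI_dense hB hb (ε := δ / 8) (by positivity)
  rw [← hC.nrm2_sub_comm hb (hC.test_A hc.1).1] at h1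
  have hcA := hC.test_A hc.1
  have c2 := hC.memLp _ hcA.1
  obtain ⟨η, hA, hη2, hη0, hη1, hηΓ, hηl⟩ := exists_cutA (m := m) hC
  have hm : ∀ j, η j * c ∈ C.A := fun j => hC.mul_mem_A (hA j) hcA
  have l1 : Tendsto (fun j => I ((c - η j * c) ^ 2)) atTop (𝓝 0) := by
    have := I_tendsto_of_dominated (u := fun j => (c - η j * c) ^ 2) (f := (0 : M →ₘ[m] ℝ))
      (G := fun x => 4 * c x ^ 2)
      (((int_of_mem (mem_sq c2)).congr (sq_ae c)).const_mul 4) (fun j => ?_) ?_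
    · rwa [I_zero] at this
    · filter_upwards [sq_ae (c - η j * c), sub_ae c (η j * c), mul_ae (η j) c, hη1 j]
        with x a1 a2 a3 a4
      rw [a1, a2, a3, abs_of_nonneg (sq_nonneg _)]
      have e : c x - η j x * c x = (1 - η j x) * c x := by ring
      rw [e, mul_pow]
      have h5 : (1 - η j x) ^ 2 ≤ 4 := by
        have := abs_le.1 a4
        nlinarith
      nlinarith [sq_nonneg (c x)]
    · filter_upwards [hηl, ae_all_iff.2 fun j => sq_ae (c - η j * c),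
        ae_all_iff.2 fun j => sub_ae c (η j * c), ae_all_iff.2 fun j => mul_ae (η j) c,
        zero_ae (M := M) (m := m)] with x a1 a2 a3 a4 a5
      rw [a5]
      have h5 : Tendsto (fun j => (c x - η j x * c x) ^ 2) atTop (𝓝 ((c x - 1 * c x) ^ 2)) :=
        ((a1.mul_const (c x)).const_sub (c x)).pow 2
      rw [one_mul, sub_self, zero_pow two_ne_zero] at h5
      refine h5.congr fun j => ?_
      rw [a2, a3, a4]
  have l2 : Tendsto (fun j => I ((1 - η j) ^ 2 * C.Γ c c)) atTop (𝓝 0) := by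
    have := I_tendsto_of_dominated (u := fun j => (1 - η j) ^ 2 * C.Γ c c) (f := (0 : M →ₘ[m] ℝ))
      (G := fun x => 4 * C.Γ c c x) ((int_of_mem (hC.mem1 _ hcA.1)).const_mul 4) (fun j => ?_) ?_
    · rwa [I_zero] at this
    · filter_upwards [mul_ae ((1 - η j) ^ 2) (C.Γ c c), sq_ae (1 - η j), sub_ae 1 (η j),
        one_ae (M := M) (m := m), hη1 j, hC.Γ_nonneg_ae hcA.1] with x a1 a2 a3 a4 a5 a6
      rw [a1, a2, a3, a4, abs_of_nonneg (mul_nonneg (sq_nonneg _) a6)]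
      have h5 : (1 - η j x) ^ 2 ≤ 4 := by
        have := abs_le.1 a5
        nlinarith
      nlinarith
    · filter_upwards [hηl, ae_all_iff.2 fun j => mul_ae ((1 - η j) ^ 2) (C.Γ c c),
        ae_all_iff.2 fun j => sq_ae (1 - η j), ae_all_iff.2 fun j => sub_ae 1 (η j),
        one_ae (M := M) (m := m), zero_ae (M := M) (m := m)] with x a1 a2 a3 a4 a5 a6
      rw [a6]
      have h5 : Tendsto (fun j => (1 - η j x) ^ 2 * C.Γ c c x) atTop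
          (𝓝 ((1 - 1) ^ 2 * C.Γ c c x)) :=
        (((a1.const_sub 1).pow 2)).mul_const _
      rw [sub_self, zero_pow two_ne_zero, zero_mul] at h5
      refine h5.congr fun j => ?_
      rw [a2, a3, a4, a5]
  have l3 : Tendsto (fun j : ℕ => I ((c - η j * c) ^ 2) + (2 * I ((1 - η j) ^ 2 * C.Γ c c)
      + 2 * (((j : ℝ) + 1)⁻¹ * I (c ^ 2)))) atTop (𝓝 0) := by
    have := l1.add ((l2.const_mul 2).add ((tendsto_inv_succ.mul_const (I (c ^ 2))).const_mul 2))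
    simpa using this
  obtain ⟨j, hj⟩ := (l3.eventually (gt_mem_nhds (show (0 : ℝ) < δ / 8 by positivity))).exists
  refine ⟨η j * c, (hm j).1, mem_mul_22 (hη2 j) c2, ?_⟩
  have hE : I (C.Γ (c - η j * c) (c - η j * c)) ≤ 2 * I ((1 - η j) ^ 2 * C.Γ c c)
      + 2 * (((j : ℝ) + 1)⁻¹ * I (c ^ 2)) := by
    have t1 : MemLp ((1 - η j) ^ 2 : M →ₘ[m] ℝ) ∞ m :=
      sq_memt (mem_sub (mem_top_one (M := M) (m := m)) (hA j).2)
    have m1 : MemLp ((1 - η j) ^ 2 * C.Γ c c : M →ₘ[m] ℝ) 1 m := mem_mul_top t1 (hC.mem1 _ hcA.1)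
    have m2 : MemLp (c ^ 2 : M →ₘ[m] ℝ) 1 m := mem_sq c2
    have e : 2 * I ((1 - η j) ^ 2 * C.Γ c c) + 2 * (((j : ℝ) + 1)⁻¹ * I (c ^ 2))
        = I ((2 : ℝ) • ((1 - η j) ^ 2 * C.Γ c c) + (2 : ℝ) • (((j : ℝ) + 1)⁻¹ • c ^ 2)) := by
      rw [I_add (mem_smul _ m1) (mem_smul _ (mem_smul _ m2)), I_smul, I_smul, I_smul]
    rw [e]
    refine I_mono (hC.mem1 _ (hC.sub_mem hcA.1 (hm j).1))
      (mem_add (mem_smul _ m1) (mem_smul _ (mem_smul _ m2))) (le_iff_ae.2 ?_)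
    filter_upwards [Γ_sub_mul_self hC (hA j) hcA, hηΓ j,
      add_ae ((2 : ℝ) • ((1 - η j) ^ 2 * C.Γ c c)) ((2 : ℝ) • (((j : ℝ) + 1)⁻¹ • c ^ 2)),
      smul_ae ((1 - η j) ^ 2 * C.Γ c c) 2, smul_ae (((j : ℝ) + 1)⁻¹ • c ^ 2) 2,
      smul_ae (c ^ 2) ((j : ℝ) + 1)⁻¹, sq_ae c, mul_ae ((1 - η j) ^ 2) (C.Γ c c),
      sq_ae (1 - η j), sub_ae 1 (η j), one_ae (M := M) (m := m)]
      with x a1 a2 a3 a4 a5 a6 a7 a8 a9 a10 a11
    rw [a3, a4, a5, a6, a7, a8, a9, a10, a11]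
    refine a1.trans ?_
    have := mul_le_mul_of_nonneg_left a2 (sq_nonneg (c x))
    linarith
  have h2 : C.nrm2 (c - η j * c) < δ / 8 := by
    unfold Calc.nrm2
    linarith
  have h3 := hC.nrm2_add_le (hC.sub_mem hb hcA.1) (hC.sub_mem hcA.1 (hm j).1)
  rw [sub_add_sub_cancel] at h3
  linarith

/-- the densities with weights `η j` converge to `ρ` -/
theorem RL_cut_tendsto [SigmaFinite m] (hC : IsGamma C) (hB : C.BEi κ) (hP : Heat C K P)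
    (h : LimHyp C P U ε φn un z φ ρ L B E) {η : ℕ → M →ₘ[m] ℝ} (hA : ∀ j, η j ∈ C.A)
    (hη2 : ∀ j, MemLp (η j) 2 m) (hη0 : ∀ j, 0 ≤ η j) (hη1 : ∀ j, ∀ᵐ x ∂m, |η j x| ≤ 1)
    (hηl : ∀ᵐ x ∂m, Tendsto (fun j => η j x) atTop (𝓝 1)) (ht : t ∈ Ioc (0 : ℝ) 1)
    {G : M →ₘ[m] ℝ} (hG : MemLp G 1 m) :
    Tendsto (fun j => I (G * RL P U ε φn un t 1 (η j))) atTop (𝓝 (I (G * ρ t))) := by
  have h1 : (1 : ℝ) ∈ Ioc (0 : ℝ) 1 := ⟨one_pos, le_rfl⟩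
  have hρ := rho_top h ht
  have Rt : ∀ j, MemLp (RL P U ε φn un t 1 (η j)) ∞ m := fun j =>
    RL_memt hC hP h ht h1 (hη2 j) (hA j).2
  have key : Tendsto (fun n => I (G * (ρ t - RL P U ε φn un t 1 (η n)))) atTop (𝓝 0) := by
    refine tendsto_I_weight (K := B t) (Eventually.of_forall fun n => ⟨?_, ?_⟩) hη1 hη2 hηl
      (fun j => ?_) hG
    · refine nonneg_iff_ae.2 ?_
      filter_upwards [RL_le hC hP h ht h1 (hη2 n) (hA n).2 (hη1 n),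
        sub_ae (ρ t) (RL P U ε φn un t 1 (η n))] with x a1 a2
      rw [a2, sub_nonneg]
      rw [one_mul] at a1
      exact (le_abs_self _).trans a1
    · filter_upwards [rho_le_B h ht,
        nonneg_iff_ae.1 (RL_nonneg hC hP h ht h1 (hη2 n) (hA n).2 (hη0 n)),
        sub_ae (ρ t) (RL P U ε φn un t 1 (η n))] with x a1 a2 a3
      rw [a3]; linarith
    · have q2 := sq_mem2 (hη2 j) (hA j).2
      have qt := sq_memt (hA j).2
      have q1 : MemLp (η j ^ 2 : M →ₘ[m] ℝ) 1 m := mem_sq (hη2 j)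
      obtain ⟨m1, m2⟩ := RL_mass hC hB hP h h1 ht q2 qt q1
      have l1 := cut_tendsto hη1 hηl m1
      rw [m2] at l1
      have l2 := l1.const_sub (I (η j ^ 2 * ρ t))
      rw [sub_self] at l2
      refine l2.congr fun n => ?_
      rw [mul_sub, I_sub (mem_top_mul q1 hρ) (mem_top_mul q1 (Rt n)),
        RL_symm hC hP h ht h1 (hη2 n) (hA n).2 q2 qt]
  have k2 := key.const_sub (I (G * ρ t))
  rw [sub_zero] at k2
  refine k2.congr fun n => ?_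
  rw [mul_sub, I_sub (mem_top_mul hG hρ) (mem_top_mul hG (Rt n))]
  ring

/-- the velocity functional of the density -/
noncomputable def Fρ (C : Calc m) (z ρ : ℝ → M →ₘ[m] ℝ) (b : M →ₘ[m] ℝ) (t : ℝ) : ℝ :=
  I (C.Γ b (z t) * ρ t)

theorem abs_I_le_of_bd {F G : M →ₘ[m] ℝ} (hF : MemLp F 1 m) {c : ℝ}
    (hG : ∀ᵐ x ∂m, |G x| ≤ c) : |I (F * G)| ≤ c * ∫ x, |F x| ∂m := by
  have hGt : MemLp G ∞ m := mem_top_iff.2 ⟨c, hG⟩
  have e1 : |I (F * G)| ≤ ∫ x, |(F * G : M →ₘ[m] ℝ) x| ∂m := abs_integral_le_integral_abs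
  refine e1.trans ?_
  rw [← integral_const_mul]
  refine integral_mono_ae (int_of_mem (mem_top_mul hF hGt)).abs
    ((int_of_mem hF).abs.const_mul c) ?_
  filter_upwards [hG, mul_ae F G] with x a1 a2
  rw [a2, abs_mul, mul_comm]
  exact mul_le_mul_of_nonneg_right a1 (abs_nonneg _)

theorem abs_Γ_le (hC : IsGamma C) (h : LimHyp C P U ε φn un z φ ρ L B E)
    (hs : s ∈ Ioc (0 : ℝ) 1) (ht : t ∈ Icc s 1) (hb : b ∈ C.W) {G : M →ₘ[m] ℝ}
    (hG : ∀ᵐ x ∂m, |G x| ≤ B s) :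
    |I (C.Γ b (z t) * G)| ≤ B s * (√(I (C.Γ b b)) * √(E s)) := by
  have htI := Icc_sub hs ht
  have hz := h.zW t (Ioc_Icc htI)
  refine (abs_I_le_of_bd (hC.Γ_mem1 hb hz) hG).trans (mul_le_mul_of_nonneg_left ?_ (h.B0 s))
  refine (hC.int_abs_Γ_le hb hz).trans ?_
  exact mul_le_mul_of_nonneg_left (Real.sqrt_le_sqrt (h.zE s hs t ht)) (Real.sqrt_nonneg _)

theorem Fρ_facts [SigmaFinite m] (hC : IsGamma C) (hB : C.BEi κ) (hP : Heat C K P)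
    (h : LimHyp C P U ε φn un z φ ρ L B E) (hs : s ∈ Ioc (0 : ℝ) 1) (ht : t ∈ Icc s 1)
    (hb : b ∈ C.W) : IntervalIntegrable (Fρ C z ρ b) volume s t ∧
      (MemLp b 1 m → I (b * (ρ t - ρ s)) = ∫ τ in s..t, Fρ C z ρ b τ) := by
  have h1 : (1 : ℝ) ∈ Ioc (0 : ℝ) 1 := ⟨one_pos, le_rfl⟩
  have htI := Icc_sub hs ht
  obtain ⟨η, hA, hη2, hη0, hη1, hηΓ, hηl⟩ := exists_cutA (m := m) hC
  set D := B s * (√(I (C.Γ b b)) * √(E s)) with hD
  have hlim : ∀ τ ∈ Icc s 1, Tendsto (fun j => FL C P U ε φn un z 1 (η j) b τ) atTop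
      (𝓝 (Fρ C z ρ b τ)) := fun τ hτ =>
    RL_cut_tendsto hC hB hP h hA hη2 hη0 hη1 hηl (Icc_sub hs hτ)
      (hC.Γ_mem1 hb (h.zW τ (Ioc_Icc (Icc_sub hs hτ))))
  have hbd : ∀ j, ∀ τ ∈ Icc s 1, |FL C P U ε φn un z 1 (η j) b τ| ≤ D := by
    intro j τ hτ
    refine abs_Γ_le hC h hs hτ hb ?_
    filter_upwards [RL_le hC hP h (Icc_sub hs hτ) h1 (hη2 j) (hA j).2 (hη1 j),
      rho_le_B' h hs hτ] with x a1 a2
    rw [one_mul] at a1
    exact a1.trans a2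
  have hsub : uIoc s t ⊆ Icc s 1 := by
    rw [uIoc_of_le ht.1]
    exact fun x hx => ⟨hx.1.le, hx.2.trans ht.2⟩
  have hint : ∀ j, IntervalIntegrable (FL C P U ε φn un z 1 (η j) b) volume s t := fun j =>
    FL_int hC hB hP h hs htI h1 (hη2 j) (hA j).2 hb
  have hmeas : ∀ j, AEStronglyMeasurable (FL C P U ε φn un z 1 (η j) b)
      (volume.restrict (uIoc s t)) := fun j => (hint j).def'.aestronglyMeasurable
  have hmeasL : AEStronglyMeasurable (Fρ C z ρ b) (volume.restrict (uIoc s t)) := by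
    refine aestronglyMeasurable_of_tendsto_ae atTop hmeas ?_
    exact (ae_restrict_iff' measurableSet_uIoc).2 (Eventually.of_forall fun τ hτ =>
      hlim τ (hsub hτ))
  have hbdL : ∀ τ ∈ Icc s 1, |Fρ C z ρ b τ| ≤ D := fun τ hτ =>
    le_of_tendsto (hlim τ hτ).abs (Eventually.of_forall fun j => hbd j τ hτ)
  have hi : IntervalIntegrable (Fρ C z ρ b) volume s t := by
    rw [intervalIntegrable_iff]
    refine ⟨hmeasL, ?_⟩
    haveI : Fact (volume (uIoc s t) < ∞) := ⟨by rw [uIoc]; exact measure_Ioc_lt_top⟩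
    refine HasFiniteIntegral.of_bounded (C := D) ?_
    exact (ae_restrict_iff' measurableSet_uIoc).2 (Eventually.of_forall fun τ hτ => by
      rw [Real.norm_eq_abs]; exact hbdL τ (hsub hτ))
  refine ⟨hi, fun hb1 => ?_⟩
  have l1 := intervalIntegral.tendsto_integral_filter_of_dominated_convergence
    (μ := volume) (l := atTop) (F := fun j => FL C P U ε φn un z 1 (η j) b) (f := Fρ C z ρ b)
    (a := s) (b := t) (fun _ => D) (Eventually.of_forall hmeas)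
    (Eventually.of_forall fun j => Eventually.of_forall fun τ hτ => by
      rw [Real.norm_eq_abs]; exact hbd j τ (hsub hτ))
    intervalIntegrable_const
    (Eventually.of_forall fun τ hτ => hlim τ (hsub hτ))
  have l2 := (RL_cut_tendsto hC hB hP h hA hη2 hη0 hη1 hηl htI hb1).sub
    (RL_cut_tendsto hC hB hP h hA hη2 hη0 hη1 hηl hs hb1)
  rw [mul_sub, I_sub (mem_top_mul hb1 (rho_top h htI)) (mem_top_mul hb1 (rho_top h hs))]
  refine tendsto_nhds_unique (l2.congr fun j => ?_) l1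
  exact CE_W hC hB hP h hs ht h1 (hη2 j) (hA j).2 hb

theorem rho_sub_mem (h : LimHyp C P U ε φn un z φ ρ L B E) (hs : s ∈ Ioc (0 : ℝ) 1)
    (ht : t ∈ Ioc (0 : ℝ) 1) : MemLp (ρ t - ρ s : M →ₘ[m] ℝ) 2 m := by
  have := mem_sub (h.ρlim t ht).mem (h.ρlim s hs).mem
  rwa [sub_sub_sub_cancel_right] at this

theorem CEρ_le [SigmaFinite m] (hC : IsGamma C) (hB : C.BEi κ) (hP : Heat C K P)
    (h : LimHyp C P U ε φn un z φ ρ L B E) (hs : s ∈ Ioc (0 : ℝ) 1) (ht : t ∈ Icc s 1)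
    (hb : b ∈ C.W) : I (b * (ρ t - ρ s)) = ∫ τ in s..t, Fρ C z ρ b τ := by
  have htI := Icc_sub hs ht
  have m2 := rho_sub_mem h hs htI
  have hb2 := hC.memLp b hb
  set S := √(I ((ρ t - ρ s) ^ 2)) with hS
  have hS0 : 0 ≤ S := Real.sqrt_nonneg _
  have hB0 := h.B0 s
  refine eq_of_forall_dist_le fun δ hδ => ?_
  set D := S + B s * √(E s) + 1 with hD
  have hD0 : 0 < D := by positivity
  obtain ⟨b', hb', hb'1, h1⟩ := dense_W1 hC hB hb (δ := (δ / D) ^ 2) (by positivity)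
  have hb'2 := hC.memLp _ hb'
  obtain ⟨j1, h2⟩ := Fρ_facts hC hB hP h hs ht hb'
  have h2 := h2 hb'1
  obtain ⟨j2, -⟩ := Fρ_facts hC hB hP h hs ht hb
  set c := b - b' with hc
  have hcW : c ∈ C.W := hC.sub_mem hb hb'
  have hc2 := hC.memLp c hcW
  have n0 : √(C.nrm2 c) ≤ δ / D := by
    refine (Real.sqrt_le_sqrt h1.le).trans ?_
    rw [Real.sqrt_sq (by positivity)]
  have nE : √(I (C.Γ c c)) ≤ δ / D := (Real.sqrt_le_sqrt (hC.E_le_nrm2 c)).trans n0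
  have n2 : √(I (c ^ 2)) ≤ δ / D := (Real.sqrt_le_sqrt (hC.I_sq_le_nrm2 hcW)).trans n0
  have a1 : |I (c * (ρ t - ρ s))| ≤ δ / D * S :=
    (I_abs_le hc2 m2).trans (mul_le_mul_of_nonneg_right n2 hS0)
  have e1 : I (b * (ρ t - ρ s)) - I (b' * (ρ t - ρ s)) = I (c * (ρ t - ρ s)) := by
    rw [hc, sub_mul, I_sub (mem_mul_22 hb2 m2) (mem_mul_22 hb'2 m2)]
  have e2 : (∫ τ in s..t, Fρ C z ρ b τ) - ∫ τ in s..t, Fρ C z ρ b' τ
      = ∫ τ in s..t, Fρ C z ρ c τ := by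
    rw [← intervalIntegral.integral_sub j2 j1]
    refine intervalIntegral.integral_congr fun τ hτ => ?_
    rw [uIcc_of_le ht.1] at hτ
    have hτI : τ ∈ Icc s 1 := ⟨hτ.1, hτ.2.trans ht.2⟩
    have hz := h.zW τ (Ioc_Icc (Icc_sub hs hτI))
    have hρ := rho_top h (Icc_sub hs hτI)
    show I (C.Γ b (z τ) * ρ τ) - I (C.Γ b' (z τ) * ρ τ) = I (C.Γ c (z τ) * ρ τ)
    rw [hc, hC.Γ_sub_left hb hb' hz, sub_mul,
      I_sub (mem_top_mul (hC.Γ_mem1 hb hz) hρ) (mem_top_mul (hC.Γ_mem1 hb' hz) hρ)]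
  have a3 : |∫ τ in s..t, Fρ C z ρ c τ| ≤ B s * (√(I (C.Γ c c)) * √(E s)) * |t - s| := by
    rw [← Real.norm_eq_abs]
    refine intervalIntegral.norm_integral_le_of_norm_le_const fun τ hτ => ?_
    rw [uIoc_of_le ht.1] at hτ
    have hτI : τ ∈ Icc s 1 := ⟨hτ.1.le, hτ.2.trans ht.2⟩
    refine abs_Γ_le hC h hs hτI hcW ?_
    filter_upwards [rho_le_B' h hs hτI, nonneg_iff_ae.1 (rho_nonneg h (Icc_sub hs hτI))]
      with x b1 b2
    rwa [abs_of_nonneg b2]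
  have hts : |t - s| ≤ 1 := by
    rw [abs_of_nonneg (sub_nonneg.2 ht.1)]
    linarith [ht.2, hs.1]
  have a4 : B s * (√(I (C.Γ c c)) * √(E s)) * |t - s| ≤ B s * √(E s) * (δ / D) := by
    calc B s * (√(I (C.Γ c c)) * √(E s)) * |t - s|
        ≤ B s * (√(I (C.Γ c c)) * √(E s)) * 1 := mul_le_mul_of_nonneg_left hts (by positivity)
      _ ≤ B s * (δ / D * √(E s)) := by
          rw [mul_one]
          exact mul_le_mul_of_nonneg_left (mul_le_mul_of_nonneg_right nE (Real.sqrt_nonneg _)) hB0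
      _ = _ := by ring
  rw [Real.dist_eq]
  have e3 : I (b * (ρ t - ρ s)) - (∫ τ in s..t, Fρ C z ρ b τ)
      = I (c * (ρ t - ρ s)) - ∫ τ in s..t, Fρ C z ρ c τ := by
    rw [← e1, ← e2]
    linarith
  rw [e3]
  have e4 : δ / D * S + B s * √(E s) * (δ / D) ≤ δ := by
    have : δ / D * S + B s * √(E s) * (δ / D) = (S + B s * √(E s)) * (δ / D) := by ring
    rw [this, mul_div_assoc', div_le_iff₀ hD0]
    nlinarith
  exact (abs_sub _ _).trans (by linarith)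

/-- the continuity equation of the density, all times -/
theorem CEρ_all [SigmaFinite m] (hC : IsGamma C) (hB : C.BEi κ) (hP : Heat C K P)
    (h : LimHyp C P U ε φn un z φ ρ L B E) (hs : s ∈ Ioc (0 : ℝ) 1) (ht : t ∈ Ioc (0 : ℝ) 1)
    (hb : b ∈ C.W) : IntervalIntegrable (Fρ C z ρ b) volume s t ∧
      I (b * (ρ t - ρ s)) = ∫ τ in s..t, Fρ C z ρ b τ := by
  rcases le_total s t with h1 | h1
  · exact ⟨(Fρ_facts hC hB hP h hs ⟨h1, ht.2⟩ hb).1, CEρ_le hC hB hP h hs ⟨h1, ht.2⟩ hb⟩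
  · refine ⟨(Fρ_facts hC hB hP h ht ⟨h1, hs.2⟩ hb).1.symm, ?_⟩
    rw [intervalIntegral.integral_symm, ← CEρ_le hC hB hP h ht ⟨h1, hs.2⟩ hb, ← I_neg]
    congr 1; ring

end cerho

end Vale.Agent.P233.TT
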